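import Crest.Agent.Lib.GADC.FEnt

/-!
# Channels: block form of `Φ ⊗ Ψ`, complete positivity of tensor powers of `Φ = gadMap γ ν`.

`gadMap γ ν` has Kraus operators (rows `false, true`, `η = 1-γ`)
`K₁ = √(1-ν) [[1,0],[0,√η]]`, `K₂ = √(1-ν) [[0,√γ],[0,0]]`, `K₃ = √ν [[√η,0],[0,1]]`,
`K₄ = √ν [[0,0],[√γ,0]]`; i.e. `qubitCoeff Φ s t s' t' = ∑ κ, K κ s s' * conj (K κ t t')`.
-/

set_option autoImplicit false

namespace Crest.Agent.GADC

open Matrix Crest.Quantum Crest.MathPhysics.AmpDamp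
open scoped ComplexOrder

namespace ChannelAux

/-- Real entries of the four Kraus operators of the generalized amplitude damping map. -/
noncomputable def kr (γ ν : ℝ) : Fin 4 → Bool → Bool → ℝ
  | 0, false, false => Real.sqrt (1 - ν)
  | 0, true, true => Real.sqrt (1 - ν) * Real.sqrt (1 - γ)
  | 1, false, true => Real.sqrt (1 - ν) * Real.sqrt γ
  | 2, false, false => Real.sqrt ν * Real.sqrt (1 - γ)
  | 2, true, true => Real.sqrt ν
  | 3, true, false => Real.sqrt ν * Real.sqrt γ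
  | _, _, _ => 0

theorem kr_coeff {γ ν : ℝ} (hγ : γ ∈ Set.Icc (0 : ℝ) 1) (hν : ν ∈ Set.Icc (0 : ℝ) 1)
    (s t s' t' : Bool) :
    qubitCoeff (gadMap γ ν) s t s' t' = ∑ κ, ((kr γ ν κ s s' : ℝ) : ℂ) * ((kr γ ν κ t t' : ℝ) : ℂ) := by
  obtain ⟨h0, h1⟩ := hγ
  obtain ⟨h2, h3⟩ := hν
  have e1 : Real.sqrt (1 - ν) * Real.sqrt (1 - ν) = 1 - ν := Real.mul_self_sqrt (by linarith)
  have e2 : Real.sqrt ν * Real.sqrt ν = ν := Real.mul_self_sqrt h2
  have e3 : Real.sqrt (1 - γ) * Real.sqrt (1 - γ) = 1 - γ := Real.mul_self_sqrt (by linarith)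
  have e4 : Real.sqrt γ * Real.sqrt γ = γ := Real.mul_self_sqrt h0
  have E1 : ((Real.sqrt (1 - ν) : ℝ) : ℂ) * ((Real.sqrt (1 - ν) : ℝ) : ℂ) = 1 - (ν : ℂ) := by
    exact_mod_cast e1
  have E2 : ((Real.sqrt ν : ℝ) : ℂ) * ((Real.sqrt ν : ℝ) : ℂ) = (ν : ℂ) := by
    exact_mod_cast e2
  have E3 : ((Real.sqrt (1 - γ) : ℝ) : ℂ) * ((Real.sqrt (1 - γ) : ℝ) : ℂ) = 1 - (γ : ℂ) := by
    exact_mod_cast e3
  have E4 : ((Real.sqrt γ : ℝ) : ℂ) * ((Real.sqrt γ : ℝ) : ℂ) = (γ : ℂ) := by
    exact_mod_cast e4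
  cases s <;> cases t <;> cases s' <;> cases t' <;>
    simp only [qubitCoeff, gadMap, Matrix.of_apply, Fin.sum_univ_four, kr] <;>
    simp [Matrix.single]
  · linear_combination -E1 - ((Real.sqrt (1 - γ) : ℝ) : ℂ) * ((Real.sqrt (1 - γ) : ℝ) : ℂ) * E2
      - (ν : ℂ) * E3
  · linear_combination -((Real.sqrt γ : ℝ) : ℂ) * ((Real.sqrt γ : ℝ) : ℂ) * E1 - (1 - (ν : ℂ)) * E4
  · linear_combination -((Real.sqrt (1 - γ) : ℝ) : ℂ) * E1 - ((Real.sqrt (1 - γ) : ℝ) : ℂ) * E2
  · linear_combination -((Real.sqrt (1 - γ) : ℝ) : ℂ) * E1 - ((Real.sqrt (1 - γ) : ℝ) : ℂ) * E2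
  · linear_combination -((Real.sqrt γ : ℝ) : ℂ) * ((Real.sqrt γ : ℝ) : ℂ) * E2 - (ν : ℂ) * E4
  · linear_combination -((Real.sqrt (1 - γ) : ℝ) : ℂ) * ((Real.sqrt (1 - γ) : ℝ) : ℂ) * E1
      - (1 - (ν : ℂ)) * E3 - E2

section
variable {X : Type*} [Fintype X] [DecidableEq X]

/-- The key positivity: `Φ` applied in the last `Bool` factor, for an arbitrary spectator `X`. -/
theorem psd_lift {γ ν : ℝ} (hγ : γ ∈ Set.Icc (0 : ℝ) 1) (hν : ν ∈ Set.Icc (0 : ℝ) 1)
    {N : Matrix (X × Bool) (X × Bool) ℂ} (hN : N.PosSemidef) :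
    (Matrix.of fun p q : X × Bool => ∑ s', ∑ t',
      qubitCoeff (gadMap γ ν) p.2 q.2 s' t' * N (p.1, s') (q.1, t')).PosSemidef := by
  classical
  let A : Fin 4 → Matrix (X × Bool) (X × Bool) ℂ := fun κ =>
    Matrix.of fun p q => if p.1 = q.1 then ((kr γ ν κ p.2 q.2 : ℝ) : ℂ) else 0
  have key : ∀ (κ : Fin 4) (p q : X × Bool), (A κ * N * (A κ)ᴴ) p q =
      ∑ s', ∑ t', ((kr γ ν κ p.2 s' : ℝ) : ℂ) * N (p.1, s') (q.1, t') * ((kr γ ν κ q.2 t' : ℝ) : ℂ) := by
    rintro κ ⟨a, s⟩ ⟨b, t⟩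
    have h1 : ∀ x, (A κ * N) (a, s) x = ∑ s', ((kr γ ν κ s s' : ℝ) : ℂ) * N (a, s') x := by
      intro x
      rw [Matrix.mul_apply, Fintype.sum_prod_type]
      rw [Finset.sum_eq_single a]
      · simp [A]
      · intro a' _ ha'
        simp [A, Ne.symm ha']
      · simp
    rw [Matrix.mul_apply, Fintype.sum_prod_type]
    simp only [h1]
    rw [Finset.sum_eq_single b]
    · simp only [Matrix.conjTranspose_apply, A, Matrix.of_apply, if_true, Finset.sum_mul]
      simp only [Complex.star_def, Complex.conj_ofReal]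
      rw [Finset.sum_comm]
    · intro b' _ hb'
      refine Finset.sum_eq_zero fun t' _ => ?_
      simp [A, Ne.symm hb']
    · simp
  have hsum : (Matrix.of fun p q : X × Bool => ∑ s', ∑ t',
      qubitCoeff (gadMap γ ν) p.2 q.2 s' t' * N (p.1, s') (q.1, t')) =
      ∑ κ, A κ * N * (A κ)ᴴ := by
    ext p q
    simp only [Matrix.of_apply, Matrix.sum_apply, key, kr_coeff hγ hν, Finset.sum_mul]
    conv_rhs => rw [Finset.sum_comm]
    refine Finset.sum_congr rfl fun s' _ => ?_
    conv_rhs => rw [Finset.sum_comm]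
    refine Finset.sum_congr rfl fun t' _ => Finset.sum_congr rfl fun κ _ => ?_
    ring
  rw [hsum]
  exact Matrix.posSemidef_sum _ fun κ _ => hN.mul_mul_conjTranspose_same (A κ)

theorem gadMap_expand (γ ν : ℝ) (M : Matrix Bool Bool ℂ) (s t : Bool) :
    gadMap γ ν M s t = ∑ s', ∑ t', qubitCoeff (gadMap γ ν) s t s' t' * M s' t' := by
  cases s <;> cases t <;>
    simp [qubitCoeff, gadMap, Matrix.single] <;> ring

end

end ChannelAux

open ChannelAux

section
variable {d e : Type*} [Fintype d] [Fintype e] [DecidableEq d] [DecidableEq e]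

/-- `Φ ⊗ Ψ` in block form (for `Φ = gadMap γ ν`). No hypothesis on `Ψ`. -/
theorem qubitTensor_gad (γ ν : ℝ) (Ψ : Matrix d d ℂ → Matrix e e ℂ)
    (M : Matrix (Bool × d) (Bool × d) ℂ) :
    qubitTensor (gadMap γ ν) Ψ M = ofBlocks (gadOut γ ν fun s t => Ψ (block M s t)) := by
  ext ⟨s, i⟩ ⟨t, j⟩
  cases s <;> cases t <;>
    simp [qubitTensor, ofBlocks, gadOut, qubitCoeff, gadMap, Matrix.single] <;> ring

/-- Complete positivity with an arbitrary finite auxiliary index type. -/
theorem IsChannel.posSemidef_blockwise {Ψ : Matrix d d ℂ → Matrix e e ℂ} (hΨ : IsChannel Ψ)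
    {ι : Type*} [Fintype ι] {M : Matrix (ι × d) (ι × d) ℂ} (hM : M.PosSemidef) :
    (blockwise (k := ι) Ψ M).PosSemidef := by
  classical
  let E := Fintype.equivFin ι
  let M' : Matrix (Fin (Fintype.card ι) × d) (Fin (Fintype.card ι) × d) ℂ :=
    M.submatrix (Prod.map E.symm id) (Prod.map E.symm id)
  have hM' : M'.PosSemidef := hM.submatrix _
  have h := (hΨ.2.1 _ M' hM').submatrix (Prod.map E id : ι × e → _ × e)
  convert h using 1
  ext ⟨a, i⟩ ⟨b, j⟩
  have : block M' (E a) (E b) = block M a b := by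
    ext u v
    simp [block, M']
  simp [blockwise, this]

theorem IsChannel.posSemidef_apply {Ψ : Matrix d d ℂ → Matrix e e ℂ} (hΨ : IsChannel Ψ)
    {M : Matrix d d ℂ} (hM : M.PosSemidef) : (Ψ M).PosSemidef := by
  have h0 : (M.submatrix (Prod.snd : Unit × d → d) (Prod.snd : Unit × d → d)).PosSemidef :=
    hM.submatrix _
  have h := (IsChannel.posSemidef_blockwise hΨ h0).submatrix (fun i : e => (((), i) : Unit × e))
  convert h using 1
  ext i j
  have : block (M.submatrix (Prod.snd : Unit × d → d) (Prod.snd : Unit × d → d)) () () = M := by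
    ext u v
    simp [block]
  simp [blockwise, this]

theorem IsChannel.rtr_apply {Ψ : Matrix d d ℂ → Matrix e e ℂ} (hΨ : IsChannel Ψ)
    (M : Matrix d d ℂ) : rtr (Ψ M) = rtr M := by
  simp [rtr, hΨ.2.2 M]

/-- `id₂ ⊗ Ψ` preserves positivity (CP with two levels, indexed by `Bool`). -/
theorem IsChannel.posSemidef_blocks {Ψ : Matrix d d ℂ → Matrix e e ℂ} (hΨ : IsChannel Ψ)
    {M : Matrix (Bool × d) (Bool × d) ℂ} (hM : M.PosSemidef) :
    (ofBlocks fun s t => Ψ (block M s t)).PosSemidef :=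
  IsChannel.posSemidef_blockwise hΨ hM

/-- Diagonal blocks of a PSD matrix are PSD, and the trace splits. -/
theorem posSemidef_block_self {M : Matrix (Bool × d) (Bool × d) ℂ} (hM : M.PosSemidef) (s : Bool) :
    (block M s s).PosSemidef :=
  hM.submatrix (fun i : d => (s, i))

omit [DecidableEq d] in
theorem rtr_block_add (M : Matrix (Bool × d) (Bool × d) ℂ) :
    rtr (block M false false) + rtr (block M true true) = rtr M := by
  simp [rtr, Matrix.trace, block, Fintype.sum_prod_type, add_comm]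

/-- `gadMap γ ν` preserves PSD and trace. -/
theorem gadMap_isChannel {γ ν : ℝ} (hγ : γ ∈ Set.Icc (0 : ℝ) 1) (hν : ν ∈ Set.Icc (0 : ℝ) 1) :
    IsChannel (gadMap γ ν) := by
  refine ⟨⟨?_, ?_⟩, ?_, ?_⟩
  · intro A B
    ext s t
    cases s <;> cases t <;> simp [gadMap] <;> ring
  · intro c A
    ext s t
    cases s <;> cases t <;> simp [gadMap] <;> ring
  · intro k M hM
    have h := psd_lift hγ hν hM
    convert h using 1
    ext ⟨a, s⟩ ⟨b, t⟩
    simp only [blockwise, Matrix.of_apply]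
    rw [gadMap_expand]
    rfl
  · intro M
    simp only [Matrix.trace, Matrix.diag_apply, Fintype.sum_bool, gadMap, Matrix.of_apply]
    simp
    ring

/-- The tensor product of `gadMap γ ν` with a channel is a channel. -/
theorem isChannel_qubitTensor {γ ν : ℝ} (hγ : γ ∈ Set.Icc (0 : ℝ) 1) (hν : ν ∈ Set.Icc (0 : ℝ) 1)
    {Ψ : Matrix d d ℂ → Matrix e e ℂ} (hΨ : IsChannel Ψ) :
    IsChannel (qubitTensor (gadMap γ ν) Ψ) := by
  have hadd : ∀ (A B : Matrix (Bool × d) (Bool × d) ℂ) (s t : Bool),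
      block (A + B) s t = block A s t + block B s t := by
    intro A B s t; ext; simp [block]
  have hsmul : ∀ (c : ℂ) (A : Matrix (Bool × d) (Bool × d) ℂ) (s t : Bool),
      block (c • A) s t = c • block A s t := by
    intro c A s t; ext; simp [block]
  refine ⟨⟨?_, ?_⟩, ?_, ?_⟩
  · intro A B
    ext ⟨s, i⟩ ⟨t, j⟩
    simp only [qubitTensor, Matrix.of_apply, Matrix.add_apply, hadd, hΨ.1.map_add, mul_add,
      Finset.sum_add_distrib]
  · intro c A
    ext ⟨s, i⟩ ⟨t, j⟩
    simp only [qubitTensor, Matrix.of_apply, Matrix.smul_apply, hsmul, hΨ.1.map_smul, smul_eq_mul,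
      Finset.mul_sum]
    refine Finset.sum_congr rfl fun _ _ => Finset.sum_congr rfl fun _ _ => ?_
    ring
  · intro k M hM
    -- regroup `M` with the spectator index `Fin k × Bool`
    let M0 : Matrix ((Fin k × Bool) × d) ((Fin k × Bool) × d) ℂ :=
      M.submatrix (fun p => (p.1.1, (p.1.2, p.2))) (fun p => (p.1.1, (p.1.2, p.2)))
    have hM0 : M0.PosSemidef := hM.submatrix _
    have hN1 := IsChannel.posSemidef_blockwise hΨ hM0
    let N2 : Matrix ((Fin k × e) × Bool) ((Fin k × e) × Bool) ℂ :=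
      (blockwise (k := Fin k × Bool) Ψ M0).submatrix
        (fun p => ((p.1.1, p.2), p.1.2)) (fun p => ((p.1.1, p.2), p.1.2))
    have hN2 : N2.PosSemidef := hN1.submatrix _
    have h := (psd_lift hγ hν hN2).submatrix
      (fun p : Fin k × (Bool × e) => (((p.1, p.2.2), p.2.1) : (Fin k × e) × Bool))
    convert h using 1
    ext ⟨a, s, i⟩ ⟨b, t, j⟩
    simp only [blockwise, qubitTensor, Matrix.of_apply, Matrix.submatrix_apply, N2]
    refine Finset.sum_congr rfl fun s' _ => Finset.sum_congr rfl fun t' _ => ?_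
    have : block (block M a b) s' t' = block M0 (a, s') (b, t') := by
      ext u v
      simp [block, M0]
    rw [this]
  · intro M
    rw [qubitTensor_gad]
    have h1 := hΨ.2.2 (block M false false)
    have h2 := hΨ.2.2 (block M true true)
    have h3 : M.trace = (block M false false).trace + (block M true true).trace := by
      simp [Matrix.trace, block, Fintype.sum_prod_type, add_comm]
    have h4 : ∀ W : Bool → Bool → Matrix e e ℂ,
        (ofBlocks W).trace = (W false false).trace + (W true true).trace := by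
      intro W
      simp [Matrix.trace, ofBlocks, Fintype.sum_prod_type, add_comm]
    rw [h4, h3]
    simp only [gadOut, Matrix.trace_add, Matrix.trace_smul, h1, h2, smul_eq_mul]
    push_cast
    ring

/-- Transport of channels along reindexing. -/
theorem isChannel_of_reindex {d' e' : Type*} [Fintype d'] [Fintype e'] [DecidableEq d']
    [DecidableEq e'] (f : d ≃ d') (g : e ≃ e') {Φ : Matrix d d ℂ → Matrix e e ℂ}
    {Φ' : Matrix d' d' ℂ → Matrix e' e' ℂ}
    (h : ∀ M, reindex g g (Φ M) = Φ' (reindex f f M)) (hΦ' : IsChannel Φ') : IsChannel Φ := by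
  have hΦ : ∀ M, Φ M = reindex g.symm g.symm (Φ' (reindex f f M)) := by
    intro M
    rw [← h]
    ext i j
    simp
  refine ⟨⟨?_, ?_⟩, ?_, ?_⟩
  · intro A B
    rw [hΦ, hΦ A, hΦ B]
    have : reindex f f (A + B) = reindex f f A + reindex f f B := by
      ext; simp
    rw [this, hΦ'.1.map_add]
    ext; simp
  · intro c A
    rw [hΦ, hΦ A]
    have : reindex f f (c • A) = c • reindex f f A := by
      ext; simp
    rw [this, hΦ'.1.map_smul]
    ext; simp
  · intro k M hM
    let M' : Matrix (Fin k × d') (Fin k × d') ℂ :=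
      M.submatrix (Prod.map id f.symm) (Prod.map id f.symm)
    have hM' : M'.PosSemidef := hM.submatrix _
    have h1 := (hΦ'.2.1 k M' hM').submatrix (Prod.map id g : Fin k × e → Fin k × e')
    convert h1 using 1
    ext ⟨a, i⟩ ⟨b, j⟩
    have : reindex f f (block M a b) = block M' a b := by
      ext u v
      simp [block, M']
    simp only [blockwise, Matrix.of_apply, Matrix.submatrix_apply, hΦ, reindex_apply, Prod.map,
      id_eq, Equiv.symm_symm]
    rw [← this]
    rfl
  · intro M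
    have h1 : (Φ M).trace = (reindex g g (Φ M)).trace := by
      simp only [Matrix.trace, Matrix.diag_apply, reindex_apply, submatrix_apply]
      exact (Equiv.sum_comp g.symm fun i => Φ M i i).symm
    have h2 : M.trace = (reindex f f M).trace := by
      simp only [Matrix.trace, Matrix.diag_apply, reindex_apply, submatrix_apply]
      exact (Equiv.sum_comp f.symm fun i => M i i).symm
    rw [h1, h2, h, hΦ'.2.2]

end

/-- Splitting the first qubit off. -/
def powEquiv (n : ℕ) : (Fin (n + 1) → Bool) ≃ Bool × (Fin n → Bool) :=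
  (Fin.consEquiv (fun _ => Bool)).symm

/-- `Φ^{⊗(n+1)} = Φ ⊗ Φ^{⊗n}`. -/
theorem qubitPower_succ (Φ : Matrix Bool Bool ℂ → Matrix Bool Bool ℂ) (n : ℕ)
    (M : Matrix (Fin (n + 1) → Bool) (Fin (n + 1) → Bool) ℂ) :
    reindex (powEquiv n) (powEquiv n) (qubitPower (n + 1) Φ M) =
      qubitTensor Φ (qubitPower n Φ) (reindex (powEquiv n) (powEquiv n) M) := by
  ext ⟨s, σ⟩ ⟨t, τ⟩
  have hsum : ∀ F : (Fin (n + 1) → Bool) → ℂ,
      ∑ x, F x = ∑ s', ∑ σ', F (Fin.cons s' σ') := fun F => by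
    rw [← Equiv.sum_comp (powEquiv n).symm F, Fintype.sum_prod_type]
    rfl
  have hcons : ∀ (b : Bool) (v : Fin n → Bool), (powEquiv n).symm (b, v) = Fin.cons b v := fun _ _ => rfl
  have hcons2 : ∀ x : Fin (n + 1) → Bool, powEquiv n x = (x 0, Fin.tail x) := fun _ => rfl
  simp only [reindex_apply, submatrix_apply, qubitPower, qubitTensor, Matrix.of_apply, hcons]
  rw [hsum]
  simp only [hsum (fun τ' => _ * M _ τ')]
  simp only [Fin.prod_univ_succ, Fin.cons_zero, Fin.cons_succ]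
  simp only [block, Matrix.of_apply, reindex_apply, submatrix_apply, Equiv.symm_symm, hcons,
    Finset.mul_sum]
  refine Finset.sum_congr rfl fun s' _ => ?_
  rw [Finset.sum_comm]
  refine Finset.sum_congr rfl fun t' _ => ?_
  refine Finset.sum_congr rfl fun σ' _ => Finset.sum_congr rfl fun τ' _ => ?_
  ring

/-- `Φ^{⊗n}` is a channel. -/
theorem isChannel_qubitPower {γ ν : ℝ} (hγ : γ ∈ Set.Icc (0 : ℝ) 1) (hν : ν ∈ Set.Icc (0 : ℝ) 1)
    (n : ℕ) : IsChannel (qubitPower n (gadMap γ ν)) := by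
  induction n with
  | zero =>
    have hid : ∀ M : Matrix (Fin 0 → Bool) (Fin 0 → Bool) ℂ,
        qubitPower 0 (gadMap γ ν) M = M := by
      intro M
      ext σ τ
      simp [qubitPower]
      congr 1 <;> exact Subsingleton.elim _ _
    refine ⟨⟨?_, ?_⟩, ?_, ?_⟩
    · intro A B; simp [hid]
    · intro c A; simp [hid]
    · intro k M hM
      have : blockwise (k := Fin k) (qubitPower 0 (gadMap γ ν)) M = M := by
        ext ⟨a, i⟩ ⟨b, j⟩
        simp [blockwise, hid, block]
      rw [this]; exact hM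
    · intro M; simp [hid]
  | succ n ih =>
    exact isChannel_of_reindex (powEquiv n) (powEquiv n) (qubitPower_succ _ n)
      (isChannel_qubitTensor hγ hν ih)

end Crest.Agent.GADC
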