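import Crest.Agent.Lib.GADC.FEnt

/-!
# The count lemma: `#{eig (r X1 - X0) > s} ≤ #{eig (c† (s+X0)⁻¹ c) > 1/r}`.
-/

set_option autoImplicit false

namespace Crest.Agent.GADC

open Matrix Crest.Quantum
open scoped ComplexOrder

section
variable {n m : Type*} [Fintype n] [DecidableEq n] [Fintype m] [DecidableEq m]

/-- Real part of the quadratic form. -/
noncomputable def qf (A : Matrix n n ℂ) (v : n → ℂ) : ℝ := (star v ⬝ᵥ (A *ᵥ v)).re

/-- Squared norm. -/
noncomputable def nsq (v : n → ℂ) : ℝ := (star v ⬝ᵥ v).re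

omit [DecidableEq n] in
theorem nsq_eq (v : n → ℂ) : nsq v = ∑ i, Complex.normSq (v i) := by
  unfold nsq
  simp only [dotProduct, Pi.star_apply, Complex.re_sum]
  refine Finset.sum_congr rfl fun i _ => ?_
  simp [Complex.normSq_apply, Complex.mul_re]

omit [DecidableEq n] in
theorem nsq_nonneg (v : n → ℂ) : 0 ≤ nsq v := by
  rw [nsq_eq]; exact Finset.sum_nonneg fun i _ => Complex.normSq_nonneg _

omit [DecidableEq n] in
theorem nsq_pos_of_ne {v : n → ℂ} (hv : v ≠ 0) : 0 < nsq v := by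
  rw [nsq_eq]
  obtain ⟨i, hi⟩ := Function.ne_iff.mp hv
  exact Finset.sum_pos' (fun i _ => Complex.normSq_nonneg _)
    ⟨i, Finset.mem_univ _, Complex.normSq_pos.mpr hi⟩

/-- Coordinates of `v` in the eigenbasis. -/
noncomputable def eigCoord {A : Matrix n n ℂ} (hA : A.IsHermitian) (v : n → ℂ) : n → ℂ :=
  star (hA.eigenvectorUnitary : Matrix n n ℂ) *ᵥ v

theorem nsq_eigCoord {A : Matrix n n ℂ} (hA : A.IsHermitian) (v : n → ℂ) :
    nsq (eigCoord hA v) = nsq v := by
  unfold nsq eigCoord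
  have hU : (hA.eigenvectorUnitary : Matrix n n ℂ) * star (hA.eigenvectorUnitary : Matrix n n ℂ) = 1 :=
    Unitary.coe_mul_star_self _
  rw [star_mulVec, star_eq_conjTranspose, conjTranspose_conjTranspose, dotProduct_mulVec,
    vecMul_vecMul, ← star_eq_conjTranspose, hU, vecMul_one]

theorem qf_eq_eigCoord {A : Matrix n n ℂ} (hA : A.IsHermitian) (v : n → ℂ) :
    qf A v = ∑ i, hA.eigenvalues i * Complex.normSq (eigCoord hA v i) := by
  unfold qf eigCoord
  set U := (hA.eigenvectorUnitary : Matrix n n ℂ) with hUdef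
  have h1 : A = U * diagonal (fun i => ((hA.eigenvalues i : ℝ) : ℂ)) * star U := eq_unitary_diag hA
  have h2 : star v ⬝ᵥ (A *ᵥ v) =
      star (star U *ᵥ v) ⬝ᵥ (diagonal (fun i => ((hA.eigenvalues i : ℝ) : ℂ)) *ᵥ (star U *ᵥ v)) := by
    have h3 : A *ᵥ v = U *ᵥ (diagonal (fun i => ((hA.eigenvalues i : ℝ) : ℂ)) *ᵥ (star U *ᵥ v)) := by
      conv_lhs => rw [h1]
      simp only [mulVec_mulVec, Matrix.mul_assoc]
    rw [h3, star_mulVec, star_eq_conjTranspose U, conjTranspose_conjTranspose, dotProduct_mulVec]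
  rw [h2]
  simp only [dotProduct, mulVec_diagonal, Pi.star_apply, Complex.re_sum]
  refine Finset.sum_congr rfl fun i _ => ?_
  generalize (star U *ᵥ v) i = z
  simp [Complex.normSq_apply, Complex.mul_re, Complex.mul_im]
  ring

omit [DecidableEq n] in
theorem qf_add_smul_one [DecidableEq n] (A : Matrix n n ℂ) (s : ℝ) (v : n → ℂ) :
    qf ((s : ℂ) • (1 : Matrix n n ℂ) + A) v = s * nsq v + qf A v := by
  unfold qf nsq
  rw [add_mulVec, dotProduct_add, Complex.add_re, smul_mulVec, one_mulVec, dotProduct_smul]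
  simp

omit [DecidableEq n] in
theorem qf_sub (A B : Matrix n n ℂ) (v : n → ℂ) : qf (A - B) v = qf A v - qf B v := by
  unfold qf
  rw [sub_mulVec, dotProduct_sub, Complex.sub_re]

omit [DecidableEq n] [DecidableEq m] in
/-- `⟨v, c c† v⟩ = ‖c† v‖²`. -/
theorem qf_mul_conjTranspose (c : Matrix n m ℂ) (v : n → ℂ) : qf (c * cᴴ) v = nsq (cᴴ *ᵥ v) := by
  unfold qf nsq
  rw [← mulVec_mulVec, star_mulVec, conjTranspose_conjTranspose, dotProduct_mulVec]

omit [DecidableEq n] in
/-- Symmetry of a Hermitian form. -/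
theorem re_dot_symm {T : Matrix n n ℂ} (herm : T.IsHermitian) (v y : n → ℂ) :
    (star y ⬝ᵥ (T *ᵥ v)).re = (star v ⬝ᵥ (T *ᵥ y)).re := by
  have : star y ⬝ᵥ (T *ᵥ v) = star (star v ⬝ᵥ (T *ᵥ y)) := by
    rw [star_dotProduct, star_mulVec, herm.eq, dotProduct_mulVec]
  rw [this]
  simp

omit [DecidableEq n] in
/-- Cauchy–Schwarz for a positive definite form. -/
theorem psd_cauchy {T : Matrix n n ℂ} (hT : T.PosDef) (v y : n → ℂ) :
    ((star v ⬝ᵥ (T *ᵥ y)).re) ^ 2 ≤ qf T v * qf T y := by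
  set B := (star v ⬝ᵥ (T *ᵥ y)).re with hB
  have hnn : ∀ z : n → ℂ, 0 ≤ qf T z := fun z => hT.posSemidef.re_dotProduct_nonneg z
  have hexp : ∀ t : ℝ, qf T (y - (t : ℂ) • v) = qf T y - 2 * t * B + t ^ 2 * qf T v := by
    intro t
    have hsym := re_dot_symm hT.1 v y
    unfold qf
    rw [star_sub, star_smul, mulVec_sub, mulVec_smul, dotProduct_sub, sub_dotProduct,
      sub_dotProduct, dotProduct_smul, smul_dotProduct, smul_dotProduct, dotProduct_smul]
    simp only [Complex.sub_re, smul_eq_mul, Complex.mul_re, Complex.star_def, Complex.conj_ofReal,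
      Complex.ofReal_re, Complex.ofReal_im, zero_mul, sub_zero, Complex.mul_im, add_zero]
    rw [hsym, ← hB]
    ring
  by_cases hv : v = 0
  · subst hv
    have : B = 0 := by simp [hB]
    rw [this]
    have h2 : qf T (0 : n → ℂ) = 0 := by simp [qf]
    rw [h2]; simp
  · have hC : 0 < qf T v := hT.re_dotProduct_pos hv
    have h := hnn (y - ((B / qf T v : ℝ) : ℂ) • v)
    rw [hexp] at h
    have h3 : qf T y - 2 * (B / qf T v) * B + (B / qf T v) ^ 2 * qf T v = qf T y - B ^ 2 / qf T v := by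
      field_simp
      ring
    rw [h3] at h
    have h4 : B ^ 2 / qf T v ≤ qf T y := by linarith
    rw [div_le_iff₀ hC] at h4
    linarith

/-- Abstract count comparison via a linear map. -/
theorem card_le_of_forms {M : Matrix m m ℂ} {E : Matrix n n ℂ} (hM : M.IsHermitian)
    (hE : E.IsHermitian) (s x : ℝ) (T : Matrix n m ℂ)
    (hT : ∀ v : m → ℂ, s * nsq v < qf M v → T *ᵥ v ≠ 0 ∧ x * nsq (T *ᵥ v) < qf E (T *ᵥ v)) :
    (Finset.univ.filter fun j => s < hM.eigenvalues j).card
      ≤ (Finset.univ.filter fun i => x < hE.eigenvalues i).card := by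
  classical
  set Um := (hM.eigenvectorUnitary : Matrix m m ℂ) with hUm
  set Ue := (hE.eigenvectorUnitary : Matrix n n ℂ) with hUe
  have hUm1 : star Um * Um = 1 := Unitary.coe_star_mul_self _
  let P : m → Prop := fun j => s < hM.eigenvalues j
  let Q : n → Prop := fun i => x < hE.eigenvalues i
  let ext : ({j // P j} → ℂ) →ₗ[ℂ] (m → ℂ) := Function.ExtendByZero.linearMap ℂ Subtype.val
  let res : (n → ℂ) →ₗ[ℂ] ({i // Q i} → ℂ) := LinearMap.funLeft ℂ ℂ Subtype.val
  let L : ({j // P j} → ℂ) →ₗ[ℂ] ({i // Q i} → ℂ) :=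
    res ∘ₗ (star Ue).mulVecLin ∘ₗ T.mulVecLin ∘ₗ Um.mulVecLin ∘ₗ ext
  have hinj : Function.Injective L := by
    rw [injective_iff_map_eq_zero]
    intro a ha
    by_contra hne
    set ah := ext a with hah
    have hext : ∀ j, ¬ P j → ah j = 0 := by
      intro j hj
      simp only [hah, ext, Function.ExtendByZero.linearMap_apply]
      rw [Function.extend_apply']
      · rfl
      · rintro ⟨i, rfl⟩; exact hj i.2
    have hext2 : ∀ j : {j // P j}, ah j.1 = a j := by
      intro j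
      simp only [hah, ext, Function.ExtendByZero.linearMap_apply]
      exact Subtype.val_injective.extend_apply _ _ _
    set v := Um *ᵥ ah with hv
    have hcoord : eigCoord hM v = ah := by
      unfold eigCoord
      rw [hv, mulVec_mulVec, ← hUm, hUm1, one_mulVec]
    have hne' : ∃ j, ah j ≠ 0 := by
      obtain ⟨j, hj⟩ := Function.ne_iff.mp hne
      exact ⟨j.1, by rw [hext2]; simpa using hj⟩
    have hlt : s * nsq v < qf M v := by
      rw [qf_eq_eigCoord hM, hcoord, ← nsq_eigCoord hM v, hcoord, nsq_eq, Finset.mul_sum]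
      obtain ⟨j0, hj0⟩ := hne'
      refine Finset.sum_lt_sum ?_ ⟨j0, Finset.mem_univ _, ?_⟩
      · intro j _
        by_cases hj : P j
        · exact mul_le_mul_of_nonneg_right (le_of_lt hj) (Complex.normSq_nonneg _)
        · rw [hext j hj]; simp
      · have hPj : P j0 := by
          by_contra h; exact hj0 (hext j0 h)
        exact mul_lt_mul_of_pos_right hPj (Complex.normSq_pos.mpr hj0)
    obtain ⟨hw0, hw⟩ := hT v hlt
    set w := T *ᵥ v with hwdef
    have hzero : ∀ i, Q i → eigCoord hE w i = 0 := by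
      intro i hi
      have := congrFun ha ⟨i, hi⟩
      simpa [L, res, LinearMap.funLeft_apply, eigCoord, hv, hwdef, hUe, hah] using this
    have hle : qf E w ≤ x * nsq w := by
      rw [qf_eq_eigCoord hE, ← nsq_eigCoord hE w, nsq_eq, Finset.mul_sum]
      refine Finset.sum_le_sum fun i _ => ?_
      by_cases hi : Q i
      · rw [hzero i hi]; simp
      · exact mul_le_mul_of_nonneg_right (not_lt.mp hi) (Complex.normSq_nonneg _)
    linarith
  have := LinearMap.finrank_le_finrank_of_injective hinj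
  rw [Module.finrank_fintype_fun_eq_card, Module.finrank_fintype_fun_eq_card,
    Fintype.card_subtype, Fintype.card_subtype] at this
  exact this

/-- The count lemma. -/
theorem count_pencil {F G : Type*} [Fintype F] [DecidableEq F] [Fintype G] [DecidableEq G]
    (X0 : Matrix F F ℂ) (c : Matrix F G ℂ) {s r : ℝ} (hr : 0 < r)
    (hT : ((s : ℂ) • (1 : Matrix F F ℂ) + X0).PosDef)
    (hM : ((r : ℂ) • (c * cᴴ) - X0).IsHermitian)
    (hE : (cᴴ * ((s : ℂ) • (1 : Matrix F F ℂ) + X0)⁻¹ * c).IsHermitian) :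
    (Finset.univ.filter fun j => s < hM.eigenvalues j).card
      ≤ (Finset.univ.filter fun i => r⁻¹ < hE.eigenvalues i).card := by
  refine card_le_of_forms hM hE s r⁻¹ cᴴ ?_
  intro v hv
  set Tm := (s : ℂ) • (1 : Matrix F F ℂ) + X0 with hTm
  set w := cᴴ *ᵥ v with hw
  have hq1 : qf ((r : ℂ) • (c * cᴴ) - X0) v = r * nsq w - qf X0 v := by
    rw [qf_sub]
    congr 1
    have : qf ((r : ℂ) • (c * cᴴ)) v = r * qf (c * cᴴ) v := by
      unfold qf
      rw [smul_mulVec, dotProduct_smul]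
      simp
    rw [this, qf_mul_conjTranspose]
  have hq2 : qf Tm v = s * nsq v + qf X0 v := qf_add_smul_one X0 s v
  have hv0 : v ≠ 0 := by
    rintro rfl
    have h1 : nsq (0 : F → ℂ) = 0 := by simp [nsq]
    have h2 : qf ((r : ℂ) • (c * cᴴ) - X0) (0 : F → ℂ) = 0 := by simp [qf]
    rw [h1, h2] at hv
    simp at hv
  have hC : 0 < qf Tm v := hT.re_dotProduct_pos hv0
  have hlt : qf Tm v < r * nsq w := by
    rw [hq1] at hv
    rw [hq2]
    linarith
  have hnw : 0 < nsq w := by
    by_contra h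
    have h' : nsq w ≤ 0 := not_lt.mp h
    nlinarith [nsq_nonneg w]
  have hw0 : w ≠ 0 := by
    rintro h
    rw [h] at hnw
    simp [nsq] at hnw
  refine ⟨hw0, ?_⟩
  -- Cauchy-Schwarz
  set a := c *ᵥ w with ha
  set y := Tm⁻¹ *ᵥ a with hy
  have hdet : IsUnit Tm.det := by
    have := hT.isUnit
    exact (Matrix.isUnit_iff_isUnit_det _).mp this
  have hTy : Tm *ᵥ y = a := by
    rw [hy, mulVec_mulVec, Matrix.mul_nonsing_inv _ hdet, one_mulVec]
  have hqE : qf (cᴴ * Tm⁻¹ * c) w = qf Tm y := by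
    unfold qf
    rw [hTy]
    have e1 : (cᴴ * Tm⁻¹ * c) *ᵥ w = cᴴ *ᵥ y := by
      rw [hy, ha]
      simp only [mulVec_mulVec, Matrix.mul_assoc]
    rw [e1, dotProduct_mulVec]
    have e3 : star w ᵥ* cᴴ = star a := by rw [ha]; exact (star_mulVec c w).symm
    rw [e3]
    have e2 : star y ⬝ᵥ a = star (star a ⬝ᵥ y) := star_dotProduct y a
    rw [e2]
    simp
  have hB : (star v ⬝ᵥ (Tm *ᵥ y)).re = nsq w := by
    rw [hTy, ha, hw]
    unfold nsq
    rw [star_mulVec, conjTranspose_conjTranspose, dotProduct_mulVec]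
  have hCS := psd_cauchy hT v y
  rw [hB, ← hqE] at hCS
  set qE := qf (cᴴ * Tm⁻¹ * c) w with hqEdef
  have hqEpos : 0 < qE := by
    by_contra h
    have h' : qE ≤ 0 := not_lt.mp h
    nlinarith [sq_pos_of_pos hnw]
  have hrpos : r⁻¹ * nsq w < qE := by
    rw [inv_mul_lt_iff₀ hr]
    by_contra h
    have h' : r * qE ≤ nsq w := not_lt.mp h
    have h5 : nsq w ^ 2 < r * nsq w * qE := by
      calc nsq w ^ 2 ≤ qf Tm v * qE := hCS
        _ < r * nsq w * qE := mul_lt_mul_of_pos_right hlt hqEpos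
    nlinarith
  exact hrpos

end

end Crest.Agent.GADC
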