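import Mathlib
import Crest.Prelude.Def_QState
import Crest.Prelude.Def_QChannel
import Crest.Prelude.Def_AmpDamp

/-!
# Row 341 (S0534/S0535): common definitions for the generalized amplitude damping additivity proof.
-/

set_option autoImplicit false

namespace Crest.Agent.GADC

open Matrix Crest.Quantum Crest.MathPhysics.AmpDamp

section
variable {n : Type*} [Fintype n] [DecidableEq n]

/-- The real part of the trace. -/
noncomputable def rtr (A : Matrix n n ℂ) : ℝ := A.trace.re

/-- `f(X) = H(X) + tr X · ln tr X` (homogeneous of degree one on PSD matrices). -/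
noncomputable def fEnt (A : Matrix n n ℂ) : ℝ := vnEntropy A + rtr A * Real.log (rtr A)

end

/-- Larger eigenvalue of a `2 × 2` Hermitian matrix of trace `T` and determinant `D`. -/
noncomputable def lamP (T D : ℝ) : ℝ := (T + Real.sqrt (T ^ 2 - 4 * D)) / 2
/-- Smaller eigenvalue of a `2 × 2` Hermitian matrix of trace `T` and determinant `D`. -/
noncomputable def lamM (T D : ℝ) : ℝ := (T - Real.sqrt (T ^ 2 - 4 * D)) / 2

/-- The entropy `H_s` of the scalar matrix `[[t0+t1, √(t1 t2)], [√(t1 t2), t2+t3]]`. -/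
noncomputable def Hs (t0 t1 t2 t3 : ℝ) : ℝ :=
  Real.negMulLog (lamP (t0 + t1 + t2 + t3) ((t0 + t1) * (t2 + t3) - t1 * t2)) +
  Real.negMulLog (lamM (t0 + t1 + t2 + t3) ((t0 + t1) * (t2 + t3) - t1 * t2))

/-- Determinant of the channel output of the pure state of excited population `q`. -/
noncomputable def gadV (γ ν q : ℝ) : ℝ := γ * ν * (1 - ν) + γ * (1 - γ) * (q - ν) ^ 2

/-- Entropy of the channel output of the pure state of excited population `q`. -/
noncomputable def gadEnt (γ ν q : ℝ) : ℝ :=
  Real.binEntropy ((1 + Real.sqrt (1 - 4 * gadV γ ν q)) / 2)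

/-- Matrix on `Bool × e` with given `e × e` blocks. -/
def ofBlocks {e : Type*} (W : Bool → Bool → Matrix e e ℂ) : Matrix (Bool × e) (Bool × e) ℂ :=
  Matrix.of fun p q => W p.1 q.1 p.2 q.2

/-- The block form of `Φ ⊗ id` for the generalized amplitude damping map `Φ`. -/
noncomputable def gadOut {e : Type*} (γ ν : ℝ) (τ : Bool → Bool → Matrix e e ℂ) :
    Bool → Bool → Matrix e e ℂ
  | false, false => ((1 - γ * ν : ℝ) : ℂ) • τ false false + ((γ * (1 - ν) : ℝ) : ℂ) • τ true true
  | true, true => ((γ * ν : ℝ) : ℂ) • τ false false + ((1 - γ + γ * ν : ℝ) : ℂ) • τ true true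
  | false, true => ((Real.sqrt (1 - γ) : ℝ) : ℂ) • τ false true
  | true, false => ((Real.sqrt (1 - γ) : ℝ) : ℂ) • τ true false

end Crest.Agent.GADC
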