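import Crest.Agent.Lib.GADC.FEnt

/-!
# The determinant identity `det(s+ω) = det(s+X0) det(s+X3) det(1+E_s+Y_s)`.
-/

set_option autoImplicit false

namespace Crest.Agent.GADC

open Matrix Crest.Quantum
open scoped ComplexOrder

section
variable {n : Type*} [Fintype n] [DecidableEq n]

/-- `s + X`. -/
noncomputable def shift (s : ℝ) (X : Matrix n n ℂ) : Matrix n n ℂ := (s : ℂ) • (1 : Matrix n n ℂ) + X

omit [Fintype n] in
theorem smul_one_isHermitian (s : ℝ) : ((s : ℂ) • (1 : Matrix n n ℂ)).IsHermitian := by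
  rw [IsHermitian, conjTranspose_smul, conjTranspose_one]
  simp

omit [Fintype n] in
theorem smul_one_posSemidef {s : ℝ} (hs : 0 ≤ s) : ((s : ℂ) • (1 : Matrix n n ℂ)).PosSemidef := by
  have : (1 : Matrix n n ℂ).PosSemidef := PosSemidef.one
  refine this.smul ?_
  exact_mod_cast hs

theorem shift_posDef {X : Matrix n n ℂ} (hX : X.PosDef) {s : ℝ} (hs : 0 ≤ s) : (shift s X).PosDef :=
  PosDef.posSemidef_add (smul_one_posSemidef hs) hX

omit [Fintype n] in
theorem shift_posDef_of_psd {X : Matrix n n ℂ} (hX : X.PosSemidef) {s : ℝ} (hs : 0 < s) :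
    (shift s X).PosDef := by
  have : (1 : Matrix n n ℂ).PosDef := PosDef.one
  have h2 : ((s : ℂ) • (1 : Matrix n n ℂ)).PosDef := this.smul (by exact_mod_cast hs)
  exact PosDef.add_posSemidef h2 hX

omit [Fintype n] in
theorem shift_isHermitian {X : Matrix n n ℂ} (hX : X.IsHermitian) (s : ℝ) : (shift s X).IsHermitian :=
  (smul_one_isHermitian s).add hX

/-- `det (s + A) = ∏ (s + eig_i A)`. -/
theorem det_shift {A : Matrix n n ℂ} (hA : A.IsHermitian) (s : ℝ) :
    (shift s A).det = ∏ i, ((s + hA.eigenvalues i : ℝ) : ℂ) := by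
  set U := (hA.eigenvectorUnitary : Matrix n n ℂ) with hUdef
  have hU : star U * U = 1 := Unitary.coe_star_mul_self _
  have hU' : U * star U = 1 := Unitary.coe_mul_star_self _
  have h1 : shift s A = U * diagonal (fun i => ((s + hA.eigenvalues i : ℝ) : ℂ)) * star U := by
    have h2 : diagonal (fun i => ((s + hA.eigenvalues i : ℝ) : ℂ))
        = (s : ℂ) • (1 : Matrix n n ℂ) + diagonal (fun i => ((hA.eigenvalues i : ℝ) : ℂ)) := by
      ext i j
      by_cases hij : i = j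
      · subst hij; simp
      · simp [hij]
    rw [h2, Matrix.mul_add, Matrix.add_mul, ← eq_unitary_diag hA]
    simp [shift, hU']
  rw [h1, det_mul, det_mul, det_diagonal, mul_comm, ← mul_assoc, ← det_mul, hU, det_one, one_mul]

/-- Real form: `log det`. -/
theorem det_shift_re {A : Matrix n n ℂ} (hA : A.IsHermitian) (s : ℝ) :
    ((shift s A).det) = ((∏ i, (s + hA.eigenvalues i) : ℝ) : ℂ) := by
  rw [det_shift hA]
  push_cast
  rfl

end

section
variable {F₁ F₂ G : Type*} [Fintype F₁] [DecidableEq F₁] [Fintype F₂] [DecidableEq F₂]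
  [Fintype G] [DecidableEq G]

/-- `E_s = c† (s + X)⁻¹ c`. -/
noncomputable def resE (s : ℝ) (X : Matrix F₁ F₁ ℂ) (c : Matrix F₁ G ℂ) : Matrix G G ℂ :=
  cᴴ * (shift s X)⁻¹ * c

/-- The block matrix `ω`. -/
noncomputable def omegaMat (X0 : Matrix F₁ F₁ ℂ) (X3 : Matrix F₂ F₂ ℂ) (c1 : Matrix F₁ G ℂ)
    (c2 : Matrix F₂ G ℂ) : Matrix (F₁ ⊕ F₂) (F₁ ⊕ F₂) ℂ :=
  fromBlocks (X0 + c1 * c1ᴴ) (c1 * c2ᴴ) (c2 * c1ᴴ) (X3 + c2 * c2ᴴ)

omit [DecidableEq G] in
theorem resE_posSemidef {X : Matrix F₁ F₁ ℂ} (hX : X.PosDef) {s : ℝ} (hs : 0 ≤ s) (c : Matrix F₁ G ℂ) :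
    (resE s X c).PosSemidef := by
  unfold resE
  exact ((shift_posDef hX hs).inv.posSemidef).conjTranspose_mul_mul_same c

omit [DecidableEq G] in
theorem omegaMat_eq (X0 : Matrix F₁ F₁ ℂ) (X3 : Matrix F₂ F₂ ℂ) (c1 : Matrix F₁ G ℂ)
    (c2 : Matrix F₂ G ℂ) :
    omegaMat X0 X3 c1 c2 = fromBlocks X0 0 0 X3 + fromRows c1 c2 * (fromRows c1 c2)ᴴ := by
  rw [conjTranspose_fromRows_eq_fromCols_conjTranspose, fromRows_mul_fromCols, omegaMat,
    fromBlocks_add]
  simp

theorem fromBlocks_diag_posDef {X0 : Matrix F₁ F₁ ℂ} {X3 : Matrix F₂ F₂ ℂ} (h0 : X0.PosDef)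
    (h3 : X3.PosDef) : (fromBlocks X0 0 0 X3).PosDef := by
  refine PosDef.of_dotProduct_mulVec_pos (IsHermitian.fromBlocks h0.1 (by simp) h3.1) ?_
  intro x hx
  have e : star x ⬝ᵥ (fromBlocks X0 0 0 X3 *ᵥ x) =
      star (x ∘ Sum.inl) ⬝ᵥ (X0 *ᵥ (x ∘ Sum.inl)) + star (x ∘ Sum.inr) ⬝ᵥ (X3 *ᵥ (x ∘ Sum.inr)) := by
    rw [fromBlocks_mulVec]
    simp only [dotProduct, Fintype.sum_sum_type, Sum.elim_inl, Sum.elim_inr, Pi.star_apply,
      zero_mulVec, add_zero, zero_add, Function.comp]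
  rw [e]
  by_cases h1 : x ∘ Sum.inl = 0
  · have h2 : x ∘ Sum.inr ≠ 0 := by
      intro h2
      apply hx
      funext i
      rcases i with i | i
      · exact congrFun h1 i
      · exact congrFun h2 i
    rw [h1]
    simpa using h3.dotProduct_mulVec_pos h2
  · exact add_pos_of_pos_of_nonneg (h0.dotProduct_mulVec_pos h1)
      (h3.posSemidef.dotProduct_mulVec_nonneg _)

omit [DecidableEq G] in
theorem omegaMat_posDef {X0 : Matrix F₁ F₁ ℂ} {X3 : Matrix F₂ F₂ ℂ} (h0 : X0.PosDef) (h3 : X3.PosDef)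
    (c1 : Matrix F₁ G ℂ) (c2 : Matrix F₂ G ℂ) : (omegaMat X0 X3 c1 c2).PosDef := by
  rw [omegaMat_eq]
  refine PosDef.add_posSemidef (fromBlocks_diag_posDef h0 h3) (posSemidef_self_mul_conjTranspose _)

/-- The determinant identity. -/
theorem det_shift_omega {X0 : Matrix F₁ F₁ ℂ} {X3 : Matrix F₂ F₂ ℂ} (h0 : X0.PosDef) (h3 : X3.PosDef)
    (c1 : Matrix F₁ G ℂ) (c2 : Matrix F₂ G ℂ) {s : ℝ} (hs : 0 ≤ s) :
    (shift s (omegaMat X0 X3 c1 c2)).det =
      (shift s X0).det * (shift s X3).det * (shift 1 (resE s X0 c1 + resE s X3 c2)).det := by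
  set S0 := shift s X0 with hS0
  set S3 := shift s X3 with hS3
  have hS0pd : S0.PosDef := shift_posDef h0 hs
  have hS3pd : S3.PosDef := shift_posDef h3 hs
  have hd0 : IsUnit S0.det := (Matrix.isUnit_iff_isUnit_det _).mp hS0pd.isUnit
  have hd3 : IsUnit S3.det := (Matrix.isUnit_iff_isUnit_det _).mp hS3pd.isUnit
  set Y := fromBlocks S0 0 0 S3 with hY
  set C := fromRows c1 c2 with hC
  have hYinv : fromBlocks S0⁻¹ 0 0 S3⁻¹ = Y⁻¹ := by
    symm
    apply Matrix.inv_eq_right_inv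
    rw [hY, fromBlocks_multiply]
    simp [Matrix.mul_nonsing_inv _ hd0, Matrix.mul_nonsing_inv _ hd3]
  have hYY : Y * Y⁻¹ = 1 := by
    rw [← hYinv, hY, fromBlocks_multiply]
    simp [Matrix.mul_nonsing_inv _ hd0, Matrix.mul_nonsing_inv _ hd3]
  have h1 : shift s (omegaMat X0 X3 c1 c2) = Y + C * Cᴴ := by
    rw [omegaMat_eq, shift, ← add_assoc]
    congr 1
    rw [hY, hS0, hS3, shift, shift, ← fromBlocks_one, fromBlocks_smul, fromBlocks_add]
    simp
  have h2 : Y + C * Cᴴ = Y * (1 + (Y⁻¹ * C) * Cᴴ) := by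
    rw [Matrix.mul_add, Matrix.mul_one, ← Matrix.mul_assoc, ← Matrix.mul_assoc, hYY, Matrix.one_mul]
  have h3' : Cᴴ * (Y⁻¹ * C) = resE s X0 c1 + resE s X3 c2 := by
    rw [← hYinv, hC, conjTranspose_fromRows_eq_fromCols_conjTranspose, fromBlocks_mul_fromRows,
      fromCols_mul_fromRows]
    simp [resE, hS0, hS3, Matrix.mul_assoc]
  have hdetY : Y.det = S0.det * S3.det := by
    rw [hY, det_fromBlocks_zero₂₁]
  rw [h1, h2, det_mul, det_one_add_mul_comm, h3', hdetY]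
  have h4 : shift 1 (resE s X0 c1 + resE s X3 c2) = 1 + (resE s X0 c1 + resE s X3 c2) := by
    simp [shift]
  rw [h4]

/-- The logarithmic form of the determinant identity. -/
theorem log_identity {X0 : Matrix F₁ F₁ ℂ} {X3 : Matrix F₂ F₂ ℂ} (h0 : X0.PosDef) (h3 : X3.PosDef)
    (c1 : Matrix F₁ G ℂ) (c2 : Matrix F₂ G ℂ) {s : ℝ} (hs : 0 ≤ s)
    (hW : (resE s X0 c1 + resE s X3 c2).IsHermitian) :
    ∑ i, Real.log (s + (omegaMat_posDef h0 h3 c1 c2).1.eigenvalues i) =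
      ∑ i, Real.log (s + h0.1.eigenvalues i) + ∑ i, Real.log (s + h3.1.eigenvalues i)
        + ∑ l, Real.log (1 + hW.eigenvalues l) := by
  have hω := omegaMat_posDef h0 h3 c1 c2
  have hWpsd : (resE s X0 c1 + resE s X3 c2).PosSemidef :=
    (resE_posSemidef h0 hs c1).add (resE_posSemidef h3 hs c2)
  have hdet := det_shift_omega h0 h3 c1 c2 hs
  rw [det_shift_re hω.1, det_shift_re h0.1, det_shift_re h3.1, det_shift_re hW] at hdet
  have hreal : ∏ i, (s + hω.1.eigenvalues i) =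
      (∏ i, (s + h0.1.eigenvalues i)) * (∏ i, (s + h3.1.eigenvalues i)) *
        ∏ l, (1 + hW.eigenvalues l) := by
    exact_mod_cast hdet
  have hp1 : ∀ i, 0 < s + hω.1.eigenvalues i := fun i => by
    have := hω.eigenvalues_pos i; linarith
  have hp2 : ∀ i, 0 < s + h0.1.eigenvalues i := fun i => by
    have := h0.eigenvalues_pos i; linarith
  have hp3 : ∀ i, 0 < s + h3.1.eigenvalues i := fun i => by
    have := h3.eigenvalues_pos i; linarith
  have hp4 : ∀ i, 0 < 1 + hW.eigenvalues i := fun i => by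
    have := hWpsd.eigenvalues_nonneg i; linarith
  have hl := congrArg Real.log hreal
  rw [Real.log_prod (fun i _ => (hp1 i).ne'), Real.log_mul, Real.log_mul,
    Real.log_prod (fun i _ => (hp2 i).ne'), Real.log_prod (fun i _ => (hp3 i).ne'),
    Real.log_prod (fun i _ => (hp4 i).ne')] at hl
  · exact hl
  · exact (Finset.prod_pos fun i _ => hp2 i).ne'
  · exact (Finset.prod_pos fun i _ => hp3 i).ne'
  · exact (mul_pos (Finset.prod_pos fun i _ => hp2 i) (Finset.prod_pos fun i _ => hp3 i)).ne'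
  · exact (Finset.prod_pos fun i _ => hp4 i).ne'

end

end Crest.Agent.GADC
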