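import Crest.Agent.Lib.GADC.Jensen

/-!
# The functional `f(X) = H(X) + tr X ln tr X`: homogeneity and superadditivity.
-/

set_option autoImplicit false

namespace Crest.Agent.GADC

open Matrix Crest.Quantum
open scoped ComplexOrder

section
variable {n m : Type*} [Fintype n] [DecidableEq n] [Fintype m] [DecidableEq m]

theorem rtr_eq_sum_eig {A : Matrix n n ℂ} (hA : A.IsHermitian) : rtr A = ∑ i, hA.eigenvalues i := by
  unfold rtr
  rw [hA.trace_eq_sum_eigenvalues]
  simp

omit [DecidableEq n] in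
theorem rtr_add (A B : Matrix n n ℂ) : rtr (A + B) = rtr A + rtr B := by
  simp [rtr, Matrix.trace_add]

omit [DecidableEq n] in
theorem rtr_smul (c : ℝ) (A : Matrix n n ℂ) : rtr ((c : ℂ) • A) = c * rtr A := by
  simp [rtr, Matrix.trace_smul]

omit [DecidableEq n] in
theorem rtr_zero : rtr (0 : Matrix n n ℂ) = 0 := by simp [rtr]

omit [DecidableEq n] in
theorem rtr_nonneg {A : Matrix n n ℂ} (hA : A.PosSemidef) : 0 ≤ rtr A := by
  have := hA.trace_nonneg
  exact (Complex.le_def.mp this).1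

omit [DecidableEq n] in
/-- A PSD matrix has real trace: `tr A = rtr A`. -/
theorem trace_eq_rtr {A : Matrix n n ℂ} (hA : A.PosSemidef) : A.trace = (rtr A : ℂ) := by
  have := hA.trace_nonneg
  rw [Complex.le_def] at this
  apply Complex.ext
  · simp [rtr]
  · simpa [rtr] using this.2.symm

omit [DecidableEq n] in
theorem eq_zero_of_rtr_eq_zero {A : Matrix n n ℂ} (hA : A.PosSemidef) (h : rtr A = 0) : A = 0 := by
  apply (hA.trace_eq_zero_iff).mp
  rw [trace_eq_rtr hA, h]
  simp

theorem vnEntropy_zero : vnEntropy (0 : Matrix n n ℂ) = 0 := by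
  have hh : (0 : Matrix n n ℂ).IsHermitian := isHermitian_zero
  rw [vnEntropy_eq_sum hh]
  have := sum_eig_eq_of_charpoly hh (fun _ : n => (0 : ℝ))
    (by rw [charpoly_zero]; simp) Real.negMulLog
  rw [this]; simp

theorem fEnt_zero : fEnt (0 : Matrix n n ℂ) = 0 := by
  simp [fEnt, vnEntropy_zero, rtr_zero]

/-- Scaling the entropy. -/
theorem vnEntropy_smul {A : Matrix n n ℂ} (hA : A.IsHermitian) (c : ℝ) :
    vnEntropy ((c : ℂ) • A) = rtr A * Real.negMulLog c + c * vnEntropy A := by
  have hcA : ((c : ℂ) • A).IsHermitian := by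
    rw [IsHermitian, conjTranspose_smul, hA.eq]
    simp
  rw [vnEntropy_eq_sum hcA, vnEntropy_eq_sum hA, sum_eig_smul hA c hcA, rtr_eq_sum_eig hA,
    Finset.sum_mul, Finset.mul_sum, ← Finset.sum_add_distrib]
  refine Finset.sum_congr rfl fun i _ => ?_
  rw [Real.negMulLog_mul]

theorem fEnt_smul {A : Matrix n n ℂ} (hA : A.PosSemidef) {c : ℝ} (hc : 0 ≤ c) :
    fEnt ((c : ℂ) • A) = c * fEnt A := by
  unfold fEnt
  rw [vnEntropy_smul hA.1, rtr_smul]
  rcases hc.eq_or_lt with rfl | hc
  · simp [Real.negMulLog]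
  rcases (rtr_nonneg hA).eq_or_lt with h0 | ht
  · rw [← h0]; simp
  rw [Real.log_mul hc.ne' ht.ne']
  simp only [Real.negMulLog]
  ring

/-- `s η(a/s) = η(a) + a ln s`. -/
theorem negMulLog_persp {s : ℝ} (hs : 0 < s) (a : ℝ) :
    s * Real.negMulLog (a / s) = Real.negMulLog a + a * Real.log s := by
  have h := Real.negMulLog_mul s (a / s)
  have h2 : s * (a / s) = a := by field_simp
  rw [h2] at h
  rw [h]
  simp only [Real.negMulLog]
  field_simp
  ring

/-- The log-sum inequality. -/
theorem log_sum_ineq {a b s t : ℝ} (ha : 0 ≤ a) (hb : 0 ≤ b) (hs : 0 < s) (ht : 0 < t) :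
    Real.negMulLog a + a * Real.log s + (Real.negMulLog b + b * Real.log t)
      ≤ Real.negMulLog (a + b) + (a + b) * Real.log (s + t) := by
  have hst : 0 < s + t := by linarith
  rw [← negMulLog_persp hs, ← negMulLog_persp ht, ← negMulLog_persp hst]
  have hconc := Real.concaveOn_negMulLog.2
    (Set.mem_Ici.mpr (by positivity : (0:ℝ) ≤ a / s)) (Set.mem_Ici.mpr (by positivity : (0:ℝ) ≤ b / t))
    (by positivity : 0 ≤ s / (s + t)) (by positivity : 0 ≤ t / (s + t)) (by field_simp)
  have hpt : (s / (s + t)) • (a / s) + (t / (s + t)) • (b / t) = (a + b) / (s + t) := by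
    simp only [smul_eq_mul]
    field_simp
  rw [hpt] at hconc
  simp only [smul_eq_mul] at hconc
  have := mul_le_mul_of_nonneg_left hconc hst.le
  calc s * Real.negMulLog (a / s) + t * Real.negMulLog (b / t)
      = (s + t) * (s / (s + t) * Real.negMulLog (a / s) + t / (s + t) * Real.negMulLog (b / t)) := by
        field_simp
    _ ≤ _ := this

/-- Superadditivity of `f`. -/
theorem fEnt_add_ge {X Y : Matrix n n ℂ} (hX : X.PosSemidef) (hY : Y.PosSemidef) :
    fEnt X + fEnt Y ≤ fEnt (X + Y) := by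
  rcases (rtr_nonneg hX).eq_or_lt with h0 | hs
  · rw [eq_zero_of_rtr_eq_zero hX h0.symm]; simp [fEnt_zero]
  rcases (rtr_nonneg hY).eq_or_lt with h0 | ht
  · rw [eq_zero_of_rtr_eq_zero hY h0.symm]; simp [fEnt_zero]
  have hZ : (X + Y).IsHermitian := (hX.add hY).1
  unfold fEnt
  rw [rtr_add, vnEntropy_eq_sum_diagRe hZ]
  set V := (hZ.eigenvectorUnitary : Matrix n n ℂ) with hVdef
  have hV1 : star V * V = 1 := Unitary.coe_star_mul_self _
  have hV2 : V * star V = 1 := Unitary.coe_mul_star_self _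
  have h1 := vnEntropy_le_sum_diag hX hV1 hV2
  have h2 := vnEntropy_le_sum_diag hY hV1 hV2
  have e1 : ∑ l, diagRe X V l = rtr X := sum_diagRe hV2
  have e2 : ∑ l, diagRe Y V l = rtr Y := sum_diagRe hV2
  have key : ∑ l, (Real.negMulLog (diagRe X V l) + diagRe X V l * Real.log (rtr X)
        + (Real.negMulLog (diagRe Y V l) + diagRe Y V l * Real.log (rtr Y)))
      ≤ ∑ l, (Real.negMulLog (diagRe (X + Y) V l) + diagRe (X + Y) V l * Real.log (rtr X + rtr Y)) := by
    refine Finset.sum_le_sum fun l _ => ?_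
    rw [diagRe_add]
    exact log_sum_ineq (diagRe_nonneg hX l) (diagRe_nonneg hY l) hs ht
  simp only [Finset.sum_add_distrib, ← Finset.sum_mul, e1, e2] at key
  have e3 : ∑ l, diagRe (X + Y) V l = rtr X + rtr Y := by
    simp only [diagRe_add, Finset.sum_add_distrib, e1, e2]
  rw [e3] at key
  linarith

end

end Crest.Agent.GADC
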