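import Crest.Agent.Lib.GADC.Defs

/-!
# The output entropy of pure states under the generalized amplitude damping channel.

`gadEnt γ ν q = h((1+√(1-4v))/2)` with `v = gadV γ ν q = γν(1-ν) + γ(1-γ)(q-ν)²`.

Convexity in `q`: `b(z) = h((1+√(1-z²))/2)` is convex and nondecreasing on `[0,1]` (Wootters' function;
writing `z = 1/cosh τ`, `b'(z) = τ / sinh τ`, which increases with `z`), `2√v` is convex in `q`
(it is the norm of a vector affine in `q`) and `gadEnt γ ν q = b(2√v)`.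
-/

set_option autoImplicit false

namespace Crest.Agent.GADC

open Real Crest.MathPhysics.AmpDamp

/-- Wootters' function `b(z) = h((1+√(1-z²))/2)`. -/
noncomputable def wootters (z : ℝ) : ℝ := Real.binEntropy ((1 + Real.sqrt (1 - z ^ 2)) / 2)

/-- The derivative of Wootters' function on `(0,1)`. -/
noncomputable def woottersD (z : ℝ) : ℝ :=
  (z / (2 * √(1 - z ^ 2))) * (Real.log (1 + √(1 - z ^ 2)) - Real.log (1 - √(1 - z ^ 2)))

private lemma sqrt_facts {z : ℝ} (h0 : 0 < z) (h1 : z < 1) :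
    0 < √(1 - z ^ 2) ∧ √(1 - z ^ 2) < 1 ∧ √(1 - z ^ 2) ^ 2 = 1 - z ^ 2 := by
  have hpos : 0 < 1 - z ^ 2 := by nlinarith
  have hr0 : 0 < √(1 - z ^ 2) := Real.sqrt_pos.mpr hpos
  have hr2 : √(1 - z ^ 2) ^ 2 = 1 - z ^ 2 := Real.sq_sqrt hpos.le
  refine ⟨hr0, ?_, hr2⟩
  nlinarith [sq_nonneg (√(1 - z ^ 2) - 1), pow_pos h0 2]

theorem wootters_hasDerivAt {z : ℝ} (h0 : 0 < z) (h1 : z < 1) :
    HasDerivAt wootters (woottersD z) z := by
  obtain ⟨hr0, hr1, hr2⟩ := sqrt_facts h0 h1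
  have hpos : 0 < 1 - z ^ 2 := by nlinarith
  have hd1 : HasDerivAt (fun z : ℝ => 1 - z ^ 2) (-(2 * z)) z := by
    have := ((hasDerivAt_id z).pow 2).const_sub 1
    simpa using this
  have hd2 : HasDerivAt (fun z : ℝ => √(1 - z ^ 2)) (-(2 * z) / (2 * √(1 - z ^ 2))) z :=
    hd1.sqrt hpos.ne'
  have hd3 : HasDerivAt (fun z : ℝ => (1 + √(1 - z ^ 2)) / 2)
      ((-(2 * z) / (2 * √(1 - z ^ 2))) / 2) z := (hd2.const_add 1).div_const 2
  have hp : (1 + √(1 - z ^ 2)) / 2 ≠ 0 := by positivity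
  have hp1 : (1 + √(1 - z ^ 2)) / 2 ≠ 1 := by intro h; linarith
  have hd4 := (Real.hasDerivAt_binEntropy hp hp1).comp z hd3
  have : woottersD z = (Real.log (1 - (1 + √(1 - z ^ 2)) / 2) - Real.log ((1 + √(1 - z ^ 2)) / 2)) *
      ((-(2 * z) / (2 * √(1 - z ^ 2))) / 2) := by
    have e1 : 1 - (1 + √(1 - z ^ 2)) / 2 = (1 - √(1 - z ^ 2)) / 2 := by ring
    rw [e1, Real.log_div (by linarith) (by norm_num), Real.log_div (by positivity) (by norm_num)]
    unfold woottersD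
    field_simp
    ring
  rw [this]
  exact hd4

/-- The substitution `τ = log((1+r)/z)`. -/
private noncomputable def tauOf (z : ℝ) : ℝ := Real.log ((1 + √(1 - z ^ 2)) / z)

private lemma tauOf_pos {z : ℝ} (h0 : 0 < z) (h1 : z < 1) : 0 < tauOf z := by
  obtain ⟨hr0, hr1, hr2⟩ := sqrt_facts h0 h1
  unfold tauOf
  apply Real.log_pos
  rw [one_lt_div h0]
  linarith

private lemma sinh_tauOf {z : ℝ} (h0 : 0 < z) (h1 : z < 1) :
    Real.sinh (tauOf z) = √(1 - z ^ 2) / z := by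
  obtain ⟨hr0, hr1, hr2⟩ := sqrt_facts h0 h1
  unfold tauOf
  rw [Real.sinh_eq, Real.exp_neg, Real.exp_log (by positivity)]
  have : (1 + √(1 - z ^ 2)) ≠ 0 := by positivity
  field_simp
  nlinarith

private lemma woottersD_eq {z : ℝ} (h0 : 0 < z) (h1 : z < 1) :
    woottersD z = tauOf z / Real.sinh (tauOf z) := by
  obtain ⟨hr0, hr1, hr2⟩ := sqrt_facts h0 h1
  rw [sinh_tauOf h0 h1]
  unfold woottersD tauOf
  have h1r : 0 < 1 - √(1 - z ^ 2) := by linarith
  have h1r' : 0 < 1 + √(1 - z ^ 2) := by linarith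
  have key : Real.log (1 - √(1 - z ^ 2)) = 2 * Real.log z - Real.log (1 + √(1 - z ^ 2)) := by
    have : (1 - √(1 - z ^ 2)) = z ^ 2 / (1 + √(1 - z ^ 2)) := by
      field_simp
      nlinarith
    rw [this, Real.log_div (by positivity) h1r'.ne', Real.log_pow]
    push_cast
    ring
  rw [key, Real.log_div h1r'.ne' h0.ne']
  field_simp
  ring

private lemma sinh_convex : ConvexOn ℝ (Set.Ici 0) Real.sinh := by
  apply MonotoneOn.convexOn_of_deriv (convex_Ici 0) Real.continuous_sinh.continuousOn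
    Real.differentiable_sinh.differentiableOn
  intro x hx y hy hxy
  rw [interior_Ici] at hx hy
  simp only [Real.deriv_sinh]
  rw [Real.cosh_le_cosh, abs_of_pos hx, abs_of_pos hy]
  exact hxy

private lemma sinh_slope {a b : ℝ} (ha : 0 < a) (hab : a ≤ b) :
    b * Real.sinh a ≤ a * Real.sinh b := by
  have hb : 0 < b := lt_of_lt_of_le ha hab
  have := sinh_convex.2 (Set.mem_Ici.2 hb.le) (Set.mem_Ici.2 (le_refl (0 : ℝ)))
    (show 0 ≤ a / b by positivity) (show 0 ≤ 1 - a / b by rw [sub_nonneg, div_le_one hb]; exact hab)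
    (by ring)
  simp only [smul_eq_mul, mul_zero, add_zero, Real.sinh_zero] at this
  have e : a / b * b = a := by field_simp
  rw [e] at this
  calc b * Real.sinh a ≤ b * (a / b * Real.sinh b) := by gcongr
    _ = a * Real.sinh b := by field_simp

private lemma tauOf_anti {x y : ℝ} (hx : 0 < x) (hxy : x ≤ y) (hy1 : y < 1) :
    tauOf y ≤ tauOf x := by
  have hy : 0 < y := lt_of_lt_of_le hx hxy
  have hx1 : x < 1 := lt_of_le_of_lt hxy hy1
  obtain ⟨hr0, hr1, hr2⟩ := sqrt_facts hy hy1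
  unfold tauOf
  apply Real.log_le_log (by positivity)
  have : √(1 - y ^ 2) ≤ √(1 - x ^ 2) := Real.sqrt_le_sqrt (by nlinarith)
  have h3 : 0 ≤ √(1 - x ^ 2) := Real.sqrt_nonneg _
  gcongr

private lemma woottersD_mono {x y : ℝ} (hx : 0 < x) (hxy : x ≤ y) (hy1 : y < 1) :
    woottersD x ≤ woottersD y := by
  have hy : 0 < y := lt_of_lt_of_le hx hxy
  have hx1 : x < 1 := lt_of_le_of_lt hxy hy1
  rw [woottersD_eq hx hx1, woottersD_eq hy hy1]
  have ht := tauOf_anti hx hxy hy1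
  have hty := tauOf_pos hy hy1
  have htx := tauOf_pos hx hx1
  rw [div_le_div_iff₀ (Real.sinh_pos_iff.mpr htx) (Real.sinh_pos_iff.mpr hty)]
  have := sinh_slope hty ht
  linarith

private lemma woottersD_nonneg {z : ℝ} (h0 : 0 < z) (h1 : z < 1) : 0 ≤ woottersD z := by
  rw [woottersD_eq h0 h1]
  have h := tauOf_pos h0 h1
  have := Real.sinh_pos_iff.mpr h
  positivity

private lemma wootters_continuous : Continuous wootters := by
  unfold wootters
  exact Real.binEntropy_continuous.comp (by fun_prop)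

theorem wootters_convex : ConvexOn ℝ (Set.Icc 0 1) wootters := by
  apply MonotoneOn.convexOn_of_deriv (convex_Icc 0 1) wootters_continuous.continuousOn
  · rw [interior_Icc]
    intro x hx
    exact (wootters_hasDerivAt hx.1 hx.2).differentiableAt.differentiableWithinAt
  · rw [interior_Icc]
    intro x hx y hy hxy
    rw [(wootters_hasDerivAt hx.1 hx.2).deriv, (wootters_hasDerivAt hy.1 hy.2).deriv]
    exact woottersD_mono hx.1 hxy hy.2

theorem wootters_mono : MonotoneOn wootters (Set.Icc 0 1) := by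
  apply monotoneOn_of_deriv_nonneg (convex_Icc 0 1) wootters_continuous.continuousOn
  · rw [interior_Icc]
    intro x hx
    exact (wootters_hasDerivAt hx.1 hx.2).differentiableAt.differentiableWithinAt
  · rw [interior_Icc]
    intro x hx
    rw [(wootters_hasDerivAt hx.1 hx.2).deriv]
    exact woottersD_nonneg hx.1 hx.2

/-- `√(c + a (q - ν)²)` is convex. -/
private lemma sqrt_quad_convex {c a : ℝ} (hc : 0 ≤ c) (ha : 0 ≤ a) (ν : ℝ) :
    ConvexOn ℝ Set.univ (fun q : ℝ => √(c + a * (q - ν) ^ 2)) := by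
  refine ⟨convex_univ, ?_⟩
  intro x _ y _ s t hs ht hst
  simp only [smul_eq_mul]
  set X := √(c + a * (x - ν) ^ 2) with hX
  set Y := √(c + a * (y - ν) ^ 2) with hY
  have hX0 : 0 ≤ X := Real.sqrt_nonneg _
  have hY0 : 0 ≤ Y := Real.sqrt_nonneg _
  have hXs : X ^ 2 = c + a * (x - ν) ^ 2 := Real.sq_sqrt (by positivity)
  have hYs : Y ^ 2 = c + a * (y - ν) ^ 2 := Real.sq_sqrt (by positivity)
  apply Real.sqrt_le_iff.mpr
  refine ⟨by positivity, ?_⟩
  have ht' : t = 1 - s := by linarith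
  -- Cauchy-Schwarz
  have cs : c + a * ((x - ν) * (y - ν)) ≤ X * Y := by
    have h2 : (c + a * ((x - ν) * (y - ν))) ^ 2 ≤ (X * Y) ^ 2 := by
      rw [mul_pow, hXs, hYs]
      nlinarith [mul_nonneg (mul_nonneg hc ha) (sq_nonneg ((x - ν) - (y - ν)))]
    exact (abs_le_of_sq_le_sq h2 (by positivity) |> abs_le.mp).2
  have hst0 : 0 ≤ s * t := mul_nonneg hs ht
  have e : s * x + t * y - ν = s * (x - ν) + t * (y - ν) := by
    rw [ht']; ring
  rw [e]
  have h3 : (s * X + t * Y) ^ 2 = s ^ 2 * X ^ 2 + t ^ 2 * Y ^ 2 + 2 * (s * t) * (X * Y) := by ring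
  rw [h3, hXs, hYs]
  have h4 : 2 * (s * t) * (c + a * ((x - ν) * (y - ν))) ≤ 2 * (s * t) * (X * Y) :=
    mul_le_mul_of_nonneg_left cs (by positivity)
  have h5 : c = c * (s + t) ^ 2 := by rw [hst]; ring
  nlinarith

section
variable {γ ν : ℝ} (hγ : γ ∈ Set.Icc (0 : ℝ) 1) (hν : ν ∈ Set.Icc (0 : ℝ) 1)
include hγ hν

theorem gadV_nonneg (q : ℝ) : 0 ≤ gadV γ ν q := by
  unfold gadV
  have h1 : 0 ≤ γ * ν * (1 - ν) := mul_nonneg (mul_nonneg hγ.1 hν.1) (by linarith [hν.2])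
  have h2 : 0 ≤ γ * (1 - γ) * (q - ν) ^ 2 :=
    mul_nonneg (mul_nonneg hγ.1 (by linarith [hγ.2])) (sq_nonneg _)
  linarith

omit hγ hν in
/-- The determinant identity `(1-y) y - (1-γ) q (1-q) = gadV γ ν q`, with `y = (1-γ) q + γ ν`. -/
private theorem gadV_eq' (q : ℝ) :
    (1 - ((1 - γ) * q + γ * ν)) * ((1 - γ) * q + γ * ν) - (1 - γ) * (q * (1 - q)) = gadV γ ν q := by
  unfold gadV
  ring

theorem gadV_le {q : ℝ} (hq : q ∈ Set.Icc (0 : ℝ) 1) : gadV γ ν q ≤ 1 / 4 := by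
  rw [← gadV_eq']
  have h1 : 0 ≤ (1 - γ) * (q * (1 - q)) :=
    mul_nonneg (by linarith [hγ.2]) (mul_nonneg hq.1 (by linarith [hq.2]))
  nlinarith [sq_nonneg ((1 - γ) * q + γ * ν - 1 / 2)]

/-- The determinant identity `(1-y) y - (1-γ) q (1-q) = gadV γ ν q`, with `y = (1-γ) q + γ ν`. -/
theorem gadV_eq (q : ℝ) :
    (1 - ((1 - γ) * q + γ * ν)) * ((1 - γ) * q + γ * ν) - (1 - γ) * (q * (1 - q)) = gadV γ ν q :=
  gadV_eq' q

theorem gadEnt_convex : ConvexOn ℝ (Set.Icc 0 1) (gadEnt γ ν) := by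
  have hc : 0 ≤ γ * ν * (1 - ν) := mul_nonneg (mul_nonneg hγ.1 hν.1) (by linarith [hν.2])
  have ha : 0 ≤ γ * (1 - γ) := mul_nonneg hγ.1 (by linarith [hγ.2])
  have hconv := sqrt_quad_convex hc ha ν
  have hent : ∀ q, gadEnt γ ν q = wootters (2 * √(gadV γ ν q)) := by
    intro q
    unfold gadEnt wootters
    rw [mul_pow, Real.sq_sqrt (gadV_nonneg hγ hν q)]
    norm_num
  have hmem : ∀ q ∈ Set.Icc (0 : ℝ) 1, 2 * √(gadV γ ν q) ∈ Set.Icc (0 : ℝ) 1 := by
    intro q hq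
    refine ⟨by positivity, ?_⟩
    have h := gadV_le hγ hν hq
    have : √(gadV γ ν q) ≤ √(1 / 4) := Real.sqrt_le_sqrt h
    have e : √((1 : ℝ) / 4) = 1 / 2 := by
      rw [show (1 : ℝ) / 4 = (1 / 2) ^ 2 by norm_num, Real.sqrt_sq (by norm_num)]
    rw [e] at this
    linarith
  refine ⟨convex_Icc 0 1, ?_⟩
  intro x hx y hy s t hs ht hst
  simp only [smul_eq_mul]
  have hz := (convex_Icc (0 : ℝ) 1) hx hy hs ht hst
  simp only [smul_eq_mul] at hz
  rw [hent, hent, hent]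
  have h1 := hconv.2 (Set.mem_univ x) (Set.mem_univ y) hs ht hst
  simp only [smul_eq_mul] at h1
  have h1' : 2 * √(gadV γ ν (s * x + t * y)) ≤
      s * (2 * √(gadV γ ν x)) + t * (2 * √(gadV γ ν y)) := by
    unfold gadV
    nlinarith [h1]
  have hmx := hmem x hx
  have hmy := hmem y hy
  have hm' : s * (2 * √(gadV γ ν x)) + t * (2 * √(gadV γ ν y)) ∈ Set.Icc (0 : ℝ) 1 := by
    have := (convex_Icc (0 : ℝ) 1) hmx hmy hs ht hst
    simpa only [smul_eq_mul] using this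
  calc wootters (2 * √(gadV γ ν (s * x + t * y)))
      ≤ wootters (s * (2 * √(gadV γ ν x)) + t * (2 * √(gadV γ ν y))) :=
        wootters_mono (hmem _ hz) hm' h1'
    _ ≤ s * wootters (2 * √(gadV γ ν x)) + t * wootters (2 * √(gadV γ ν y)) := by
        have := wootters_convex.2 hmx hmy hs ht hst
        simpa only [smul_eq_mul] using this

end

end Crest.Agent.GADC
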