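import Crest.Agent.Lib.GADC.Spectrum

/-!
# Jensen-type inequalities in eigenbases.
-/

set_option autoImplicit false

namespace Crest.Agent.GADC

open Matrix Crest.Quantum
open scoped ComplexOrder

section
variable {n m : Type*} [Fintype n] [DecidableEq n] [Fintype m] [DecidableEq m]

/-- `|W l i|²`. -/
noncomputable def sqAbs (W : Matrix n n ℂ) (l i : n) : ℝ := Complex.normSq (W l i)

omit [Fintype n] [DecidableEq n] in
theorem sqAbs_nonneg (W : Matrix n n ℂ) (l i : n) : 0 ≤ sqAbs W l i := Complex.normSq_nonneg _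

theorem sum_sqAbs_row {W : Matrix n n ℂ} (hW : W * star W = 1) (l : n) :
    ∑ i, sqAbs W l i = 1 := by
  have h := congrFun (congrFun hW l) l
  simp only [Matrix.mul_apply, Matrix.star_apply, Matrix.one_apply_eq] at h
  have h2 : ∑ i, ((sqAbs W l i : ℝ) : ℂ) = 1 := by
    rw [← h]
    refine Finset.sum_congr rfl fun i _ => ?_
    simp [sqAbs, Complex.mul_conj]
  exact_mod_cast h2

theorem sum_sqAbs_col {W : Matrix n n ℂ} (hW : star W * W = 1) (i : n) :
    ∑ l, sqAbs W l i = 1 := by
  have h := congrFun (congrFun hW i) i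
  simp only [Matrix.mul_apply, Matrix.star_apply, Matrix.one_apply_eq] at h
  have h2 : ∑ l, ((sqAbs W l i : ℝ) : ℂ) = 1 := by
    rw [← h]
    refine Finset.sum_congr rfl fun l _ => ?_
    simp [sqAbs, Complex.normSq_eq_conj_mul_self]
  exact_mod_cast h2

/-- The relative unitary `V† U` between an arbitrary unitary `V` and the eigenbasis of `A`. -/
noncomputable def relU {A : Matrix n n ℂ} (hA : A.IsHermitian) (V : Matrix n n ℂ) : Matrix n n ℂ :=
  star V * (hA.eigenvectorUnitary : Matrix n n ℂ)

theorem relU_mul_star {A : Matrix n n ℂ} (hA : A.IsHermitian) {V : Matrix n n ℂ}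
    (hV : star V * V = 1) : relU hA V * star (relU hA V) = 1 := by
  unfold relU
  have hU' : (hA.eigenvectorUnitary : Matrix n n ℂ) * star (hA.eigenvectorUnitary : Matrix n n ℂ) = 1 :=
    Unitary.coe_mul_star_self _
  rw [star_mul, star_star, mul_assoc, ← mul_assoc _ (star _), hU', one_mul, hV]

theorem star_relU_mul {A : Matrix n n ℂ} (hA : A.IsHermitian) {V : Matrix n n ℂ}
    (hV : V * star V = 1) : star (relU hA V) * relU hA V = 1 := by
  unfold relU
  have hU : star (hA.eigenvectorUnitary : Matrix n n ℂ) * (hA.eigenvectorUnitary : Matrix n n ℂ) = 1 :=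
    Unitary.coe_star_mul_self _
  rw [star_mul, star_star, mul_assoc, ← mul_assoc V, hV, one_mul, hU]

/-- Diagonal entries of `V† A V` in terms of the eigenvalues of `A`. -/
theorem diag_conj_eq {A : Matrix n n ℂ} (hA : A.IsHermitian) (V : Matrix n n ℂ) (l : n) :
    (star V * A * V) l l = ((∑ i, sqAbs (relU hA V) l i * hA.eigenvalues i : ℝ) : ℂ) := by
  have h1 : star V * A * V = relU hA V * diagonal (fun i => ((hA.eigenvalues i : ℝ) : ℂ)) *
      star (relU hA V) := by
    unfold relU
    conv_lhs => rw [eq_unitary_diag hA]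
    simp only [star_mul, star_star, Matrix.mul_assoc]
  rw [h1, Matrix.mul_apply]
  simp only [Matrix.mul_diagonal, Matrix.star_apply]
  push_cast
  refine Finset.sum_congr rfl fun i _ => ?_
  simp only [sqAbs, Complex.normSq_eq_conj_mul_self]
  simp only [RCLike.star_def]
  ring

/-- Real diagonal entries of `V† A V`. -/
noncomputable def diagRe (A V : Matrix n n ℂ) (l : n) : ℝ := ((star V * A * V) l l).re

theorem diagRe_eq {A : Matrix n n ℂ} (hA : A.IsHermitian) (V : Matrix n n ℂ) (l : n) :
    diagRe A V l = ∑ i, sqAbs (relU hA V) l i * hA.eigenvalues i := by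
  unfold diagRe
  rw [diag_conj_eq hA V l, Complex.ofReal_re]

omit [DecidableEq n] in
theorem diagRe_add (A B V : Matrix n n ℂ) (l : n) :
    diagRe (A + B) V l = diagRe A V l + diagRe B V l := by
  simp [diagRe, Matrix.mul_add, Matrix.add_mul]

theorem sum_diagRe {A V : Matrix n n ℂ} (hV : V * star V = 1) : ∑ l, diagRe A V l = rtr A := by
  unfold diagRe rtr
  rw [← Complex.re_sum]
  have : ∑ l, (star V * A * V) l l = (star V * A * V).trace := rfl
  rw [this, Matrix.trace_mul_comm, ← mul_assoc, hV, one_mul]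

omit [DecidableEq n] in
theorem diagRe_nonneg {A V : Matrix n n ℂ} (hA : A.PosSemidef) (l : n) : 0 ≤ diagRe A V l := by
  have h : (star V * A * V).PosSemidef := by
    have := hA.conjTranspose_mul_mul_same V
    simpa [star_eq_conjTranspose] using this
  have := h.diag_nonneg (i := l)
  unfold diagRe
  exact (Complex.le_def.mp this).1

/-- Lemma D: diagonal entropy dominates the entropy. -/
theorem vnEntropy_le_sum_diag {A V : Matrix n n ℂ} (hA : A.PosSemidef) (hV1 : star V * V = 1)
    (hV2 : V * star V = 1) : vnEntropy A ≤ ∑ l, Real.negMulLog (diagRe A V l) := by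
  rw [vnEntropy_eq_sum hA.1]
  have hrow := sum_sqAbs_row (relU_mul_star hA.1 hV1)
  have hcol := sum_sqAbs_col (star_relU_mul hA.1 hV2)
  have key : ∀ l, ∑ i, sqAbs (relU hA.1 V) l i * Real.negMulLog (hA.1.eigenvalues i)
      ≤ Real.negMulLog (diagRe A V l) := by
    intro l
    rw [diagRe_eq hA.1]
    have := Real.concaveOn_negMulLog.le_map_sum (t := Finset.univ)
      (w := fun i => sqAbs (relU hA.1 V) l i) (p := fun i => hA.1.eigenvalues i)
      (fun i _ => sqAbs_nonneg _ _ _) (hrow l) (fun i _ => hA.eigenvalues_nonneg i)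
    simpa [smul_eq_mul] using this
  calc ∑ i, Real.negMulLog (hA.1.eigenvalues i)
      = ∑ i, ∑ l, sqAbs (relU hA.1 V) l i * Real.negMulLog (hA.1.eigenvalues i) := by
        refine Finset.sum_congr rfl fun i _ => ?_
        rw [← Finset.sum_mul, hcol, one_mul]
    _ = ∑ l, ∑ i, sqAbs (relU hA.1 V) l i * Real.negMulLog (hA.1.eigenvalues i) :=
        Finset.sum_comm
    _ ≤ _ := Finset.sum_le_sum fun l _ => key l

/-- The eigenvector unitary diagonalizes: diagonal entries are the eigenvalues. -/
theorem diagRe_eigenvectorUnitary {A : Matrix n n ℂ} (hA : A.IsHermitian) (l : n) :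
    diagRe A (hA.eigenvectorUnitary : Matrix n n ℂ) l = hA.eigenvalues l := by
  unfold diagRe
  have hU : star (hA.eigenvectorUnitary : Matrix n n ℂ) * (hA.eigenvectorUnitary : Matrix n n ℂ) = 1 :=
    Unitary.coe_star_mul_self _
  have : star (hA.eigenvectorUnitary : Matrix n n ℂ) * A * (hA.eigenvectorUnitary : Matrix n n ℂ)
      = diagonal (fun i => ((hA.eigenvalues i : ℝ) : ℂ)) := by
    have h := eq_unitary_diag hA
    generalize (hA.eigenvectorUnitary : Matrix n n ℂ) = U at h hU
    calc star U * A * U = star U * (U * diagonal (fun i => ((hA.eigenvalues i : ℝ) : ℂ)) * star U) * U := by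
          rw [← h]
      _ = (star U * U) * diagonal (fun i => ((hA.eigenvalues i : ℝ) : ℂ)) * (star U * U) := by
          simp only [Matrix.mul_assoc]
      _ = _ := by rw [hU]; simp
  rw [this]
  simp

theorem vnEntropy_eq_sum_diagRe {A : Matrix n n ℂ} (hA : A.IsHermitian) :
    vnEntropy A = ∑ l, Real.negMulLog (diagRe A (hA.eigenvectorUnitary : Matrix n n ℂ) l) := by
  rw [vnEntropy_eq_sum hA]
  simp only [diagRe_eigenvectorUnitary]

/-- Pinching: the entropy of a block matrix is at most the sum of the entropies of the diagonal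
blocks. -/
theorem vnEntropy_fromBlocks_le {A : Matrix n n ℂ} {B : Matrix n m ℂ} {C : Matrix m n ℂ}
    {D : Matrix m m ℂ} (h : (fromBlocks A B C D).PosSemidef) (hA : A.IsHermitian)
    (hD : D.IsHermitian) :
    vnEntropy (fromBlocks A B C D) ≤ vnEntropy A + vnEntropy D := by
  set U := (hA.eigenvectorUnitary : Matrix n n ℂ) with hUdef
  set W := (hD.eigenvectorUnitary : Matrix m m ℂ) with hWdef
  have hU1 : star U * U = 1 := Unitary.coe_star_mul_self _
  have hU2 : U * star U = 1 := Unitary.coe_mul_star_self _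
  have hW1 : star W * W = 1 := Unitary.coe_star_mul_self _
  have hW2 : W * star W = 1 := Unitary.coe_mul_star_self _
  set V : Matrix (n ⊕ m) (n ⊕ m) ℂ := fromBlocks U 0 0 W with hVdef
  have hsV : star V = fromBlocks (star U) 0 0 (star W) := by
    rw [hVdef, star_eq_conjTranspose, fromBlocks_conjTranspose]
    simp [star_eq_conjTranspose]
  have hV1 : star V * V = 1 := by
    rw [hsV, hVdef, fromBlocks_multiply]
    simp [hU1, hW1]
  have hV2 : V * star V = 1 := by
    rw [hsV, hVdef, fromBlocks_multiply]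
    simp [hU2, hW2]
  have hmain := vnEntropy_le_sum_diag h hV1 hV2
  have hprod : star V * fromBlocks A B C D * V =
      fromBlocks (star U * A * U) (star U * B * W) (star W * C * U) (star W * D * W) := by
    rw [hsV, hVdef, fromBlocks_multiply, fromBlocks_multiply]
    simp
  have hl : ∀ l, diagRe (fromBlocks A B C D) V (Sum.inl l) = hA.eigenvalues l := by
    intro l
    have := diagRe_eigenvectorUnitary hA l
    unfold diagRe at this ⊢
    rw [hprod]
    simpa using this
  have hr : ∀ l, diagRe (fromBlocks A B C D) V (Sum.inr l) = hD.eigenvalues l := by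
    intro l
    have := diagRe_eigenvectorUnitary hD l
    unfold diagRe at this ⊢
    rw [hprod]
    simpa using this
  rw [Fintype.sum_sum_type] at hmain
  simp only [hl, hr] at hmain
  rw [vnEntropy_eq_sum hA, vnEntropy_eq_sum hD]
  exact hmain

/-- Concavity of the entropy. -/
theorem vnEntropy_concave {ι : Type*} [Fintype ι] {q : ι → ℝ} {A : ι → Matrix n n ℂ}
    (hq : ∀ a, 0 ≤ q a) (hq1 : ∑ a, q a = 1) (hA : ∀ a, (A a).PosSemidef)
    (hAvg : (∑ a, ((q a : ℝ) : ℂ) • A a).IsHermitian) :
    ∑ a, q a * vnEntropy (A a) ≤ vnEntropy (∑ a, ((q a : ℝ) : ℂ) • A a) := by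
  rw [vnEntropy_eq_sum_diagRe hAvg]
  set V := (hAvg.eigenvectorUnitary : Matrix n n ℂ) with hVdef
  have hV1 : star V * V = 1 := Unitary.coe_star_mul_self _
  have hV2 : V * star V = 1 := Unitary.coe_mul_star_self _
  have hdiag : ∀ l, diagRe (∑ a, ((q a : ℝ) : ℂ) • A a) V l = ∑ a, q a * diagRe (A a) V l := by
    intro l
    unfold diagRe
    rw [Matrix.mul_sum, Matrix.sum_mul, Matrix.sum_apply, Complex.re_sum]
    refine Finset.sum_congr rfl fun a _ => ?_
    simp
  calc ∑ a, q a * vnEntropy (A a)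
      ≤ ∑ a, q a * ∑ l, Real.negMulLog (diagRe (A a) V l) :=
        Finset.sum_le_sum fun a _ => mul_le_mul_of_nonneg_left
          (vnEntropy_le_sum_diag (hA a) hV1 hV2) (hq a)
    _ = ∑ l, ∑ a, q a * Real.negMulLog (diagRe (A a) V l) := by
        simp only [Finset.mul_sum]
        exact Finset.sum_comm
    _ ≤ ∑ l, Real.negMulLog (diagRe (∑ a, ((q a : ℝ) : ℂ) • A a) V l) := by
        refine Finset.sum_le_sum fun l _ => ?_
        rw [hdiag]
        have := Real.concaveOn_negMulLog.le_map_sum (t := Finset.univ)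
          (w := q) (p := fun a => diagRe (A a) V l)
          (fun i _ => hq i) hq1 (fun a _ => diagRe_nonneg (hA a) l)
        simpa [smul_eq_mul] using this

/-- Log-determinant Jensen inequality. -/
theorem sum_log_one_add_ge {E Y : Matrix n n ℂ} (hE : E.PosSemidef) (hY : Y.PosSemidef)
    (hEY : (E + Y).IsHermitian) (a b : ℝ → ℝ)
    (hab : ∀ x y, 0 ≤ x → 0 ≤ y → a x + b y ≤ Real.log (1 + x + y)) :
    ∑ i, a (hE.1.eigenvalues i) + ∑ i, b (hY.1.eigenvalues i)
      ≤ ∑ l, Real.log (1 + hEY.eigenvalues l) := by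
  set V := (hEY.eigenvectorUnitary : Matrix n n ℂ) with hVdef
  have hV1 : star V * V = 1 := Unitary.coe_star_mul_self _
  have hV2 : V * star V = 1 := Unitary.coe_mul_star_self _
  set p := sqAbs (relU hE.1 V) with hp
  set r := sqAbs (relU hY.1 V) with hr
  have hp0 : ∀ l i, 0 ≤ p l i := fun l i => sqAbs_nonneg _ _ _
  have hr0 : ∀ l i, 0 ≤ r l i := fun l i => sqAbs_nonneg _ _ _
  have hprow : ∀ l, ∑ i, p l i = 1 := sum_sqAbs_row (relU_mul_star hE.1 hV1)
  have hrrow : ∀ l, ∑ i, r l i = 1 := sum_sqAbs_row (relU_mul_star hY.1 hV1)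
  have hpcol : ∀ i, ∑ l, p l i = 1 := sum_sqAbs_col (star_relU_mul hE.1 hV2)
  have hrcol : ∀ i, ∑ l, r l i = 1 := sum_sqAbs_col (star_relU_mul hY.1 hV2)
  have hc : ∀ l, hEY.eigenvalues l = ∑ i, p l i * hE.1.eigenvalues i + ∑ i, r l i * hY.1.eigenvalues i := by
    intro l
    rw [← diagRe_eigenvectorUnitary hEY l, diagRe_add, diagRe_eq hE.1, diagRe_eq hY.1]
  have key : ∀ l, ∑ i, p l i * a (hE.1.eigenvalues i) + ∑ k, r l k * b (hY.1.eigenvalues k)
      ≤ Real.log (1 + hEY.eigenvalues l) := by
    intro l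
    have hw1 : ∑ x : n × n, p l x.1 * r l x.2 = 1 := by
      rw [Fintype.sum_prod_type]
      simp only [← Finset.mul_sum, hrrow, mul_one, hprow]
    have hJ := strictConcaveOn_log_Ioi.concaveOn.le_map_sum (t := Finset.univ)
      (w := fun x : n × n => p l x.1 * r l x.2)
      (p := fun x : n × n => 1 + hE.1.eigenvalues x.1 + hY.1.eigenvalues x.2)
      (fun x _ => mul_nonneg (hp0 _ _) (hr0 _ _)) hw1
      (fun x _ => by
        have h1 := hE.eigenvalues_nonneg x.1
        have h2 := hY.eigenvalues_nonneg x.2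
        simp only [Set.mem_Ioi]
        linarith)
    have hsum : ∑ x : n × n, (p l x.1 * r l x.2) • (1 + hE.1.eigenvalues x.1 + hY.1.eigenvalues x.2)
        = 1 + hEY.eigenvalues l := by
      rw [hc, Fintype.sum_prod_type]
      simp only [smul_eq_mul, mul_add, mul_one, Finset.sum_add_distrib]
      have e1 : ∀ i, ∑ k, p l i * r l k = p l i := by
        intro i; rw [← Finset.mul_sum, hrrow, mul_one]
      have e2 : ∀ i, ∑ k, p l i * r l k * hE.1.eigenvalues i = p l i * hE.1.eigenvalues i := by
        intro i; rw [← Finset.sum_mul, e1]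
      have e3 : ∑ i, ∑ k, p l i * r l k * hY.1.eigenvalues k = ∑ k, r l k * hY.1.eigenvalues k := by
        simp only [mul_assoc, ← Finset.mul_sum, ← Finset.sum_mul, hprow, one_mul]
      simp only [e1, e2, hprow, e3]
      ring
    rw [hsum] at hJ
    refine le_trans ?_ hJ
    have hlow : ∑ x : n × n, (p l x.1 * r l x.2) • a (hE.1.eigenvalues x.1)
        + ∑ x : n × n, (p l x.1 * r l x.2) • b (hY.1.eigenvalues x.2)
        ≤ ∑ x : n × n, (p l x.1 * r l x.2) • Real.log (1 + hE.1.eigenvalues x.1 + hY.1.eigenvalues x.2) := by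
      rw [← Finset.sum_add_distrib]
      refine Finset.sum_le_sum fun x _ => ?_
      simp only [smul_eq_mul]
      rw [← mul_add]
      exact mul_le_mul_of_nonneg_left (hab _ _ (hE.eigenvalues_nonneg _) (hY.eigenvalues_nonneg _))
        (mul_nonneg (hp0 _ _) (hr0 _ _))
    refine le_trans (le_of_eq ?_) hlow
    congr 1
    · rw [Fintype.sum_prod_type]
      refine Finset.sum_congr rfl fun i _ => ?_
      simp only [smul_eq_mul, ← Finset.sum_mul, ← Finset.mul_sum, hrrow, mul_one]
    · rw [Fintype.sum_prod_type, Finset.sum_comm]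
      refine Finset.sum_congr rfl fun k _ => ?_
      simp only [smul_eq_mul, ← Finset.sum_mul, hprow, one_mul]
  calc ∑ i, a (hE.1.eigenvalues i) + ∑ i, b (hY.1.eigenvalues i)
      = ∑ l, (∑ i, p l i * a (hE.1.eigenvalues i) + ∑ k, r l k * b (hY.1.eigenvalues k)) := by
        rw [Finset.sum_add_distrib]
        congr 1
        · rw [Finset.sum_comm]
          refine Finset.sum_congr rfl fun i _ => ?_
          rw [← Finset.sum_mul, hpcol, one_mul]
        · rw [Finset.sum_comm]
          refine Finset.sum_congr rfl fun i _ => ?_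
          rw [← Finset.sum_mul, hrcol, one_mul]
    _ ≤ _ := Finset.sum_le_sum fun l _ => key l

end

end Crest.Agent.GADC
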