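import Crest.Agent.Lib.GADC.KPathPD

/-!
# The K-Path inequality: degenerate cases and the limit from positive definite `X0, X3`.
-/

set_option autoImplicit false

namespace Crest.Agent.GADC

open Matrix Crest.Quantum Filter Topology
open scoped ComplexOrder

section
variable {F₁ F₂ G : Type*} [Fintype F₁] [DecidableEq F₁] [Fintype F₂] [DecidableEq F₂]
  [Fintype G] [DecidableEq G]

theorem Hs_of_t1_zero {t0 t2 t3 : ℝ} : Hs t0 0 t2 t3 = Real.negMulLog t0 + Real.negMulLog (t2 + t3) := by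
  unfold Hs lamP lamM
  have e : (t0 + 0 + t2 + t3) ^ 2 - 4 * ((t0 + 0) * (t2 + t3) - 0 * t2) = (t0 - (t2 + t3)) ^ 2 := by ring
  rw [e, Real.sqrt_sq_eq_abs]
  rcases le_total 0 (t0 - (t2 + t3)) with h | h
  · rw [abs_of_nonneg h]
    congr 2 <;> ring
  · rw [abs_of_nonpos h, add_comm]
    congr 2 <;> ring

theorem Hs_of_t2_zero {t0 t1 t3 : ℝ} : Hs t0 t1 0 t3 = Real.negMulLog (t0 + t1) + Real.negMulLog t3 := by
  unfold Hs lamP lamM
  have e : (t0 + t1 + 0 + t3) ^ 2 - 4 * ((t0 + t1) * (0 + t3) - t1 * 0) = (t0 + t1 - t3) ^ 2 := by ring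
  rw [e, Real.sqrt_sq_eq_abs]
  rcases le_total 0 (t0 + t1 - t3) with h | h
  · rw [abs_of_nonneg h]
    congr 2 <;> ring
  · rw [abs_of_nonpos h, add_comm]
    congr 2 <;> ring

theorem fEnt_eq (A : Matrix F₁ F₁ ℂ) : fEnt A = vnEntropy A - Real.negMulLog (rtr A) := by
  simp only [fEnt, Real.negMulLog]
  ring

omit [DecidableEq G] in
/-- The case `c1 = 0`. -/
theorem kPath_c1_zero (X0 : Matrix F₁ F₁ ℂ) (X3 : Matrix F₂ F₂ ℂ) (c2 : Matrix F₂ G ℂ)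
    (h0 : X0.PosSemidef) (h3 : X3.PosSemidef) :
    Hs (rtr X0) 0 (rtr (c2 * c2ᴴ)) (rtr X3) + fEnt X0 + 0 + fEnt (c2 * c2ᴴ) + fEnt X3
      ≤ vnEntropy (fromBlocks X0 0 0 (X3 + c2 * c2ᴴ)) := by
  have hX2 : (c2 * c2ᴴ).PosSemidef := posSemidef_self_mul_conjTranspose c2
  rw [vnEntropy_fromBlocks_diag h0.1 (h3.add hX2).1, Hs_of_t1_zero]
  have h1 := fEnt_add_ge h3 hX2
  have e1 := fEnt_eq X0
  have e2 := fEnt_eq (X3 + c2 * c2ᴴ)
  rw [rtr_add] at e2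
  have e3 : rtr (c2 * c2ᴴ) + rtr X3 = rtr X3 + rtr (c2 * c2ᴴ) := add_comm _ _
  rw [e3]
  linarith

omit [DecidableEq G] in
/-- The case `c2 = 0`. -/
theorem kPath_c2_zero (X0 : Matrix F₁ F₁ ℂ) (X3 : Matrix F₂ F₂ ℂ) (c1 : Matrix F₁ G ℂ)
    (h0 : X0.PosSemidef) (h3 : X3.PosSemidef) :
    Hs (rtr X0) (rtr (c1 * c1ᴴ)) 0 (rtr X3) + fEnt X0 + fEnt (c1 * c1ᴴ) + 0 + fEnt X3
      ≤ vnEntropy (fromBlocks (X0 + c1 * c1ᴴ) 0 0 X3) := by
  have hX1 : (c1 * c1ᴴ).PosSemidef := posSemidef_self_mul_conjTranspose c1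
  rw [vnEntropy_fromBlocks_diag (h0.add hX1).1 h3.1, Hs_of_t2_zero]
  have h1 := fEnt_add_ge h0 hX1
  have e1 := fEnt_eq X3
  have e2 := fEnt_eq (X0 + c1 * c1ᴴ)
  rw [rtr_add] at e2
  linarith

omit [DecidableEq G] in
theorem rtr_shift (X : Matrix F₁ F₁ ℂ) (ε : ℝ) : rtr (shift ε X) = ε * Fintype.card F₁ + rtr X := by
  simp [shift, rtr, Matrix.trace_add, Matrix.trace_smul, Matrix.trace_one]

omit [DecidableEq G] in
theorem vnEntropy_shift {A : Matrix F₁ F₁ ℂ} (hA : A.IsHermitian) (ε : ℝ) :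
    vnEntropy (shift ε A) = ∑ i, Real.negMulLog (hA.eigenvalues i + ε) := by
  have h : (A + (ε : ℂ) • (1 : Matrix F₁ F₁ ℂ)).IsHermitian := hA.add (smul_one_isHermitian ε)
  have e : shift ε A = A + (ε : ℂ) • (1 : Matrix F₁ F₁ ℂ) := by simp [shift, add_comm]
  rw [e, vnEntropy_eq_sum h]
  exact sum_eig_add_scalar hA ε h _

omit [DecidableEq G] in
theorem vnEntropy_shift_tendsto {A : Matrix F₁ F₁ ℂ} (hA : A.IsHermitian) :
    Tendsto (fun ε => vnEntropy (shift ε A)) (𝓝[>] 0) (𝓝 (vnEntropy A)) := by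
  simp only [vnEntropy_shift hA]
  rw [vnEntropy_eq_sum hA]
  have : Continuous (fun ε : ℝ => ∑ i, Real.negMulLog (hA.eigenvalues i + ε)) := by fun_prop
  have h2 := this.tendsto 0
  simp only [add_zero] at h2
  exact h2.mono_left nhdsWithin_le_nhds

omit [DecidableEq G] in
theorem fEnt_shift_tendsto {A : Matrix F₁ F₁ ℂ} (hA : A.IsHermitian) :
    Tendsto (fun ε => fEnt (shift ε A)) (𝓝[>] 0) (𝓝 (fEnt A)) := by
  unfold fEnt
  simp only [rtr_shift]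
  refine (vnEntropy_shift_tendsto hA).add ?_
  have : Continuous (fun ε : ℝ => (ε * Fintype.card F₁ + rtr A) * Real.log (ε * Fintype.card F₁ + rtr A)) :=
    Real.continuous_mul_log.comp (by fun_prop)
  have h2 := this.tendsto 0
  simp only [zero_mul, zero_add] at h2
  exact h2.mono_left nhdsWithin_le_nhds

omit [DecidableEq G] in
theorem omegaMat_shift (X0 : Matrix F₁ F₁ ℂ) (X3 : Matrix F₂ F₂ ℂ) (c1 : Matrix F₁ G ℂ)
    (c2 : Matrix F₂ G ℂ) (ε : ℝ) :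
    omegaMat (shift ε X0) (shift ε X3) c1 c2 = shift ε (omegaMat X0 X3 c1 c2) := by
  unfold omegaMat shift
  rw [← fromBlocks_one, fromBlocks_smul, fromBlocks_add]
  simp [add_assoc]

/-- K-Path for nonzero `c1, c2` and PSD `X0, X3`. -/
theorem kPath_psd [Nonempty F₁] [Nonempty F₂]
    {X0 : Matrix F₁ F₁ ℂ} {X3 : Matrix F₂ F₂ ℂ} (c1 : Matrix F₁ G ℂ) (c2 : Matrix F₂ G ℂ)
    (h0 : X0.PosSemidef) (h3 : X3.PosSemidef) (ht1 : 0 < rtr (c1 * c1ᴴ)) (ht2 : 0 < rtr (c2 * c2ᴴ)) :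
    Hs (rtr X0) (rtr (c1 * c1ᴴ)) (rtr (c2 * c2ᴴ)) (rtr X3) + fEnt X0 + fEnt (c1 * c1ᴴ)
        + fEnt (c2 * c2ᴴ) + fEnt X3 ≤ vnEntropy (omegaMat X0 X3 c1 c2) := by
  have hωH : (omegaMat X0 X3 c1 c2).IsHermitian := by
    rw [omegaMat_eq]
    exact (IsHermitian.fromBlocks h0.1 (by simp) h3.1).add (isHermitian_mul_conjTranspose_self _)
  have hR := vnEntropy_shift_tendsto hωH
  have hHs : Continuous (fun ε : ℝ => Hs (ε * Fintype.card F₁ + rtr X0) (rtr (c1 * c1ᴴ)) (rtr (c2 * c2ᴴ))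
      (ε * Fintype.card F₂ + rtr X3)) := by
    unfold Hs lamP lamM
    fun_prop
  have hHs0 := (hHs.tendsto 0).mono_left (nhdsWithin_le_nhds (s := Set.Ioi 0))
  simp only [zero_mul, zero_add] at hHs0
  have hL := ((((hHs0.add (fEnt_shift_tendsto h0.1)).add (tendsto_const_nhds (x := fEnt (c1 * c1ᴴ)))).add
    (tendsto_const_nhds (x := fEnt (c2 * c2ᴴ)))).add (fEnt_shift_tendsto h3.1))
  refine le_of_tendsto_of_tendsto hL hR ?_
  filter_upwards [self_mem_nhdsWithin] with ε hε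
  have hε' : 0 < ε := hε
  have hp0 := shift_posDef_of_psd h0 hε'
  have hp3 := shift_posDef_of_psd h3 hε'
  have hcard1 : (0 : ℝ) < Fintype.card F₁ := by exact_mod_cast Fintype.card_pos
  have hcard2 : (0 : ℝ) < Fintype.card F₂ := by exact_mod_cast Fintype.card_pos
  have ht0 : 0 < rtr (shift ε X0) := by
    rw [rtr_shift]; have := rtr_nonneg h0; positivity
  have ht3 : 0 < rtr (shift ε X3) := by
    rw [rtr_shift]; have := rtr_nonneg h3; positivity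
  have := kPath_pd hp0 hp3 c1 c2 ht0 ht3 ht1 ht2
  rw [omegaMat_shift, rtr_shift, rtr_shift] at this
  exact this

end

/-- **K-Path inequality.** -/
theorem kPath {F₁ F₂ G : Type*} [Fintype F₁] [DecidableEq F₁] [Fintype F₂] [DecidableEq F₂]
    [Fintype G] [DecidableEq G] [Nonempty F₁] [Nonempty F₂]
    (X0 : Matrix F₁ F₁ ℂ) (X3 : Matrix F₂ F₂ ℂ) (c1 : Matrix F₁ G ℂ) (c2 : Matrix F₂ G ℂ)
    (h0 : X0.PosSemidef) (h3 : X3.PosSemidef) :
    Hs (rtr X0) (rtr (c1 * c1ᴴ)) (rtr (c2 * c2ᴴ)) (rtr X3) + fEnt X0 + fEnt (c1 * c1ᴴ)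
        + fEnt (c2 * c2ᴴ) + fEnt X3
      ≤ vnEntropy (fromBlocks (X0 + c1 * c1ᴴ) (c1 * c2ᴴ) (c2 * c1ᴴ) (X3 + c2 * c2ᴴ)) := by
  rcases (rtr_nonneg (posSemidef_self_mul_conjTranspose c1)).eq_or_lt with ht1 | ht1
  · have hc : c1 = 0 := by
      rw [← self_mul_conjTranspose_eq_zero]
      exact eq_zero_of_rtr_eq_zero (posSemidef_self_mul_conjTranspose c1) ht1.symm
    subst hc
    have := kPath_c1_zero X0 X3 c2 h0 h3
    simpa [fEnt_zero, rtr_zero] using this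
  rcases (rtr_nonneg (posSemidef_self_mul_conjTranspose c2)).eq_or_lt with ht2 | ht2
  · have hc : c2 = 0 := by
      rw [← self_mul_conjTranspose_eq_zero]
      exact eq_zero_of_rtr_eq_zero (posSemidef_self_mul_conjTranspose c2) ht2.symm
    subst hc
    have := kPath_c2_zero X0 X3 c1 h0 h3
    simpa [fEnt_zero, rtr_zero] using this
  exact kPath_psd c1 c2 h0 h3 ht1 ht2

end Crest.Agent.GADC
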