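import Crest.Agent.Lib.GADC.Defs

/-!
# Scalar analysis for the K-Path inequality: closed-form potentials.

Throughout `t0 t1 t2 t3 > 0`.  `lP = lamP T D`, `lM = lamM T D` are the eigenvalues of the matrix
`[[t0+t1, √(t1 t2)], [√(t1 t2), t2+t3]]` (trace `T = t0+t1+t2+t3`, determinant
`D = (t0+t1)(t2+t3) - t1 t2 = t0 t2 + t0 t3 + t1 t3 > 0`), `wP, wM` are the squared components of
its eigenvectors on the first coordinate.

`calA u = wP ln(u+lP) + wM ln(u+lM) - ln(u+t0)` is the potential along the curve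
`e(u) = t1/(u+t0)`; `calA t3 t2 t1 t0` is the potential `B` along `y(u) = t2/(u+t3)`
(swapping `(t0,t1,t2,t3) ↦ (t3,t2,t1,t0)` keeps `T, D, lP, lM` and exchanges `wP, wM`).

`intA U = ∫₀^U calA = wP φ(U,lP) + wM φ(U,lM) - φ(U,t0)` where
`φ(U,l) = ∫₀^U ln(s+l) ds = (U+l) ln(U+l) - l ln l - U`.
-/

set_option autoImplicit false
set_option linter.unusedSectionVars false

namespace Crest.Agent.GADC

open Real Filter Topology

/-- trace of the scalar matrix -/
noncomputable def scT (t0 t1 t2 t3 : ℝ) : ℝ := t0 + t1 + t2 + t3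
/-- determinant of the scalar matrix -/
noncomputable def scD (t0 t1 t2 t3 : ℝ) : ℝ := (t0 + t1) * (t2 + t3) - t1 * t2
noncomputable def lP (t0 t1 t2 t3 : ℝ) : ℝ := lamP (scT t0 t1 t2 t3) (scD t0 t1 t2 t3)
noncomputable def lM (t0 t1 t2 t3 : ℝ) : ℝ := lamM (scT t0 t1 t2 t3) (scD t0 t1 t2 t3)
noncomputable def wP (t0 t1 t2 t3 : ℝ) : ℝ :=
  (t0 + t1 - lM t0 t1 t2 t3) / (lP t0 t1 t2 t3 - lM t0 t1 t2 t3)
noncomputable def wM (t0 t1 t2 t3 : ℝ) : ℝ :=
  (lP t0 t1 t2 t3 - t0 - t1) / (lP t0 t1 t2 t3 - lM t0 t1 t2 t3)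

/-- `calA u = wP ln(u+lP) + wM ln(u+lM) - ln(u+t0)`. -/
noncomputable def calA (t0 t1 t2 t3 u : ℝ) : ℝ :=
  wP t0 t1 t2 t3 * Real.log (u + lP t0 t1 t2 t3) + wM t0 t1 t2 t3 * Real.log (u + lM t0 t1 t2 t3)
    - Real.log (u + t0)

/-- `φ(U,l) = ∫₀^U ln(s+l) ds`. -/
noncomputable def phiF (U l : ℝ) : ℝ := (U + l) * Real.log (U + l) - l * Real.log l - U

/-- `intA U = ∫₀^U calA`. -/
noncomputable def intA (t0 t1 t2 t3 U : ℝ) : ℝ :=
  wP t0 t1 t2 t3 * phiF U (lP t0 t1 t2 t3) + wM t0 t1 t2 t3 * phiF U (lM t0 t1 t2 t3) - phiF U t0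

/-- The constant in the asymptotics of `intA`. -/
noncomputable def constA (t0 t1 t2 t3 : ℝ) : ℝ :=
  wP t0 t1 t2 t3 * negMulLog (lP t0 t1 t2 t3) + wM t0 t1 t2 t3 * negMulLog (lM t0 t1 t2 t3)
    - negMulLog t0

/-- Step approximation of the potential: jumps `calA(kh) - calA((k+1)h)` at the levels
`t1/(kh+t0)`. -/
noncomputable def stepA (t0 t1 t2 t3 h : ℝ) (K : ℕ) (e : ℝ) : ℝ :=
  ∑ k ∈ Finset.range K, (calA t0 t1 t2 t3 (k * h) - calA t0 t1 t2 t3 ((k + 1) * h)) *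
    (if t1 / (k * h + t0) < e then 1 else 0)


/-! ### Elementary auxiliary facts (no positivity needed) -/

private lemma log_wavg {w1 w2 x y : ℝ} (hw1 : 0 ≤ w1) (hw2 : 0 ≤ w2) (h : w1 + w2 = 1)
    (hx : 0 < x) (hy : 0 < y) :
    w1 * Real.log x + w2 * Real.log y ≤ Real.log (w1 * x + w2 * y) := by
  have := (strictConcaveOn_log_Ioi.concaveOn).2 (Set.mem_Ioi.2 hx) (Set.mem_Ioi.2 hy) hw1 hw2 h
  simpa [smul_eq_mul] using this

/-- The square root of the discriminant. -/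
private noncomputable def rr (t0 t1 t2 t3 : ℝ) : ℝ :=
  Real.sqrt (scT t0 t1 t2 t3 ^ 2 - 4 * scD t0 t1 t2 t3)

private lemma disc_eq (t0 t1 t2 t3 : ℝ) :
    scT t0 t1 t2 t3 ^ 2 - 4 * scD t0 t1 t2 t3 = (t0 + t1 - t2 - t3) ^ 2 + 4 * (t1 * t2) := by
  unfold scT scD; ring

private lemma lP_eq (t0 t1 t2 t3 : ℝ) : lP t0 t1 t2 t3 = (scT t0 t1 t2 t3 + rr t0 t1 t2 t3) / 2 := rfl
private lemma lM_eq (t0 t1 t2 t3 : ℝ) : lM t0 t1 t2 t3 = (scT t0 t1 t2 t3 - rr t0 t1 t2 t3) / 2 := rfl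

private lemma scT_swap (t0 t1 t2 t3 : ℝ) : scT t3 t2 t1 t0 = scT t0 t1 t2 t3 := by
  unfold scT; ring
private lemma scD_swap (t0 t1 t2 t3 : ℝ) : scD t3 t2 t1 t0 = scD t0 t1 t2 t3 := by
  unfold scD; ring
private lemma rr_swap (t0 t1 t2 t3 : ℝ) : rr t3 t2 t1 t0 = rr t0 t1 t2 t3 := by
  unfold rr; rw [scT_swap, scD_swap]

section
variable {t0 t1 t2 t3 : ℝ} (h0 : 0 < t0) (h1 : 0 < t1) (h2 : 0 < t2) (h3 : 0 < t3)
include h0 h1 h2 h3

private lemma rr_pos : 0 < rr t0 t1 t2 t3 := by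
  unfold rr
  apply Real.sqrt_pos.2
  rw [disc_eq]
  have : 0 < t1 * t2 := mul_pos h1 h2
  positivity

private lemma rr_sq : rr t0 t1 t2 t3 ^ 2 = scT t0 t1 t2 t3 ^ 2 - 4 * scD t0 t1 t2 t3 := by
  unfold rr
  apply Real.sq_sqrt
  rw [disc_eq]
  have : 0 < t1 * t2 := mul_pos h1 h2
  positivity

private lemma abs_le_rr : |t0 + t1 - t2 - t3| ≤ rr t0 t1 t2 t3 := by
  unfold rr
  apply Real.abs_le_sqrt
  rw [disc_eq]
  have : 0 < t1 * t2 := mul_pos h1 h2
  nlinarith

theorem scD_pos : 0 < scD t0 t1 t2 t3 := by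
  have : scD t0 t1 t2 t3 = t0 * t2 + t0 * t3 + t1 * t3 := by unfold scD; ring
  rw [this]; positivity

theorem lM_pos : 0 < lM t0 t1 t2 t3 := by
  rw [lM_eq]
  have hT : 0 < scT t0 t1 t2 t3 := by unfold scT; positivity
  have hD := scD_pos h0 h1 h2 h3
  have hr := rr_pos h0 h1 h2 h3
  have hs := rr_sq h0 h1 h2 h3
  have : rr t0 t1 t2 t3 < scT t0 t1 t2 t3 := by nlinarith
  linarith

theorem lM_lt_lP : lM t0 t1 t2 t3 < lP t0 t1 t2 t3 := by
  rw [lM_eq, lP_eq]
  have hr := rr_pos h0 h1 h2 h3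
  linarith

theorem lP_add_lM : lP t0 t1 t2 t3 + lM t0 t1 t2 t3 = t0 + t1 + t2 + t3 := by
  rw [lM_eq, lP_eq]; unfold scT; ring

theorem lP_mul_lM : lP t0 t1 t2 t3 * lM t0 t1 t2 t3 = scD t0 t1 t2 t3 := by
  rw [lM_eq, lP_eq]
  have hs := rr_sq h0 h1 h2 h3
  linear_combination (-1 / 4) * hs

private lemma lP_sub_lM_ne : lP t0 t1 t2 t3 - lM t0 t1 t2 t3 ≠ 0 :=
  (sub_pos.2 (lM_lt_lP h0 h1 h2 h3)).ne'

theorem wP_nonneg : 0 ≤ wP t0 t1 t2 t3 := by
  unfold wP
  apply div_nonneg _ (sub_pos.2 (lM_lt_lP h0 h1 h2 h3)).le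
  rw [lM_eq]; unfold scT
  have := abs_le.1 (abs_le_rr h0 h1 h2 h3)
  linarith [this.1, this.2]

theorem wM_nonneg : 0 ≤ wM t0 t1 t2 t3 := by
  unfold wM
  apply div_nonneg _ (sub_pos.2 (lM_lt_lP h0 h1 h2 h3)).le
  rw [lP_eq]; unfold scT
  have := abs_le.1 (abs_le_rr h0 h1 h2 h3)
  linarith [this.1, this.2]

theorem wP_add_wM : wP t0 t1 t2 t3 + wM t0 t1 t2 t3 = 1 := by
  unfold wP wM
  have hne := lP_sub_lM_ne h0 h1 h2 h3
  rw [← add_div]
  have : t0 + t1 - lM t0 t1 t2 t3 + (lP t0 t1 t2 t3 - t0 - t1) = lP t0 t1 t2 t3 - lM t0 t1 t2 t3 := by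
    ring
  rw [this, div_self hne]

/-- mean of the eigenvalues in the first coordinate -/
theorem wP_lP_add : wP t0 t1 t2 t3 * lP t0 t1 t2 t3 + wM t0 t1 t2 t3 * lM t0 t1 t2 t3 = t0 + t1 := by
  unfold wP wM
  have hne := lP_sub_lM_ne h0 h1 h2 h3
  field_simp
  ring

/-- mean of the eigenvalues in the second coordinate -/
theorem wM_lP_add : wM t0 t1 t2 t3 * lP t0 t1 t2 t3 + wP t0 t1 t2 t3 * lM t0 t1 t2 t3 = t2 + t3 := by
  have hs := wP_add_wM h0 h1 h2 h3
  have hm := wP_lP_add h0 h1 h2 h3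
  have ha := lP_add_lM h0 h1 h2 h3
  linear_combination (lP t0 t1 t2 t3 + lM t0 t1 t2 t3) * hs - hm + ha

/-- The swap symmetry. -/
theorem lP_swap : lP t3 t2 t1 t0 = lP t0 t1 t2 t3 := by
  rw [lP_eq, lP_eq, scT_swap, rr_swap]

theorem lM_swap : lM t3 t2 t1 t0 = lM t0 t1 t2 t3 := by
  rw [lM_eq, lM_eq, scT_swap, rr_swap]

theorem wP_swap : wP t3 t2 t1 t0 = wM t0 t1 t2 t3 := by
  unfold wP wM
  rw [lP_swap h0 h1 h2 h3, lM_swap h0 h1 h2 h3]
  congr 1
  have ha := lP_add_lM h0 h1 h2 h3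
  linarith

theorem wM_swap : wM t3 t2 t1 t0 = wP t0 t1 t2 t3 := by
  unfold wP wM
  rw [lP_swap h0 h1 h2 h3, lM_swap h0 h1 h2 h3]
  congr 1
  have ha := lP_add_lM h0 h1 h2 h3
  linarith

/-- The potential inequality (★): for `a, b ≥ 0`,
`calA a + calB b ≤ ln(1 + t1/(a+t0) + t2/(b+t3))`.  Proof: weighted AM-GM (concavity of `ln`) and
the identity `(a+t0)(b+t3)(1 + t1/(a+t0) + t2/(b+t3)) = wP (a+lP)(b+lM) + wM (a+lM)(b+lP)`. -/
theorem calA_add_calB_le {a b : ℝ} (ha : 0 ≤ a) (hb : 0 ≤ b) :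
    calA t0 t1 t2 t3 a + calA t3 t2 t1 t0 b ≤ Real.log (1 + t1 / (a + t0) + t2 / (b + t3)) := by
  have hM := lM_pos h0 h1 h2 h3
  have hPM := lM_lt_lP h0 h1 h2 h3
  have hP : 0 < lP t0 t1 t2 t3 := hM.trans hPM
  have hw1 := wP_nonneg h0 h1 h2 h3
  have hw2 := wM_nonneg h0 h1 h2 h3
  have hs := wP_add_wM h0 h1 h2 h3
  have hm1 := wP_lP_add h0 h1 h2 h3
  have hm2 := wM_lP_add h0 h1 h2 h3
  have hprod := lP_mul_lM h0 h1 h2 h3
  unfold calA
  rw [lP_swap h0 h1 h2 h3, lM_swap h0 h1 h2 h3, wP_swap h0 h1 h2 h3, wM_swap h0 h1 h2 h3]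
  set P := lP t0 t1 t2 t3
  set M := lM t0 t1 t2 t3
  set wp := wP t0 t1 t2 t3
  set wm := wM t0 t1 t2 t3
  have ha0 : 0 < a + t0 := by linarith
  have hb3 : 0 < b + t3 := by linarith
  have haP : 0 < a + P := by linarith
  have haM : 0 < a + M := by linarith
  have hbP : 0 < b + P := by linarith
  have hbM : 0 < b + M := by linarith
  have key := log_wavg hw1 hw2 hs (mul_pos haP hbM) (mul_pos haM hbP)
  rw [Real.log_mul haP.ne' hbM.ne', Real.log_mul haM.ne' hbP.ne'] at key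
  have hX : wp * ((a + P) * (b + M)) + wm * ((a + M) * (b + P)) =
      (a + t0) * (b + t3) * (1 + t1 / (a + t0) + t2 / (b + t3)) := by
    have e1 : (a + t0) * (b + t3) * (1 + t1 / (a + t0) + t2 / (b + t3)) =
        (a + t0) * (b + t3) + t1 * (b + t3) + t2 * (a + t0) := by
      field_simp
    rw [e1]
    have hD : P * M = t0 * t2 + t0 * t3 + t1 * t3 := by
      rw [hprod]; unfold scD; ring
    linear_combination (a * b) * hs + b * hm1 + a * hm2 + (wp + wm) * hD +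
      (t0 * t2 + t0 * t3 + t1 * t3) * hs
  rw [hX] at key
  have hpos : 0 < 1 + t1 / (a + t0) + t2 / (b + t3) := by positivity
  rw [Real.log_mul (mul_pos ha0 hb3).ne' hpos.ne', Real.log_mul ha0.ne' hb3.ne'] at key
  linarith

/-- One-sided version: `calA a ≤ ln(1 + t1/(a+t0))`. (AM-GM with weights `wP, wM`.) -/
theorem calA_le_log {a : ℝ} (ha : 0 ≤ a) : calA t0 t1 t2 t3 a ≤ Real.log (1 + t1 / (a + t0)) := by
  have hM := lM_pos h0 h1 h2 h3
  have hPM := lM_lt_lP h0 h1 h2 h3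
  have hP : 0 < lP t0 t1 t2 t3 := hM.trans hPM
  have hw1 := wP_nonneg h0 h1 h2 h3
  have hw2 := wM_nonneg h0 h1 h2 h3
  have hs := wP_add_wM h0 h1 h2 h3
  have hm1 := wP_lP_add h0 h1 h2 h3
  unfold calA
  set P := lP t0 t1 t2 t3
  set M := lM t0 t1 t2 t3
  set wp := wP t0 t1 t2 t3
  set wm := wM t0 t1 t2 t3
  have ha0 : 0 < a + t0 := by linarith
  have haP : 0 < a + P := by linarith
  have haM : 0 < a + M := by linarith
  have key := log_wavg hw1 hw2 hs haP haM
  have hX : wp * (a + P) + wm * (a + M) = (a + t0) * (1 + t1 / (a + t0)) := by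
    have e1 : (a + t0) * (1 + t1 / (a + t0)) = a + t0 + t1 := by
      field_simp
    rw [e1]
    linear_combination a * hs + hm1
  rw [hX] at key
  have hpos : 0 < 1 + t1 / (a + t0) := by positivity
  rw [Real.log_mul ha0.ne' hpos.ne'] at key
  linarith

private lemma hasDerivAt_calA {u : ℝ} (hu : 0 ≤ u) :
    HasDerivAt (calA t0 t1 t2 t3)
      (wP t0 t1 t2 t3 / (u + lP t0 t1 t2 t3) + wM t0 t1 t2 t3 / (u + lM t0 t1 t2 t3)
        - 1 / (u + t0)) u := by
  have hM := lM_pos h0 h1 h2 h3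
  have hPM := lM_lt_lP h0 h1 h2 h3
  have hP : 0 < lP t0 t1 t2 t3 := hM.trans hPM
  have d (l : ℝ) (hl : 0 < l) : HasDerivAt (fun x : ℝ => Real.log (x + l)) (1 / (u + l)) u := by
    have := ((hasDerivAt_id u).add_const l).log (by simp only [id]; linarith)
    simpa [id] using this
  unfold calA
  have := (((d _ hP).const_mul (wP t0 t1 t2 t3)).add ((d _ hM).const_mul (wM t0 t1 t2 t3))).sub
    (d _ h0)
  exact this.congr_deriv (by ring)

private lemma calA_deriv_eq {u : ℝ} (hu : 0 ≤ u) :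
    wP t0 t1 t2 t3 / (u + lP t0 t1 t2 t3) + wM t0 t1 t2 t3 / (u + lM t0 t1 t2 t3) - 1 / (u + t0)
      = -(t1 * (u + t3)) / ((u + t0) * (u + lP t0 t1 t2 t3) * (u + lM t0 t1 t2 t3)) := by
  have hM := lM_pos h0 h1 h2 h3
  have hPM := lM_lt_lP h0 h1 h2 h3
  have hP : 0 < lP t0 t1 t2 t3 := hM.trans hPM
  have hs := wP_add_wM h0 h1 h2 h3
  have hm2 := wM_lP_add h0 h1 h2 h3
  have ha := lP_add_lM h0 h1 h2 h3
  have hprod := lP_mul_lM h0 h1 h2 h3
  have hD : lP t0 t1 t2 t3 * lM t0 t1 t2 t3 = t0 * t2 + t0 * t3 + t1 * t3 := by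
    rw [hprod]; unfold scD; ring
  set P := lP t0 t1 t2 t3
  set M := lM t0 t1 t2 t3
  set wp := wP t0 t1 t2 t3
  set wm := wM t0 t1 t2 t3
  have h10 : u + t0 ≠ 0 := by positivity
  have h1P : u + P ≠ 0 := by positivity
  have h1M : u + M ≠ 0 := by positivity
  have e1 : wp * (u + M) + wm * (u + P) = u + t2 + t3 := by
    linear_combination u * hs + hm2
  have e2 : (u + t2 + t3) * (u + t0) - (u + P) * (u + M) = -(t1 * (u + t3)) := by
    linear_combination (-u) * ha - hD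
  rw [← e2, ← e1]
  field_simp

theorem calA_antitone : AntitoneOn (calA t0 t1 t2 t3) (Set.Ici 0) := by
  have hM := lM_pos h0 h1 h2 h3
  have hPM := lM_lt_lP h0 h1 h2 h3
  have hP : 0 < lP t0 t1 t2 t3 := hM.trans hPM
  apply antitoneOn_of_deriv_nonpos (convex_Ici 0)
  · intro u hu
    exact (hasDerivAt_calA h0 h1 h2 h3 hu).continuousAt.continuousWithinAt
  · intro u hu
    rw [interior_Ici] at hu
    exact (hasDerivAt_calA h0 h1 h2 h3 (le_of_lt hu)).differentiableAt.differentiableWithinAt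
  · intro u hu
    rw [interior_Ici] at hu
    have hu' : (0 : ℝ) ≤ u := le_of_lt hu
    rw [(hasDerivAt_calA h0 h1 h2 h3 hu').deriv, calA_deriv_eq h0 h1 h2 h3 hu']
    apply div_nonpos_of_nonpos_of_nonneg
    · have : 0 ≤ t1 * (u + t3) := by positivity
      linarith
    · positivity

omit h0 h1 h2 h3 in
private lemma tendsto_log_sub_log (l : ℝ) :
    Tendsto (fun u : ℝ => Real.log (u + l) - Real.log (u + t0)) atTop (𝓝 0) := by
  have h1' : Tendsto (fun u : ℝ => 1 + (l - t0) / (u + t0)) atTop (𝓝 (1 + 0)) :=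
    tendsto_const_nhds.add
      (Tendsto.const_div_atTop (tendsto_atTop_add_const_right _ _ tendsto_id) _)
  have h2' : Tendsto (fun u : ℝ => Real.log (1 + (l - t0) / (u + t0))) atTop (𝓝 (Real.log (1 + 0))) :=
    (Real.continuousAt_log (by norm_num)).tendsto.comp h1'
  simp only [add_zero, Real.log_one] at h2'
  refine h2'.congr' ?_
  filter_upwards [eventually_gt_atTop (max (-l) (-t0))] with u hu
  have hu1 : 0 < u + l := by have := lt_of_le_of_lt (le_max_left _ _) hu; linarith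
  have hu2 : 0 < u + t0 := by have := lt_of_le_of_lt (le_max_right _ _) hu; linarith
  rw [← Real.log_div hu1.ne' hu2.ne']
  congr 1
  field_simp
  ring

/-- `calA u → 0` as `u → ∞`. -/
theorem calA_tendsto : Tendsto (calA t0 t1 t2 t3) atTop (𝓝 0) := by
  have hs := wP_add_wM h0 h1 h2 h3
  have hA := (tendsto_log_sub_log (t0 := t0) (lP t0 t1 t2 t3)).const_mul (wP t0 t1 t2 t3)
  have hB := (tendsto_log_sub_log (t0 := t0) (lM t0 t1 t2 t3)).const_mul (wM t0 t1 t2 t3)
  have := hA.add hB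
  simp only [mul_zero, add_zero] at this
  refine this.congr ?_
  intro u
  unfold calA
  linear_combination (-(Real.log (u + t0))) * hs

theorem calA_nonneg {u : ℝ} (hu : 0 ≤ u) : 0 ≤ calA t0 t1 t2 t3 u := by
  refine le_of_tendsto (calA_tendsto h0 h1 h2 h3) ?_
  filter_upwards [eventually_ge_atTop u] with v hv
  exact calA_antitone h0 h1 h2 h3 (Set.mem_Ici.2 hu) (Set.mem_Ici.2 (hu.trans hv)) hv

/-- `intA 0 = 0`. -/
theorem intA_zero : intA t0 t1 t2 t3 0 = 0 := by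
  unfold intA phiF
  simp

omit h0 h1 h2 h3 in
private lemma continuous_phiF (l : ℝ) : Continuous (fun U : ℝ => phiF U l) := by
  unfold phiF
  have := Real.continuous_mul_log.comp (continuous_id.add (continuous_const (y := l)))
  exact (this.sub continuous_const).sub continuous_id

omit h0 h1 h2 h3 in
private lemma hasDerivAt_phiF {U l : ℝ} (h : 0 < U + l) :
    HasDerivAt (fun U : ℝ => phiF U l) (Real.log (U + l)) U := by
  unfold phiF
  have h1 : HasDerivAt (fun x : ℝ => x + l) 1 U := (hasDerivAt_id U).add_const l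
  have h2 := h1.mul (h1.log h.ne')
  have h3 := (h2.sub_const (l * Real.log l)).sub (hasDerivAt_id U)
  refine h3.congr_deriv ?_
  field_simp
  ring

/-- `intA` is continuous at `0` (in fact on `[0,∞)`). -/
theorem intA_continuousOn : ContinuousOn (intA t0 t1 t2 t3) (Set.Ici 0) := by
  have : Continuous (intA t0 t1 t2 t3) := by
    unfold intA
    exact ((continuous_const.mul (continuous_phiF _)).add
      (continuous_const.mul (continuous_phiF _))).sub (continuous_phiF _)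
  exact this.continuousOn

private lemma hasDerivAt_intA {u : ℝ} (hu : 0 ≤ u) :
    HasDerivAt (intA t0 t1 t2 t3) (calA t0 t1 t2 t3 u) u := by
  have hM := lM_pos h0 h1 h2 h3
  have hPM := lM_lt_lP h0 h1 h2 h3
  have hP : 0 < lP t0 t1 t2 t3 := hM.trans hPM
  unfold intA calA
  exact (((hasDerivAt_phiF (by linarith)).const_mul _).add
    ((hasDerivAt_phiF (by linarith)).const_mul _)).sub (hasDerivAt_phiF (by linarith))

/-- `intA` is monotone (its derivative is `calA ≥ 0`). -/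
theorem intA_mono : MonotoneOn (intA t0 t1 t2 t3) (Set.Ici 0) := by
  apply monotoneOn_of_deriv_nonneg (convex_Ici 0) (intA_continuousOn h0 h1 h2 h3)
  · intro u hu
    rw [interior_Ici] at hu
    exact (hasDerivAt_intA h0 h1 h2 h3 (le_of_lt hu)).differentiableAt.differentiableWithinAt
  · intro u hu
    rw [interior_Ici] at hu
    rw [(hasDerivAt_intA h0 h1 h2 h3 (le_of_lt hu)).deriv]
    exact calA_nonneg h0 h1 h2 h3 (le_of_lt hu)

/-- Since `intA' = calA` is antitone: `intA (u+h) - intA u ≤ h * calA u`. -/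
theorem intA_add_sub_le {u h : ℝ} (hu : 0 ≤ u) (hh : 0 ≤ h) :
    intA t0 t1 t2 t3 (u + h) - intA t0 t1 t2 t3 u ≤ h * calA t0 t1 t2 t3 u := by
  have hmem : ∀ x, x ∈ Set.Ici u → (0 : ℝ) ≤ x := fun x hx => hu.trans hx
  have key := (convex_Ici u).image_sub_le_mul_sub_of_deriv_le
    (f := intA t0 t1 t2 t3) (C := calA t0 t1 t2 t3 u)
    (fun x hx => (hasDerivAt_intA h0 h1 h2 h3 (hmem x hx)).continuousAt.continuousWithinAt)
    (fun x hx => by
      rw [interior_Ici] at hx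
      exact (hasDerivAt_intA h0 h1 h2 h3
        (hmem x (Set.mem_Ici.2 (le_of_lt hx)))).differentiableAt.differentiableWithinAt)
    (fun x hx => by
      rw [interior_Ici] at hx
      have hx' : u ≤ x := le_of_lt hx
      rw [(hasDerivAt_intA h0 h1 h2 h3 (hu.trans hx')).deriv]
      exact calA_antitone h0 h1 h2 h3 (Set.mem_Ici.2 hu) (Set.mem_Ici.2 (hu.trans hx')) hx')
    u (Set.mem_Ici.2 le_rfl) (u + h) (Set.mem_Ici.2 (by linarith)) (by linarith)
  have e : u + h - u = h := by ring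
  rw [e] at key
  linarith

end

/-- Asymptotics of `φ`: for `l ≥ 0`,
`φ(U,l) - (U ln U - U) - l (ln U + 1) → η(l) = -l ln l` as `U → ∞`. -/
theorem phiF_tendsto {l : ℝ} (hl : 0 ≤ l) :
    Tendsto (fun U => phiF U l - (U * Real.log U - U) - l * (Real.log U + 1)) atTop
      (𝓝 (negMulLog l)) := by
  have h1 := Real.tendsto_mul_log_one_add_div_atTop l
  have h2 : Tendsto (fun U : ℝ => 1 + l / U) atTop (𝓝 (1 + 0)) :=
    tendsto_const_nhds.add (Tendsto.const_div_atTop tendsto_id _)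
  have h3 : Tendsto (fun U : ℝ => Real.log (1 + l / U)) atTop (𝓝 (Real.log (1 + 0))) :=
    (Real.continuousAt_log (by norm_num)).tendsto.comp h2
  simp only [add_zero, Real.log_one] at h3
  have h4 := (h1.add (h3.const_mul l)).sub_const (l * Real.log l + l)
  have e : l + l * 0 - (l * Real.log l + l) = negMulLog l := by
    unfold Real.negMulLog; ring
  rw [e] at h4
  refine h4.congr' ?_
  filter_upwards [eventually_gt_atTop (0 : ℝ)] with U hU
  have hUl : 0 < U + l := by linarith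
  have e2 : Real.log (1 + l / U) = Real.log (U + l) - Real.log U := by
    rw [← Real.log_div hUl.ne' hU.ne']
    congr 1
    field_simp
  unfold phiF
  rw [e2]
  ring

section
variable {t0 t1 t2 t3 : ℝ} (h0 : 0 < t0) (h1 : 0 < t1) (h2 : 0 < t2) (h3 : 0 < t3)
include h0 h1 h2 h3

/-- Asymptotics of `intA`: `intA U - t1 (ln U + 1) → constA`. -/
theorem intA_tendsto :
    Tendsto (fun U => intA t0 t1 t2 t3 U - t1 * (Real.log U + 1)) atTop
      (𝓝 (constA t0 t1 t2 t3)) := by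
  have hM := lM_pos h0 h1 h2 h3
  have hPM := lM_lt_lP h0 h1 h2 h3
  have hP : 0 < lP t0 t1 t2 t3 := hM.trans hPM
  have hs := wP_add_wM h0 h1 h2 h3
  have hm1 := wP_lP_add h0 h1 h2 h3
  have hA := (phiF_tendsto hP.le).const_mul (wP t0 t1 t2 t3)
  have hB := (phiF_tendsto hM.le).const_mul (wM t0 t1 t2 t3)
  have hC := phiF_tendsto h0.le
  have := (hA.add hB).sub hC
  refine this.congr ?_
  intro U
  unfold intA
  set E := U * Real.log U - U
  set L := Real.log U + 1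
  linear_combination (-E) * hs + (-L) * hm1

/-- The two constants add up to the scalar entropy. -/
theorem constA_add_constA_swap :
    constA t0 t1 t2 t3 + constA t3 t2 t1 t0 =
      Hs t0 t1 t2 t3 - negMulLog t0 - negMulLog t3 := by
  have hs := wP_add_wM h0 h1 h2 h3
  unfold constA
  rw [lP_swap h0 h1 h2 h3, lM_swap h0 h1 h2 h3, wP_swap h0 h1 h2 h3, wM_swap h0 h1 h2 h3]
  have e1 : Hs t0 t1 t2 t3 = negMulLog (lP t0 t1 t2 t3) + negMulLog (lM t0 t1 t2 t3) := rfl
  rw [e1]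
  linear_combination (negMulLog (lP t0 t1 t2 t3) + negMulLog (lM t0 t1 t2 t3)) * hs

private lemma stepA_cases {h : ℝ} (hh : 0 < h) (K : ℕ) {e : ℝ} :
    (∃ k : ℕ, k < K ∧ t1 / (k * h + t0) < e ∧
        stepA t0 t1 t2 t3 h K e = calA t0 t1 t2 t3 (k * h) - calA t0 t1 t2 t3 (K * h)) ∨
      (stepA t0 t1 t2 t3 h K e = 0 ∧ ∀ k : ℕ, k < K → ¬ t1 / (k * h + t0) < e) := by
  induction K with
  | zero => right; simp [stepA]
  | succ K ih =>
    have hS : stepA t0 t1 t2 t3 h (K + 1) e = stepA t0 t1 t2 t3 h K e +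
        (calA t0 t1 t2 t3 (K * h) - calA t0 t1 t2 t3 ((K + 1) * h)) *
          (if t1 / (K * h + t0) < e then 1 else 0) := by
      unfold stepA; rw [Finset.sum_range_succ]
    have hcast : ((K + 1 : ℕ) : ℝ) = (K : ℝ) + 1 := by push_cast; ring
    rcases ih with ⟨k, hk, hlev, hval⟩ | ⟨hval, hno⟩
    · left
      refine ⟨k, by omega, hlev, ?_⟩
      have hmono : t1 / (K * h + t0) ≤ t1 / (k * h + t0) := by
        apply div_le_div_of_nonneg_left h1.le (by positivity)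
        have : (k : ℝ) ≤ K := by exact_mod_cast (by omega : k ≤ K)
        nlinarith
      have : t1 / (K * h + t0) < e := lt_of_le_of_lt hmono hlev
      rw [hS, hval, if_pos this, hcast]
      ring
    · by_cases hlev : t1 / (K * h + t0) < e
      · left
        refine ⟨K, by omega, hlev, ?_⟩
        rw [hS, hval, if_pos hlev, hcast]
        ring
      · right
        refine ⟨?_, ?_⟩
        · rw [hS, hval, if_neg hlev]; ring
        · intro k hk
          rcases Nat.lt_succ_iff_lt_or_eq.1 hk with hk | rfl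
          · exact hno k hk
          · exact hlev

/-- Step potentials stay below `ln(1+e+y)`, for any mesh `h > 0` and numbers of steps. -/
theorem stepA_add_stepB_le {h : ℝ} (hh : 0 < h) (K : ℕ) {e y : ℝ} (he : 0 ≤ e) (hy : 0 ≤ y) :
    stepA t0 t1 t2 t3 h K e + stepA t3 t2 t1 t0 h K y ≤ Real.log (1 + e + y) := by
  have hpos : ∀ k : ℕ, (0 : ℝ) ≤ k * h := fun k => by positivity
  have hlogmono : ∀ {x : ℝ}, 0 ≤ x → x ≤ e + y → Real.log (1 + x) ≤ Real.log (1 + e + y) := by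
    intro x hx hxy
    apply Real.log_le_log (by linarith)
    linarith
  rcases stepA_cases h0 h1 h2 h3 (e := e) hh K with ⟨k, -, hlev, hval⟩ | ⟨hval, -⟩ <;>
  rcases stepA_cases h3 h2 h1 h0 (e := y) hh K with ⟨k', -, hlev', hval'⟩ | ⟨hval', -⟩
  · have hA := calA_nonneg h0 h1 h2 h3 (hpos K)
    have hB := calA_nonneg h3 h2 h1 h0 (hpos K)
    have key := calA_add_calB_le h0 h1 h2 h3 (hpos k) (hpos k')
    have hx1 : 0 ≤ t1 / (k * h + t0) := by have := hpos k; positivity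
    have hx2 : 0 ≤ t2 / (k' * h + t3) := by have := hpos k'; positivity
    have hl : Real.log (1 + t1 / (k * h + t0) + t2 / (k' * h + t3)) ≤ Real.log (1 + e + y) := by
      apply Real.log_le_log (by linarith)
      linarith
    rw [hval, hval']
    linarith
  · have hA := calA_nonneg h0 h1 h2 h3 (hpos K)
    have key := calA_le_log h0 h1 h2 h3 (hpos k)
    have hx1 : 0 ≤ t1 / (k * h + t0) := by have := hpos k; positivity
    have hl := hlogmono hx1 (by linarith)
    rw [hval, hval']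
    linarith
  · have hB := calA_nonneg h3 h2 h1 h0 (hpos K)
    have key := calA_le_log h3 h2 h1 h0 (hpos k')
    have hx2 : 0 ≤ t2 / (k' * h + t3) := by have := hpos k'; positivity
    have hl := hlogmono hx2 (by linarith)
    rw [hval, hval']
    linarith
  · rw [hval, hval']
    have : 0 ≤ Real.log (1 + e + y) := Real.log_nonneg (by linarith)
    linarith

end

/-- The integral defining `φ`. -/
theorem integral_log_add {l L : ℝ} (hl : 0 < l) (hL : 0 ≤ L) :
    ∫ s in (0 : ℝ)..L, Real.log (s + l) = phiF L l := by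
  have hmem : ∀ x ∈ Set.uIcc (0 : ℝ) L, 0 < x + l := by
    intro x hx
    rw [Set.uIcc_of_le hL] at hx
    linarith [hx.1]
  have hcont : ContinuousOn (fun s : ℝ => Real.log (s + l)) (Set.uIcc 0 L) :=
    ContinuousOn.log (continuousOn_id.add continuousOn_const) (fun x hx => (hmem x hx).ne')
  have := intervalIntegral.integral_eq_sub_of_hasDerivAt
    (f := fun U : ℝ => phiF U l) (f' := fun s : ℝ => Real.log (s + l)) (a := 0) (b := L)
    (fun x hx => hasDerivAt_phiF (hmem x hx)) hcont.intervalIntegrable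
  rw [this]
  have h00 : phiF 0 l = 0 := by unfold phiF; simp
  rw [h00, sub_zero]

/-- Discrete Abel summation bound for one eigenvalue.  `𝒜` is antitone and nonnegative on
`[0,∞)`, `𝔸` is monotone with `𝔸 (u+h) - 𝔸 u ≤ h 𝒜 u`.  For `p ∈ (0,1]`, `t0 ≥ 0`, `t0 p ≤ Λ`,
writing `ψ u = min ((u+t0) p) Λ` and `uStar = Λ/p - t0`: if `(K+1) h ≥ uStar` then
`∑_{k<K} (𝒜(kh) - 𝒜((k+1)h)) ψ(kh) ≥ 𝒜 0 · t0 p - Λ 𝒜(Kh) + p (𝔸 uStar - 𝔸 h)`. -/
theorem abel_bound (𝒜 𝔸 : ℝ → ℝ) (hA : AntitoneOn 𝒜 (Set.Ici 0)) (hA0 : ∀ u, 0 ≤ u → 0 ≤ 𝒜 u)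
    (hAA : MonotoneOn 𝔸 (Set.Ici 0))
    (hAAd : ∀ u h, 0 ≤ u → 0 ≤ h → 𝔸 (u + h) - 𝔸 u ≤ h * 𝒜 u)
    {p t0 Λ h : ℝ} (hp : 0 < p) (ht0 : 0 ≤ t0) (hΛ : t0 * p ≤ Λ) (hh : 0 < h) (K : ℕ)
    (hK : Λ / p - t0 ≤ (K + 1) * h) :
    𝒜 0 * (t0 * p) - Λ * 𝒜 (K * h) + p * (𝔸 (Λ / p - t0) - 𝔸 h) ≤
      ∑ k ∈ Finset.range K, (𝒜 (k * h) - 𝒜 ((k + 1) * h)) * min ((k * h + t0) * p) Λ := by
  set uS := Λ / p - t0 with huS
  have huS0 : 0 ≤ uS := by
    have : t0 ≤ Λ / p := (le_div_iff₀ hp).2 hΛ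
    linarith
  have hΛeq : Λ = (uS + t0) * p := by rw [huS]; field_simp; ring
  -- the profile
  set ψ : ℝ → ℝ := fun u => min ((u + t0) * p) Λ with hψ
  have hψ_le : ∀ u, ψ u ≤ Λ := fun u => min_le_right _ _
  have hψ_of_le : ∀ u, u ≤ uS → ψ u = (u + t0) * p := by
    intro u hu
    apply min_eq_left
    rw [hΛeq]
    exact mul_le_mul_of_nonneg_right (by linarith) hp.le
  have hψ_mono : Monotone ψ := by
    intro a b hab
    apply min_le_min_right
    exact mul_le_mul_of_nonneg_right (by linarith) hp.le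
  set g : ℝ → ℝ := fun u => min u uS with hg
  have hg0 : ∀ u, 0 ≤ u → 0 ≤ g u := fun u hu => le_min hu huS0
  have hkh : ∀ k : ℕ, (0 : ℝ) ≤ k * h := fun k => by positivity
  -- the invariant for K ≥ 1
  have inv : ∀ n : ℕ,
      𝒜 0 * (t0 * p) - 𝒜 ((n + 1 : ℕ) * h) * ψ (n * h) + p * (𝔸 (g ((n + 1 : ℕ) * h)) - 𝔸 h) ≤
        ∑ k ∈ Finset.range (n + 1), (𝒜 (k * h) - 𝒜 ((k + 1) * h)) * ψ (k * h) := by
    intro n
    induction n with
    | zero =>
      simp only [Nat.cast_zero, zero_mul, zero_add, Nat.cast_one, one_mul, Finset.sum_range_one]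
      have hψ0 : ψ 0 = t0 * p := by
        have := hψ_of_le 0 huS0
        rw [this]; ring
      rw [hψ0]
      have hle : 𝔸 (g h) ≤ 𝔸 h :=
        hAA (Set.mem_Ici.2 (hg0 h hh.le)) (Set.mem_Ici.2 hh.le) (min_le_left _ _)
      have : p * (𝔸 (g h) - 𝔸 h) ≤ 0 := mul_nonpos_of_nonneg_of_nonpos hp.le (by linarith)
      nlinarith
    | succ n ih =>
      rw [Finset.sum_range_succ]
      have hcast : ((n + 1 : ℕ) : ℝ) = (n : ℝ) + 1 := by push_cast; ring
      have hcast2 : ((n + 1 + 1 : ℕ) : ℝ) = (n : ℝ) + 1 + 1 := by push_cast; ring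
      rw [hcast2]
      rw [hcast] at ih ⊢
      set K' : ℝ := ((n : ℝ) + 1) * h with hK'
      have hK'0 : 0 ≤ K' := by positivity
      have hstep : p * (𝔸 (g ((n + 1 + 1) * h)) - 𝔸 (g K')) ≤
          𝒜 K' * (ψ K' - ψ (n * h)) := by
        by_cases hcase : uS ≤ K'
        · have e1 : g K' = uS := min_eq_right hcase
          have e2 : g ((n + 1 + 1) * h) = uS := by
            apply min_eq_right
            nlinarith
          rw [e1, e2]
          have : 0 ≤ 𝒜 K' * (ψ K' - ψ (n * h)) := by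
            apply mul_nonneg (hA0 _ hK'0)
            have : ψ (n * h) ≤ ψ K' := hψ_mono (by rw [hK']; nlinarith)
            linarith
          simpa using this
        · rw [not_le] at hcase
          have e1 : g K' = K' := min_eq_left hcase.le
          have hnle : (n : ℝ) * h ≤ uS := by
            have : (n : ℝ) * h ≤ K' := by rw [hK']; nlinarith
            linarith
          have e3 : ψ K' - ψ (n * h) = h * p := by
            rw [hψ_of_le _ hcase.le, hψ_of_le _ hnle, hK']; ring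
          rw [e1, e3]
          set w := g ((n + 1 + 1) * h) - K' with hw
          have hw0 : 0 ≤ w := by
            rw [hw]
            have : K' ≤ g ((n + 1 + 1) * h) := by
              apply le_min _ hcase.le
              rw [hK']; nlinarith
            linarith
          have hwh : w ≤ h := by
            have : g ((n + 1 + 1) * h) ≤ (n + 1 + 1) * h := min_le_left _ _
            rw [hw, hK']; nlinarith
          have := hAAd K' w hK'0 hw0
          have e4 : K' + w = g ((n + 1 + 1) * h) := by rw [hw]; ring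
          rw [e4] at this
          have hAK := hA0 K' hK'0
          have : 𝔸 (g ((n + 1 + 1) * h)) - 𝔸 K' ≤ h * 𝒜 K' := by
            have : w * 𝒜 K' ≤ h * 𝒜 K' := mul_le_mul_of_nonneg_right hwh hAK
            linarith
          calc p * (𝔸 (g ((n + 1 + 1) * h)) - 𝔸 K') ≤ p * (h * 𝒜 K') :=
                mul_le_mul_of_nonneg_left this hp.le
            _ = 𝒜 K' * (h * p) := by ring
      have e5 : ((n : ℝ) + 1 + 1) * h = K' + h := by rw [hK']; ring
      have e6 : 𝒜 ((n + 1 + 1) * h) = 𝒜 (K' + h) := by rw [e5]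
      have hgoal_sum : (𝒜 K' - 𝒜 ((n + 1 + 1) * h)) * ψ K' =
          𝒜 K' * ψ K' - 𝒜 ((n + 1 + 1) * h) * ψ K' := by ring
      rw [hgoal_sum]
      nlinarith [ih, hstep]
  -- conclude
  have hsum_eq : ∀ k ∈ Finset.range K, (𝒜 (k * h) - 𝒜 ((k + 1) * h)) * min ((k * h + t0) * p) Λ =
      (𝒜 (k * h) - 𝒜 ((k + 1) * h)) * ψ (k * h) := fun _ _ => rfl
  rw [Finset.sum_congr rfl hsum_eq]
  rcases Nat.eq_zero_or_pos K with rfl | hKpos
  · simp only [Nat.cast_zero, zero_mul, Finset.range_zero, Finset.sum_empty, zero_add, one_mul] at hK ⊢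
    have hle : 𝔸 uS ≤ 𝔸 h := hAA (Set.mem_Ici.2 huS0) (Set.mem_Ici.2 hh.le) hK
    have h1 : p * (𝔸 uS - 𝔸 h) ≤ 0 := mul_nonpos_of_nonneg_of_nonpos hp.le (by linarith)
    have h2 : 𝒜 0 * (t0 * p) ≤ 𝒜 0 * Λ := mul_le_mul_of_nonneg_left hΛ (hA0 0 le_rfl)
    nlinarith
  · obtain ⟨n, rfl⟩ : ∃ n, K = n + 1 := ⟨K - 1, by omega⟩
    have := inv n
    refine le_trans ?_ this
    have hcast : ((n + 1 : ℕ) : ℝ) = (n : ℝ) + 1 := by push_cast; ring
    rw [hcast] at hK ⊢
    set K' : ℝ := ((n : ℝ) + 1) * h with hK'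
    have hK'0 : 0 ≤ K' := by positivity
    have hAK := hA0 K' hK'0
    have hfinal : p * (𝔸 uS - 𝔸 (g K')) ≤ 𝒜 K' * (Λ - ψ (n * h)) := by
      by_cases hcase : uS ≤ K'
      · have e1 : g K' = uS := min_eq_right hcase
        rw [e1]
        have := hψ_le (n * h)
        have : 0 ≤ 𝒜 K' * (Λ - ψ (n * h)) := mul_nonneg hAK (by linarith)
        simpa using this
      · rw [not_le] at hcase
        have e1 : g K' = K' := min_eq_left hcase.le
        rw [e1]
        have hnle : (n : ℝ) * h ≤ uS := by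
          have : (n : ℝ) * h ≤ K' := by rw [hK']; nlinarith
          linarith
        have e3 : Λ - ψ (n * h) = p * (uS - n * h) := by
          rw [hψ_of_le _ hnle, hΛeq]; ring
        rw [e3]
        set w := uS - K' with hw
        have hw0 : 0 ≤ w := by rw [hw]; linarith
        have := hAAd K' w hK'0 hw0
        have e4 : K' + w = uS := by rw [hw]; ring
        rw [e4] at this
        have hwn : w ≤ uS - n * h := by rw [hw, hK']; nlinarith
        have : 𝔸 uS - 𝔸 K' ≤ (uS - n * h) * 𝒜 K' := by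
          have : w * 𝒜 K' ≤ (uS - n * h) * 𝒜 K' := mul_le_mul_of_nonneg_right hwn hAK
          linarith
        calc p * (𝔸 uS - 𝔸 K') ≤ p * ((uS - n * h) * 𝒜 K') :=
              mul_le_mul_of_nonneg_left this hp.le
          _ = 𝒜 K' * (p * (uS - n * h)) := by ring
    nlinarith [hfinal]

end Crest.Agent.GADC
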