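import Crest.Agent.Lib.GADC.FEnt

/-!
# Truncated positive parts: `∑ g(eig (M - Z)) ≥ ∑ g(eig M) - tr Z` for `g = min(·₊, Λ)`, `Z ≥ 0`.
-/

set_option autoImplicit false

namespace Crest.Agent.GADC

open Matrix Crest.Quantum
open scoped ComplexOrder

section
variable {n : Type*} [Fintype n] [DecidableEq n]

theorem sum_diagRe_le_trPos {H V : Matrix n n ℂ} (hH : H.IsHermitian) (hV2 : V * star V = 1)
    (S : Finset n) :
    ∑ l ∈ S, diagRe H V l ≤ ∑ k, max (hH.eigenvalues k) 0 := by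
  set p := sqAbs (relU hH V) with hp
  have hp0 : ∀ l i, 0 ≤ p l i := fun l i => sqAbs_nonneg _ _ _
  have hcol : ∀ i, ∑ l, p l i = 1 := sum_sqAbs_col (star_relU_mul hH hV2)
  have e1 : ∑ l ∈ S, diagRe H V l = ∑ k, (∑ l ∈ S, p l k) * hH.eigenvalues k := by
    simp only [diagRe_eq hH]
    rw [Finset.sum_comm]
    refine Finset.sum_congr rfl fun k _ => ?_
    rw [Finset.sum_mul]
  rw [e1]
  refine Finset.sum_le_sum fun k _ => ?_
  have h1 : 0 ≤ ∑ l ∈ S, p l k := Finset.sum_nonneg fun l _ => hp0 l k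
  have h2 : ∑ l ∈ S, p l k ≤ 1 := by
    rw [← hcol k]
    exact Finset.sum_le_sum_of_subset_of_nonneg (Finset.subset_univ _) fun l _ _ => hp0 l k
  calc (∑ l ∈ S, p l k) * hH.eigenvalues k
      ≤ (∑ l ∈ S, p l k) * max (hH.eigenvalues k) 0 :=
        mul_le_mul_of_nonneg_left (le_max_left _ _) h1
    _ ≤ 1 * max (hH.eigenvalues k) 0 := mul_le_mul_of_nonneg_right h2 (le_max_right _ _)
    _ = _ := one_mul _

/-- The positive part sum is attained in the eigenbasis. -/
theorem trPos_eq_sum_diagRe {H : Matrix n n ℂ} (hH : H.IsHermitian) :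
    ∑ k, max (hH.eigenvalues k) 0 =
      ∑ l ∈ Finset.univ.filter (fun l => 0 < hH.eigenvalues l),
        diagRe H (hH.eigenvectorUnitary : Matrix n n ℂ) l := by
  simp only [diagRe_eigenvectorUnitary]
  rw [Finset.sum_filter]
  refine Finset.sum_congr rfl fun k _ => ?_
  by_cases h : 0 < hH.eigenvalues k
  · rw [if_pos h, max_eq_left h.le]
  · rw [if_neg h, max_eq_right (not_lt.mp h)]

/-- Lipschitz bound: `trPos H ≤ trPos (H - Z) + tr Z`. -/
theorem trPos_le_add {H H' Z : Matrix n n ℂ} (hH : H.IsHermitian) (hH' : H'.IsHermitian)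
    (hZ : Z.PosSemidef) (hsum : H = H' + Z) :
    ∑ k, max (hH.eigenvalues k) 0 ≤ ∑ k, max (hH'.eigenvalues k) 0 + rtr Z := by
  set U := (hH.eigenvectorUnitary : Matrix n n ℂ) with hU
  have hU2 : U * star U = 1 := Unitary.coe_mul_star_self _
  rw [trPos_eq_sum_diagRe hH]
  set S := Finset.univ.filter (fun l => 0 < hH.eigenvalues l) with hS
  have e1 : ∑ l ∈ S, diagRe H U l = ∑ l ∈ S, diagRe H' U l + ∑ l ∈ S, diagRe Z U l := by
    rw [← Finset.sum_add_distrib]
    refine Finset.sum_congr rfl fun l _ => ?_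
    conv_lhs => rw [show diagRe H U l = diagRe (H' + Z) U l by rw [← hsum]]
    rw [diagRe_add]
  rw [e1]
  have h1 := sum_diagRe_le_trPos hH' hU2 S
  have h2 : ∑ l ∈ S, diagRe Z U l ≤ rtr Z := by
    rw [← sum_diagRe (A := Z) hU2]
    exact Finset.sum_le_sum_of_subset_of_nonneg (Finset.subset_univ _) fun l _ _ =>
      diagRe_nonneg hZ l
  linarith

/-- Monotonicity: `trPos H' ≤ trPos (H' + Z)`. -/
theorem trPos_mono {H H' Z : Matrix n n ℂ} (hH : H.IsHermitian) (hH' : H'.IsHermitian)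
    (hZ : Z.PosSemidef) (hsum : H = H' + Z) :
    ∑ k, max (hH'.eigenvalues k) 0 ≤ ∑ k, max (hH.eigenvalues k) 0 := by
  set U := (hH'.eigenvectorUnitary : Matrix n n ℂ) with hU
  have hU2 : U * star U = 1 := Unitary.coe_mul_star_self _
  rw [trPos_eq_sum_diagRe hH']
  set S := Finset.univ.filter (fun l => 0 < hH'.eigenvalues l) with hS
  refine le_trans ?_ (sum_diagRe_le_trPos hH hU2 S)
  refine Finset.sum_le_sum fun l _ => ?_
  rw [hsum, diagRe_add]
  have := diagRe_nonneg (V := U) hZ l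
  linarith

theorem min_max_eq (t Λ : ℝ) (hΛ : 0 ≤ Λ) : min (max t 0) Λ = max t 0 - max (t - Λ) 0 := by
  rcases le_total t 0 with h | h
  · rw [max_eq_right h, max_eq_right (by linarith), min_eq_left hΛ]; ring
  · rw [max_eq_left h]
    rcases le_total t Λ with h2 | h2
    · rw [min_eq_left h2, max_eq_right (by linarith)]; ring
    · rw [min_eq_right h2, max_eq_left (by linarith)]; ring

/-- Truncated positive part inequality. -/
theorem sum_min_eig_sub_ge {M Z : Matrix n n ℂ} (hM : M.IsHermitian) (hZ : Z.PosSemidef)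
    (hMZ : (M - Z).IsHermitian) {Λ : ℝ} (hΛ : 0 ≤ Λ) :
    ∑ j, min (max (hM.eigenvalues j) 0) Λ - rtr Z ≤ ∑ j, min (max (hMZ.eigenvalues j) 0) Λ := by
  have hs1 : (M + ((-Λ : ℝ) : ℂ) • (1 : Matrix n n ℂ)).IsHermitian := by
    refine hM.add ?_
    rw [IsHermitian, conjTranspose_smul, conjTranspose_one]
    simp
  have hs2 : ((M - Z) + ((-Λ : ℝ) : ℂ) • (1 : Matrix n n ℂ)).IsHermitian := by
    refine hMZ.add ?_
    rw [IsHermitian, conjTranspose_smul, conjTranspose_one]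
    simp
  have e1 := sum_eig_add_scalar hM (-Λ) hs1 (fun t => max t 0)
  have e2 := sum_eig_add_scalar hMZ (-Λ) hs2 (fun t => max t 0)
  simp only [min_max_eq _ _ hΛ, Finset.sum_sub_distrib]
  have hA := trPos_le_add hM hMZ hZ (by simp)
  have hB := trPos_mono (H := M + ((-Λ : ℝ) : ℂ) • (1 : Matrix n n ℂ))
    (H' := (M - Z) + ((-Λ : ℝ) : ℂ) • (1 : Matrix n n ℂ)) hs1 hs2 hZ (by abel)
  simp only [sub_eq_add_neg (hM.eigenvalues _) Λ, sub_eq_add_neg (hMZ.eigenvalues _) Λ]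
  rw [← e1, ← e2]
  linarith

end

end Crest.Agent.GADC
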