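import Crest.Agent.Lib.GADC.Count
import Crest.Agent.Lib.GADC.TrPos
import Crest.Agent.Lib.GADC.DetId
import Crest.Agent.Lib.GADC.Scalar

/-!
# One half of the K-Path inequality: from eigenvalues of `E_s` to the scalar functions.
-/

set_option autoImplicit false

namespace Crest.Agent.GADC

open Matrix Crest.Quantum Filter Topology
open scoped ComplexOrder

section
variable {F G : Type*} [Fintype F] [DecidableEq F] [Fintype G] [DecidableEq G]

/-- `r X1 - X`. -/
noncomputable def pencilM (r : ℝ) (X : Matrix F F ℂ) (c : Matrix F G ℂ) : Matrix F F ℂ :=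
  (r : ℂ) • (c * cᴴ) - X

omit [Fintype F] [DecidableEq F] [DecidableEq G] in
theorem mul_conjT_smul_isHermitian (r : ℝ) (c : Matrix F G ℂ) : ((r : ℂ) • (c * cᴴ)).IsHermitian := by
  rw [IsHermitian, conjTranspose_smul, (isHermitian_mul_conjTranspose_self c).eq]
  simp

omit [Fintype F] [DecidableEq F] [DecidableEq G] in
theorem pencilM_isHermitian {X : Matrix F F ℂ} (hX : X.IsHermitian) (r : ℝ) (c : Matrix F G ℂ) :
    (pencilM r X c).IsHermitian :=
  (mul_conjT_smul_isHermitian r c).sub hX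

/-- The counting function as a sum of indicators. -/
noncomputable def countAbove {n : Type*} [Fintype n] [DecidableEq n] {A : Matrix n n ℂ}
    (hA : A.IsHermitian) (s : ℝ) : ℝ := ∑ j, if s < hA.eigenvalues j then (1 : ℝ) else 0

theorem countAbove_eq_card {n : Type*} [Fintype n] [DecidableEq n] {A : Matrix n n ℂ}
    (hA : A.IsHermitian) (s : ℝ) :
    countAbove hA s = ((Finset.univ.filter fun j => s < hA.eigenvalues j).card : ℝ) := by
  unfold countAbove
  rw [Finset.card_filter]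
  push_cast
  rfl

variable {X : Matrix F F ℂ} (hX : X.PosDef) (c : Matrix F G ℂ)
variable {t2 t3 : ℝ}

/-- The jump at step `k` of the potential. -/
noncomputable def jumpA (t0 t1 t2 t3 h : ℝ) (k : ℕ) : ℝ :=
  calA t0 t1 t2 t3 (k * h) - calA t0 t1 t2 t3 ((k + 1) * h)

theorem jumpA_nonneg {t0 t1 t2 t3 h : ℝ} (h0 : 0 < t0) (h1 : 0 < t1) (h2 : 0 < t2) (h3 : 0 < t3)
    (hh : 0 < h) (k : ℕ) : 0 ≤ jumpA t0 t1 t2 t3 h k := by
  unfold jumpA
  have := calA_antitone h0 h1 h2 h3 (a := (k : ℝ) * h) (b := ((k : ℝ) + 1) * h)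
    (Set.mem_Ici.mpr (by positivity)) (Set.mem_Ici.mpr (by positivity))
    (by nlinarith)
  linarith

/-- Pointwise comparison. -/
theorem half_pointwise (h2 : 0 < t2) (h3 : 0 < t3)
    (h0 : 0 < rtr X) (h1 : 0 < rtr (c * cᴴ)) {h : ℝ} (hh : 0 < h) (K : ℕ) {s : ℝ} (hs : 0 ≤ s)
    (hE : (resE s X c).IsHermitian) :
    ∑ k ∈ Finset.range K, jumpA (rtr X) (rtr (c * cᴴ)) t2 t3 h k *
        countAbove (pencilM_isHermitian hX.1 ((k * h + rtr X) / rtr (c * cᴴ)) c) s
      ≤ ∑ i, stepA (rtr X) (rtr (c * cᴴ)) t2 t3 h K (hE.eigenvalues i) := by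
  unfold stepA
  rw [Finset.sum_comm]
  refine Finset.sum_le_sum fun k _ => ?_
  have hj := jumpA_nonneg h0 h1 h2 h3 hh k
  change jumpA (rtr X) (rtr (c * cᴴ)) t2 t3 h k * _ ≤
    ∑ i, jumpA (rtr X) (rtr (c * cᴴ)) t2 t3 h k * _
  rw [← Finset.mul_sum]
  refine mul_le_mul_of_nonneg_left ?_ hj
  have hr : 0 < ((k : ℝ) * h + rtr X) / rtr (c * cᴴ) := by positivity
  have hcount := count_pencil X c (s := s) hr (shift_posDef hX hs)
    (pencilM_isHermitian hX.1 _ c) hE
  rw [countAbove_eq_card]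
  have hinv : ∀ i, (if rtr (c * cᴴ) / ((k : ℝ) * h + rtr X) < hE.eigenvalues i then (1 : ℝ) else 0)
      = (if (((k : ℝ) * h + rtr X) / rtr (c * cᴴ))⁻¹ < hE.eigenvalues i then (1 : ℝ) else 0) := by
    intro i
    rw [inv_div]
  simp only [hinv]
  have h3' : ∑ i, (if (((k : ℝ) * h + rtr X) / rtr (c * cᴴ))⁻¹ < hE.eigenvalues i then (1 : ℝ) else 0)
      = ((Finset.univ.filter fun i => (((k : ℝ) * h + rtr X) / rtr (c * cᴴ))⁻¹ < hE.eigenvalues i).card : ℝ) := by
    rw [Finset.card_filter]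
    push_cast
    rfl
  rw [h3']
  exact_mod_cast hcount

/-- Integral of an indicator. -/
theorem integral_ite_lt (μ : ℝ) {Λ : ℝ} (hΛ : 0 ≤ Λ) :
    ∫ s in (0 : ℝ)..Λ, (if s < μ then (1 : ℝ) else 0) = min (max μ 0) Λ := by
  rw [intervalIntegral.integral_of_le hΛ]
  have h1 : (fun s : ℝ => if s < μ then (1 : ℝ) else 0) = Set.indicator (Set.Iio μ) (fun _ => 1) := by
    funext s
    simp [Set.indicator]
  rw [h1, MeasureTheory.setIntegral_indicator measurableSet_Iio]
  rw [MeasureTheory.setIntegral_const]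
  simp only [smul_eq_mul, mul_one]
  rcases le_total μ 0 with hμ | hμ
  · have : Set.Ioc 0 Λ ∩ Set.Iio μ = ∅ := by
      ext s
      simp only [Set.mem_inter_iff, Set.mem_Ioc, Set.mem_Iio, Set.mem_empty_iff_false, iff_false]
      rintro ⟨⟨h1, _⟩, h2⟩
      linarith
    rw [this, max_eq_right hμ, min_eq_left hΛ]
    simp
  · rw [max_eq_left hμ]
    rcases le_or_gt μ Λ with h2 | h2
    · rw [min_eq_left h2]
      have : Set.Ioc 0 Λ ∩ Set.Iio μ = Set.Ioo 0 μ := by
        ext s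
        simp only [Set.mem_inter_iff, Set.mem_Ioc, Set.mem_Iio, Set.mem_Ioo]
        constructor
        · rintro ⟨⟨h1, _⟩, h3⟩; exact ⟨h1, h3⟩
        · rintro ⟨h1, h3⟩; exact ⟨⟨h1, by linarith⟩, h3⟩
      rw [this]
      simp [MeasureTheory.measureReal_def, Real.volume_Ioo, ENNReal.toReal_ofReal, hμ]
    · rw [min_eq_right h2.le]
      have : Set.Ioc 0 Λ ∩ Set.Iio μ = Set.Ioc 0 Λ := by
        ext s
        simp only [Set.mem_inter_iff, Set.mem_Ioc, Set.mem_Iio]
        constructor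
        · rintro ⟨h1, _⟩; exact h1
        · rintro h1; exact ⟨h1, by linarith [h1.2]⟩
      rw [this]
      simp [MeasureTheory.measureReal_def, Real.volume_Ioc, ENNReal.toReal_ofReal, hΛ]

theorem intervalIntegrable_ite_lt (μ a b : ℝ) :
    IntervalIntegrable (fun s : ℝ => if s < μ then (1 : ℝ) else 0) MeasureTheory.volume a b := by
  have hanti : Antitone (fun s : ℝ => if s < μ then (1 : ℝ) else 0) := by
    intro x y hxy
    simp only
    by_cases hy : y < μ
    · rw [if_pos hy, if_pos (lt_of_le_of_lt hxy hy)]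
    · rw [if_neg hy]
      split_ifs <;> norm_num
  exact hanti.intervalIntegrable

theorem intervalIntegrable_countAbove {n : Type*} [Fintype n] [DecidableEq n] {A : Matrix n n ℂ}
    (hA : A.IsHermitian) (a b : ℝ) :
    IntervalIntegrable (countAbove hA) MeasureTheory.volume a b := by
  unfold countAbove
  have : (fun s => ∑ j, if s < hA.eigenvalues j then (1 : ℝ) else 0)
      = ∑ j, fun s => if s < hA.eigenvalues j then (1 : ℝ) else 0 := by
    funext s
    simp
  show IntervalIntegrable (fun s => ∑ j, if s < hA.eigenvalues j then (1 : ℝ) else 0) _ _ _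
  rw [this]
  exact IntervalIntegrable.sum _ fun j _ => intervalIntegrable_ite_lt _ _ _

theorem integral_countAbove {n : Type*} [Fintype n] [DecidableEq n] {A : Matrix n n ℂ}
    (hA : A.IsHermitian) {Λ : ℝ} (hΛ : 0 ≤ Λ) :
    ∫ s in (0 : ℝ)..Λ, countAbove hA s = ∑ j, min (max (hA.eigenvalues j) 0) Λ := by
  unfold countAbove
  rw [intervalIntegral.integral_finsetSum (fun j _ => intervalIntegrable_ite_lt _ _ _)]
  exact Finset.sum_congr rfl fun j _ => integral_ite_lt _ hΛ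

/-- Lower bound for the truncated positive part of the pencil. -/
theorem half_lower (hX' : X.PosSemidef) (hXH : X.IsHermitian) {r : ℝ} (hr : 0 ≤ r)
    (hX1 : (c * cᴴ).IsHermitian) {Λ : ℝ} (hΛ : 0 ≤ Λ) :
    ∑ j, min (r * hX1.eigenvalues j) Λ - rtr X ≤
      ∑ j, min (max ((pencilM_isHermitian hXH r c).eigenvalues j) 0) Λ := by
  have hM := mul_conjT_smul_isHermitian r c
  have h1 := sum_min_eig_sub_ge hM hX' (pencilM_isHermitian hXH r c) hΛ
  refine le_trans (le_of_eq ?_) h1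
  congr 1
  have h2 : ∑ i, min (max (hM.eigenvalues i) 0) Λ = ∑ i, min (max (r * hX1.eigenvalues i) 0) Λ :=
    sum_eig_smul hX1 r hM (fun t => min (max t 0) Λ)
  rw [h2]
  refine Finset.sum_congr rfl fun j _ => ?_
  have hxj : 0 ≤ hX1.eigenvalues j := by
    have := (posSemidef_self_mul_conjTranspose c).eigenvalues_nonneg j
    exact this
  rw [max_eq_left (mul_nonneg hr hxj)]

/-- Abel summation for the whole half. -/
theorem half_abel {t0 t1 t2 t3 : ℝ} (h0 : 0 < t0) (h1 : 0 < t1) (h2 : 0 < t2) (h3 : 0 < t3)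
    {ι : Type*} [Fintype ι] (x : ι → ℝ) (hx : ∀ j, 0 ≤ x j) (hxs : ∑ j, x j = t1)
    {Λ h : ℝ} (hΛ : t0 ≤ Λ) (hh : 0 < h) (K : ℕ)
    (hK : ∀ j, 0 < x j → Λ / (x j / t1) - t0 ≤ (K + 1) * h) :
    ∑ j, (x j / t1) * intA t0 t1 t2 t3 (Λ / (x j / t1) - t0) - intA t0 t1 t2 t3 h
        - Fintype.card ι * Λ * calA t0 t1 t2 t3 (K * h) ≤
      ∑ k ∈ Finset.range K, jumpA t0 t1 t2 t3 h k *
        (∑ j, min (((k * h + t0) / t1) * x j) Λ - t0) := by
  set 𝒜 := calA t0 t1 t2 t3 with h𝒜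
  set 𝔸 := intA t0 t1 t2 t3 with h𝔸
  have hA := calA_antitone h0 h1 h2 h3
  have hA0 : ∀ u, 0 ≤ u → 0 ≤ 𝒜 u := fun u hu => calA_nonneg h0 h1 h2 h3 hu
  have hAA := intA_mono h0 h1 h2 h3
  have hAAd : ∀ u h, 0 ≤ u → 0 ≤ h → 𝔸 (u + h) - 𝔸 u ≤ h * 𝒜 u :=
    fun u h hu hh => intA_add_sub_le h0 h1 h2 h3 hu hh
  have hΛpos : 0 ≤ Λ := by linarith
  have hjump : ∑ k ∈ Finset.range K, jumpA t0 t1 t2 t3 h k = 𝒜 0 - 𝒜 (K * h) := by
    unfold jumpA
    have := Finset.sum_range_sub' (fun k : ℕ => 𝒜 ((k : ℝ) * h)) K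
    simp only [Nat.cast_add, Nat.cast_one, Nat.cast_zero, zero_mul] at this
    exact this
  have hp1 : ∑ j, x j / t1 = 1 := by
    rw [← Finset.sum_div, hxs, div_self h1.ne']
  have hplus : ∀ j, 𝒜 0 * (t0 * (x j / t1)) - Λ * 𝒜 (K * h)
        + (x j / t1) * (𝔸 (Λ / (x j / t1) - t0) - 𝔸 h)
      ≤ ∑ k ∈ Finset.range K, jumpA t0 t1 t2 t3 h k * min (((k * h + t0) / t1) * x j) Λ := by
    intro j
    rcases (hx j).eq_or_lt with h0j | hpj
    · have e : ∀ k : ℕ, min (((k * h + t0) / t1) * x j) Λ = 0 := by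
        intro k
        rw [← h0j, mul_zero, min_eq_left hΛpos]
      simp only [e, mul_zero, Finset.sum_const_zero]
      rw [← h0j]
      simp only [zero_div, mul_zero, zero_mul, zero_sub, add_zero]
      have := hA0 (K * h) (by positivity)
      nlinarith
    · have hp : 0 < x j / t1 := by positivity
      have hple : x j / t1 ≤ 1 := by
        rw [div_le_one h1, ← hxs]
        exact Finset.single_le_sum (fun i _ => hx i) (Finset.mem_univ j)
      have hmain := abel_bound 𝒜 𝔸 hA hA0 hAA hAAd hp h0.le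
        (by nlinarith : t0 * (x j / t1) ≤ Λ) hh K (hK j hpj)
      refine le_trans hmain (le_of_eq ?_)
      refine Finset.sum_congr rfl fun k _ => ?_
      congr 2
      field_simp
  have e1 : ∑ k ∈ Finset.range K, jumpA t0 t1 t2 t3 h k *
        (∑ j, min (((k * h + t0) / t1) * x j) Λ - t0)
      = ∑ j, ∑ k ∈ Finset.range K, jumpA t0 t1 t2 t3 h k * min (((k * h + t0) / t1) * x j) Λ
        - t0 * (𝒜 0 - 𝒜 (K * h)) := by
    rw [← hjump, Finset.mul_sum]
    simp only [mul_sub, Finset.mul_sum, Finset.sum_sub_distrib]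
    rw [Finset.sum_comm]
    congr 1
    exact Finset.sum_congr rfl fun k _ => mul_comm _ _
  rw [e1]
  have hsum := Finset.sum_le_sum fun j (_ : j ∈ Finset.univ) => hplus j
  have e2 : ∑ j : ι, (𝒜 0 * (t0 * (x j / t1)) - Λ * 𝒜 (K * h)
        + (x j / t1) * (𝔸 (Λ / (x j / t1) - t0) - 𝔸 h))
      = 𝒜 0 * t0 - Fintype.card ι * Λ * 𝒜 (K * h) + ∑ j, (x j / t1) * 𝔸 (Λ / (x j / t1) - t0) - 𝔸 h := by
    have e3 : ∀ j, (𝒜 0 * (t0 * (x j / t1)) - Λ * 𝒜 (K * h)
        + (x j / t1) * (𝔸 (Λ / (x j / t1) - t0) - 𝔸 h))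
        = 𝒜 0 * t0 * (x j / t1) - Λ * 𝒜 (K * h) + (x j / t1) * 𝔸 (Λ / (x j / t1) - t0)
          - (x j / t1) * 𝔸 h := fun j => by ring
    simp only [e3, Finset.sum_sub_distrib, Finset.sum_add_distrib, ← Finset.mul_sum, ← Finset.sum_mul,
      hp1, Finset.sum_const, Finset.card_univ, nsmul_eq_mul]
    ring
  rw [e2] at hsum
  have hKpos := hA0 (K * h) (by positivity)
  nlinarith

end

end Crest.Agent.GADC
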