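import Crest.Agent.Lib.GADC.KPathHalf

/-!
# The K-Path inequality for positive definite `X0, X3` and nonzero `c1, c2`.
-/

set_option autoImplicit false

namespace Crest.Agent.GADC

open Matrix Crest.Quantum Filter Topology
open scoped ComplexOrder

section
variable {F₁ F₂ G : Type*} [Fintype F₁] [DecidableEq F₁] [Fintype F₂] [DecidableEq F₂]
  [Fintype G] [DecidableEq G]

theorem intervalIntegrable_sum_log {ι : Type*} [Fintype ι] (l : ι → ℝ) (hl : ∀ i, 0 < l i) {Λ : ℝ}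
    (hΛ : 0 ≤ Λ) :
    IntervalIntegrable (fun s => ∑ i, Real.log (s + l i)) MeasureTheory.volume 0 Λ := by
  apply ContinuousOn.intervalIntegrable
  refine continuousOn_finsetSum _ fun i _ => ?_
  refine ContinuousOn.log (by fun_prop) fun s hs => ?_
  rw [Set.uIcc_of_le hΛ] at hs
  have := hl i
  have := hs.1
  positivity

theorem integral_sum_log {ι : Type*} [Fintype ι] (l : ι → ℝ) (hl : ∀ i, 0 < l i) {Λ : ℝ}
    (hΛ : 0 ≤ Λ) :
    ∫ s in (0 : ℝ)..Λ, ∑ i, Real.log (s + l i) = ∑ i, phiF Λ (l i) := by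
  rw [intervalIntegral.integral_finsetSum]
  · exact Finset.sum_congr rfl fun i _ => integral_log_add (hl i) hΛ
  · intro i _
    apply ContinuousOn.intervalIntegrable
    refine ContinuousOn.log (by fun_prop) fun s hs => ?_
    rw [Set.uIcc_of_le hΛ] at hs
    have := hl i
    have := hs.1
    positivity

variable {X0 : Matrix F₁ F₁ ℂ} {X3 : Matrix F₂ F₂ ℂ} (h0 : X0.PosDef) (h3 : X3.PosDef)
  (c1 : Matrix F₁ G ℂ) (c2 : Matrix F₂ G ℂ)

/-- Integrated inequality, in terms of pencils. -/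
theorem integrated_ineq (ht0 : 0 < rtr X0) (ht3 : 0 < rtr X3) (ht1 : 0 < rtr (c1 * c1ᴴ))
    (ht2 : 0 < rtr (c2 * c2ᴴ)) {h : ℝ} (hh : 0 < h) (K : ℕ) {Λ : ℝ} (hΛ : 0 ≤ Λ) :
    ∑ k ∈ Finset.range K, jumpA (rtr X0) (rtr (c1 * c1ᴴ)) (rtr (c2 * c2ᴴ)) (rtr X3) h k *
        (∑ j, min (max ((pencilM_isHermitian h0.1 ((k * h + rtr X0) / rtr (c1 * c1ᴴ)) c1).eigenvalues j) 0) Λ)
      + ∑ k ∈ Finset.range K, jumpA (rtr X3) (rtr (c2 * c2ᴴ)) (rtr (c1 * c1ᴴ)) (rtr X0) h k *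
        (∑ j, min (max ((pencilM_isHermitian h3.1 ((k * h + rtr X3) / rtr (c2 * c2ᴴ)) c2).eigenvalues j) 0) Λ)
      ≤ ∑ i, phiF Λ ((omegaMat_posDef h0 h3 c1 c2).1.eigenvalues i)
        - ∑ i, phiF Λ (h0.1.eigenvalues i) - ∑ i, phiF Λ (h3.1.eigenvalues i) := by
  set t0 := rtr X0 with ht0def
  set t1 := rtr (c1 * c1ᴴ) with ht1def
  set t2 := rtr (c2 * c2ᴴ) with ht2def
  set t3 := rtr X3 with ht3def
  have hω := omegaMat_posDef h0 h3 c1 c2
  -- the functions
  set gA : ℝ → ℝ := fun s => ∑ k ∈ Finset.range K, jumpA t0 t1 t2 t3 h k *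
        countAbove (pencilM_isHermitian h0.1 ((k * h + t0) / t1) c1) s with hgA
  set gB : ℝ → ℝ := fun s => ∑ k ∈ Finset.range K, jumpA t3 t2 t1 t0 h k *
        countAbove (pencilM_isHermitian h3.1 ((k * h + t3) / t2) c2) s with hgB
  set f1 : ℝ → ℝ := fun s => ∑ i, Real.log (s + (omegaMat_posDef h0 h3 c1 c2).1.eigenvalues i) with hf1
  set f2 : ℝ → ℝ := fun s => ∑ i, Real.log (s + h0.1.eigenvalues i) with hf2
  set f3 : ℝ → ℝ := fun s => ∑ i, Real.log (s + h3.1.eigenvalues i) with hf3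
  have hI1 : IntervalIntegrable f1 MeasureTheory.volume 0 Λ :=
    intervalIntegrable_sum_log _ (fun i => hω.eigenvalues_pos i) hΛ
  have hI2 : IntervalIntegrable f2 MeasureTheory.volume 0 Λ :=
    intervalIntegrable_sum_log _ (fun i => h0.eigenvalues_pos i) hΛ
  have hI3 : IntervalIntegrable f3 MeasureTheory.volume 0 Λ :=
    intervalIntegrable_sum_log _ (fun i => h3.eigenvalues_pos i) hΛ
  have hIA : IntervalIntegrable gA MeasureTheory.volume 0 Λ := by
    have : gA = ∑ k ∈ Finset.range K, fun s => jumpA t0 t1 t2 t3 h k *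
        countAbove (pencilM_isHermitian h0.1 ((k * h + t0) / t1) c1) s := by
      funext s; simp [hgA]
    rw [this]
    exact IntervalIntegrable.sum _ fun k _ => (intervalIntegrable_countAbove _ _ _).const_mul _
  have hIB : IntervalIntegrable gB MeasureTheory.volume 0 Λ := by
    have : gB = ∑ k ∈ Finset.range K, fun s => jumpA t3 t2 t1 t0 h k *
        countAbove (pencilM_isHermitian h3.1 ((k * h + t3) / t2) c2) s := by
      funext s; simp [hgB]
    rw [this]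
    exact IntervalIntegrable.sum _ fun k _ => (intervalIntegrable_countAbove _ _ _).const_mul _
  have hpoint : ∀ s ∈ Set.Icc 0 Λ, gA s + gB s ≤ f1 s - f2 s - f3 s := by
    intro s hs
    have hs0 : 0 ≤ s := hs.1
    have hE := resE_posSemidef h0 hs0 c1
    have hY := resE_posSemidef h3 hs0 c2
    have hEY : (resE s X0 c1 + resE s X3 c2).IsHermitian := (hE.add hY).1
    have hA := half_pointwise h0 c1 ht2 ht3 ht0 ht1 hh K hs0 hE.1
    have hB := half_pointwise h3 c2 ht1 ht0 ht3 ht2 hh K hs0 hY.1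
    have hJ := sum_log_one_add_ge hE hY hEY (stepA t0 t1 t2 t3 h K) (stepA t3 t2 t1 t0 h K)
      (fun x y hx hy => stepA_add_stepB_le ht0 ht1 ht2 ht3 hh K hx hy)
    have hL := log_identity h0 h3 c1 c2 hs0 hEY
    simp only [hf1, hf2, hf3, hgA, hgB]
    rw [hL]
    linarith
  have hmono := intervalIntegral.integral_mono_on hΛ (hIA.add hIB) ((hI1.sub hI2).sub hI3) hpoint
  rw [intervalIntegral.integral_add hIA hIB, intervalIntegral.integral_sub (hI1.sub hI2) hI3,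
    intervalIntegral.integral_sub hI1 hI2] at hmono
  have e1 : ∫ s in (0 : ℝ)..Λ, f1 s = ∑ i, phiF Λ ((omegaMat_posDef h0 h3 c1 c2).1.eigenvalues i) :=
    integral_sum_log _ (fun i => hω.eigenvalues_pos i) hΛ
  have e2 : ∫ s in (0 : ℝ)..Λ, f2 s = ∑ i, phiF Λ (h0.1.eigenvalues i) :=
    integral_sum_log _ (fun i => h0.eigenvalues_pos i) hΛ
  have e3 : ∫ s in (0 : ℝ)..Λ, f3 s = ∑ i, phiF Λ (h3.1.eigenvalues i) :=
    integral_sum_log _ (fun i => h3.eigenvalues_pos i) hΛ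
  have e4 : ∫ s in (0 : ℝ)..Λ, gA s = ∑ k ∈ Finset.range K, jumpA t0 t1 t2 t3 h k *
      (∑ j, min (max ((pencilM_isHermitian h0.1 ((k * h + t0) / t1) c1).eigenvalues j) 0) Λ) := by
    simp only [hgA]
    rw [intervalIntegral.integral_finsetSum
      (fun k _ => (intervalIntegrable_countAbove _ _ _).const_mul _)]
    refine Finset.sum_congr rfl fun k _ => ?_
    rw [intervalIntegral.integral_const_mul, integral_countAbove _ hΛ]
  have e5 : ∫ s in (0 : ℝ)..Λ, gB s = ∑ k ∈ Finset.range K, jumpA t3 t2 t1 t0 h k *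
      (∑ j, min (max ((pencilM_isHermitian h3.1 ((k * h + t3) / t2) c2).eigenvalues j) 0) Λ) := by
    simp only [hgB]
    rw [intervalIntegral.integral_finsetSum
      (fun k _ => (intervalIntegrable_countAbove _ _ _).const_mul _)]
    refine Finset.sum_congr rfl fun k _ => ?_
    rw [intervalIntegral.integral_const_mul, integral_countAbove _ hΛ]
  rw [e1, e2, e3, e4, e5] at hmono
  exact hmono

/-- Integrated inequality with the pencils removed, and Abel summation performed. -/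
theorem integrated_ineq2 (ht0 : 0 < rtr X0) (ht3 : 0 < rtr X3) (ht1 : 0 < rtr (c1 * c1ᴴ))
    (ht2 : 0 < rtr (c2 * c2ᴴ)) {h : ℝ} (hh : 0 < h) (K : ℕ) {Λ : ℝ} (hΛ0 : rtr X0 ≤ Λ)
    (hΛ3 : rtr X3 ≤ Λ)
    (hK1 : ∀ j, 0 < (isHermitian_mul_conjTranspose_self c1).eigenvalues j →
      Λ / ((isHermitian_mul_conjTranspose_self c1).eigenvalues j / rtr (c1 * c1ᴴ)) - rtr X0 ≤ (K + 1) * h)
    (hK2 : ∀ j, 0 < (isHermitian_mul_conjTranspose_self c2).eigenvalues j →
      Λ / ((isHermitian_mul_conjTranspose_self c2).eigenvalues j / rtr (c2 * c2ᴴ)) - rtr X3 ≤ (K + 1) * h) :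
    (∑ j, ((isHermitian_mul_conjTranspose_self c1).eigenvalues j / rtr (c1 * c1ᴴ)) *
          intA (rtr X0) (rtr (c1 * c1ᴴ)) (rtr (c2 * c2ᴴ)) (rtr X3)
            (Λ / ((isHermitian_mul_conjTranspose_self c1).eigenvalues j / rtr (c1 * c1ᴴ)) - rtr X0)
        - intA (rtr X0) (rtr (c1 * c1ᴴ)) (rtr (c2 * c2ᴴ)) (rtr X3) h
        - Fintype.card F₁ * Λ * calA (rtr X0) (rtr (c1 * c1ᴴ)) (rtr (c2 * c2ᴴ)) (rtr X3) (K * h))
      + (∑ j, ((isHermitian_mul_conjTranspose_self c2).eigenvalues j / rtr (c2 * c2ᴴ)) *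
          intA (rtr X3) (rtr (c2 * c2ᴴ)) (rtr (c1 * c1ᴴ)) (rtr X0)
            (Λ / ((isHermitian_mul_conjTranspose_self c2).eigenvalues j / rtr (c2 * c2ᴴ)) - rtr X3)
        - intA (rtr X3) (rtr (c2 * c2ᴴ)) (rtr (c1 * c1ᴴ)) (rtr X0) h
        - Fintype.card F₂ * Λ * calA (rtr X3) (rtr (c2 * c2ᴴ)) (rtr (c1 * c1ᴴ)) (rtr X0) (K * h))
      ≤ ∑ i, phiF Λ ((omegaMat_posDef h0 h3 c1 c2).1.eigenvalues i)
        - ∑ i, phiF Λ (h0.1.eigenvalues i) - ∑ i, phiF Λ (h3.1.eigenvalues i) := by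
  refine le_trans ?_ (integrated_ineq h0 h3 c1 c2 ht0 ht3 ht1 ht2 hh K (le_trans ht0.le hΛ0))
  have hΛ : 0 ≤ Λ := le_trans ht0.le hΛ0
  have hX1 := isHermitian_mul_conjTranspose_self c1
  have hX2 := isHermitian_mul_conjTranspose_self c2
  have hx1 : ∀ j, 0 ≤ (isHermitian_mul_conjTranspose_self c1).eigenvalues j :=
    fun j => (posSemidef_self_mul_conjTranspose c1).eigenvalues_nonneg j
  have hx2 : ∀ j, 0 ≤ (isHermitian_mul_conjTranspose_self c2).eigenvalues j :=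
    fun j => (posSemidef_self_mul_conjTranspose c2).eigenvalues_nonneg j
  have hs1 := (rtr_eq_sum_eig (isHermitian_mul_conjTranspose_self c1)).symm
  have hs2 := (rtr_eq_sum_eig (isHermitian_mul_conjTranspose_self c2)).symm
  have hA := half_abel ht0 ht1 ht2 ht3 _ hx1 hs1 hΛ0 hh K hK1
  have hB := half_abel ht3 ht2 ht1 ht0 _ hx2 hs2 hΛ3 hh K hK2
  refine add_le_add (le_trans hA ?_) (le_trans hB ?_)
  · refine Finset.sum_le_sum fun k _ => ?_
    refine mul_le_mul_of_nonneg_left ?_ (jumpA_nonneg ht0 ht1 ht2 ht3 hh k)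
    exact half_lower c1 h0.posSemidef h0.1 (by positivity) _ hΛ
  · refine Finset.sum_le_sum fun k _ => ?_
    refine mul_le_mul_of_nonneg_left ?_ (jumpA_nonneg ht3 ht2 ht1 ht0 hh k)
    exact half_lower c2 h3.posSemidef h3.1 (by positivity) _ hΛ

/-- The mesh limit: fixed `Λ`. -/
theorem limit_mesh (ht0 : 0 < rtr X0) (ht3 : 0 < rtr X3) (ht1 : 0 < rtr (c1 * c1ᴴ))
    (ht2 : 0 < rtr (c2 * c2ᴴ)) {Λ : ℝ} (hΛ0 : rtr X0 ≤ Λ) (hΛ3 : rtr X3 ≤ Λ) :
    (∑ j, ((isHermitian_mul_conjTranspose_self c1).eigenvalues j / rtr (c1 * c1ᴴ)) *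
          intA (rtr X0) (rtr (c1 * c1ᴴ)) (rtr (c2 * c2ᴴ)) (rtr X3)
            (Λ / ((isHermitian_mul_conjTranspose_self c1).eigenvalues j / rtr (c1 * c1ᴴ)) - rtr X0))
      + (∑ j, ((isHermitian_mul_conjTranspose_self c2).eigenvalues j / rtr (c2 * c2ᴴ)) *
          intA (rtr X3) (rtr (c2 * c2ᴴ)) (rtr (c1 * c1ᴴ)) (rtr X0)
            (Λ / ((isHermitian_mul_conjTranspose_self c2).eigenvalues j / rtr (c2 * c2ᴴ)) - rtr X3))
      ≤ ∑ i, phiF Λ ((omegaMat_posDef h0 h3 c1 c2).1.eigenvalues i)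
        - ∑ i, phiF Λ (h0.1.eigenvalues i) - ∑ i, phiF Λ (h3.1.eigenvalues i) := by
  set t0 := rtr X0 with ht0def
  set t1 := rtr (c1 * c1ᴴ) with ht1def
  set t2 := rtr (c2 * c2ᴴ) with ht2def
  set t3 := rtr X3 with ht3def
  let hN : ℕ → ℝ := fun N => 1 / ((N : ℝ) + 1)
  let KN : ℕ → ℕ := fun N => (N + 1) ^ 2
  have hKh : ∀ N : ℕ, ((KN N : ℕ) : ℝ) * hN N = (N : ℝ) + 1 := by
    intro N
    simp only [KN, hN]
    push_cast
    have : (N : ℝ) + 1 ≠ 0 := by positivity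
    field_simp
  have hKh1 : ∀ N : ℕ, (N : ℝ) + 1 ≤ (((KN N : ℕ) : ℝ) + 1) * hN N := by
    intro N
    have : 0 ≤ hN N := by simp only [hN]; positivity
    nlinarith [hKh N]
  have hhN : ∀ N, 0 < hN N := fun N => by simp only [hN]; positivity
  have hhNt : Tendsto hN atTop (𝓝[Set.Ici 0] 0) := by
    refine tendsto_nhdsWithin_iff.mpr ⟨tendsto_one_div_add_atTop_nhds_zero_nat, ?_⟩
    exact Eventually.of_forall fun N => Set.mem_Ici.mpr (hhN N).le
  have hNt : Tendsto (fun N : ℕ => (N : ℝ) + 1) atTop atTop :=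
    tendsto_atTop_add_const_right _ _ tendsto_natCast_atTop_atTop
  -- conditions on K
  have hev1 : ∀ᶠ N : ℕ in atTop, ∀ j, 0 < (isHermitian_mul_conjTranspose_self c1).eigenvalues j →
      Λ / ((isHermitian_mul_conjTranspose_self c1).eigenvalues j / t1) - t0 ≤ (((KN N : ℕ) : ℝ) + 1) * hN N := by
    rw [eventually_all]
    intro j
    filter_upwards [hNt.eventually_ge_atTop (Λ / ((isHermitian_mul_conjTranspose_self c1).eigenvalues j / t1) - t0)]
      with N hN' _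
    exact le_trans hN' (hKh1 N)
  have hev2 : ∀ᶠ N : ℕ in atTop, ∀ j, 0 < (isHermitian_mul_conjTranspose_self c2).eigenvalues j →
      Λ / ((isHermitian_mul_conjTranspose_self c2).eigenvalues j / t2) - t3 ≤ (((KN N : ℕ) : ℝ) + 1) * hN N := by
    rw [eventually_all]
    intro j
    filter_upwards [hNt.eventually_ge_atTop (Λ / ((isHermitian_mul_conjTranspose_self c2).eigenvalues j / t2) - t3)]
      with N hN' _
    exact le_trans hN' (hKh1 N)
  have hintA : Tendsto (fun N => intA t0 t1 t2 t3 (hN N)) atTop (𝓝 0) := by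
    have hc := (intA_continuousOn ht0 ht1 ht2 ht3) 0 (Set.mem_Ici.mpr le_rfl)
    rw [ContinuousWithinAt, intA_zero ht0 ht1 ht2 ht3] at hc
    exact hc.comp hhNt
  have hintB : Tendsto (fun N => intA t3 t2 t1 t0 (hN N)) atTop (𝓝 0) := by
    have hc := (intA_continuousOn ht3 ht2 ht1 ht0) 0 (Set.mem_Ici.mpr le_rfl)
    rw [ContinuousWithinAt, intA_zero ht3 ht2 ht1 ht0] at hc
    exact hc.comp hhNt
  have hcalA : Tendsto (fun N => calA t0 t1 t2 t3 (((KN N : ℕ) : ℝ) * hN N)) atTop (𝓝 0) := by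
    simp only [hKh]
    exact (calA_tendsto ht0 ht1 ht2 ht3).comp hNt
  have hcalB : Tendsto (fun N => calA t3 t2 t1 t0 (((KN N : ℕ) : ℝ) * hN N)) atTop (𝓝 0) := by
    simp only [hKh]
    exact (calA_tendsto ht3 ht2 ht1 ht0).comp hNt
  set a₁ := ∑ j, ((isHermitian_mul_conjTranspose_self c1).eigenvalues j / t1) *
          intA t0 t1 t2 t3
            (Λ / ((isHermitian_mul_conjTranspose_self c1).eigenvalues j / t1) - t0) with ha₁
  set a₂ := ∑ j, ((isHermitian_mul_conjTranspose_self c2).eigenvalues j / t2) *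
          intA t3 t2 t1 t0
            (Λ / ((isHermitian_mul_conjTranspose_self c2).eigenvalues j / t2) - t3) with ha₂
  have hlim : Tendsto (fun N => (a₁ - intA t0 t1 t2 t3 (hN N)
        - Fintype.card F₁ * Λ * calA t0 t1 t2 t3 (((KN N : ℕ) : ℝ) * hN N))
      + (a₂ - intA t3 t2 t1 t0 (hN N)
        - Fintype.card F₂ * Λ * calA t3 t2 t1 t0 (((KN N : ℕ) : ℝ) * hN N))) atTop
      (𝓝 ((a₁ - 0 - Fintype.card F₁ * Λ * 0) + (a₂ - 0 - Fintype.card F₂ * Λ * 0))) :=
    ((tendsto_const_nhds.sub hintA).sub (hcalA.const_mul _)).add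
      ((tendsto_const_nhds.sub hintB).sub (hcalB.const_mul _))
  have hle := le_of_tendsto hlim (by
    filter_upwards [hev1, hev2] with N h1 h2
    exact integrated_ineq2 h0 h3 c1 c2 ht0 ht3 ht1 ht2 (hhN N) (KN N) hΛ0 hΛ3 h1 h2)
  simpa using hle

/-- Asymptotics of a sum of `φ`'s. -/
theorem sum_phiF_tendsto {ι : Type*} [Fintype ι] (w : ι → ℝ) (hw : ∀ i, 0 ≤ w i) :
    Tendsto (fun U => ∑ i, phiF U (w i) - Fintype.card ι * (U * Real.log U - U)
        - (∑ i, w i) * (Real.log U + 1)) atTop (𝓝 (∑ i, Real.negMulLog (w i))) := by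
  have h := tendsto_finsetSum (Finset.univ : Finset ι) (fun i _ => phiF_tendsto (hw i))
  refine h.congr fun U => ?_
  simp only [Finset.sum_sub_distrib, Finset.sum_const, Finset.card_univ, nsmul_eq_mul, Finset.sum_mul]
  ring

/-- Asymptotics of one term of the half. -/
theorem term_tendsto {t0 t1 t2 t3 : ℝ} (h0 : 0 < t0) (h1 : 0 < t1) (h2 : 0 < t2) (h3 : 0 < t3)
    {p : ℝ} (hp : 0 ≤ p) :
    Tendsto (fun Λ => p * intA t0 t1 t2 t3 (Λ / p - t0) - p * (t1 * (Real.log Λ + 1))) atTop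
      (𝓝 (p * constA t0 t1 t2 t3 + t1 * Real.negMulLog p)) := by
  rcases hp.eq_or_lt with rfl | hp
  · simp
  have hU : Tendsto (fun Λ : ℝ => Λ / p - t0) atTop atTop :=
    tendsto_atTop_add_const_right _ _ (tendsto_id.atTop_div_const hp)
  have h1' := (intA_tendsto h0 h1 h2 h3).comp hU
  have hlog : Tendsto (fun Λ : ℝ => Real.log (Λ / p - t0) - Real.log Λ) atTop (𝓝 (Real.log (1 / p))) := by
    have hq : Tendsto (fun Λ : ℝ => 1 / p - t0 / Λ) atTop (𝓝 (1 / p - 0)) :=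
      tendsto_const_nhds.sub (tendsto_const_nhds.div_atTop tendsto_id)
    rw [sub_zero] at hq
    have hc : ContinuousAt Real.log (1 / p) := Real.continuousAt_log (by positivity)
    refine (hc.tendsto.comp hq).congr' ?_
    filter_upwards [eventually_gt_atTop (t0 * p)] with Λ hΛ
    have hΛpos : 0 < Λ := lt_trans (by positivity) hΛ
    have hUpos : 0 < Λ / p - t0 := by
      rw [sub_pos, lt_div_iff₀ hp]; exact hΛ
    simp only [Function.comp]
    rw [← Real.log_div hUpos.ne' hΛpos.ne']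
    congr 1
    field_simp
  have hsum := (h1'.add (hlog.const_mul t1)).const_mul p
  have hlimit : p * (constA t0 t1 t2 t3 + t1 * Real.log (1 / p)) =
      p * constA t0 t1 t2 t3 + t1 * Real.negMulLog p := by
    rw [one_div, Real.log_inv]
    simp only [Real.negMulLog]
    ring
  rw [hlimit] at hsum
  refine hsum.congr fun Λ => ?_
  simp only [Function.comp]
  ring

/-- Asymptotics of the half. -/
theorem half_limit {t0 t1 t2 t3 : ℝ} (h0 : 0 < t0) (h1 : 0 < t1) (h2 : 0 < t2) (h3 : 0 < t3)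
    {ι : Type*} [Fintype ι] (x : ι → ℝ) (hx : ∀ j, 0 ≤ x j) (hxs : ∑ j, x j = t1) :
    Tendsto (fun Λ => ∑ j, (x j / t1) * intA t0 t1 t2 t3 (Λ / (x j / t1) - t0)
        - t1 * (Real.log Λ + 1)) atTop
      (𝓝 (constA t0 t1 t2 t3 + (∑ j, Real.negMulLog (x j) + t1 * Real.log t1))) := by
  have hp1 : ∑ j, x j / t1 = 1 := by
    rw [← Finset.sum_div, hxs, div_self h1.ne']
  have hterm := tendsto_finsetSum (Finset.univ : Finset ι) (fun j _ =>
    term_tendsto h0 h1 h2 h3 (p := x j / t1) (div_nonneg (hx j) h1.le))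
  have e1 : ∑ j, (x j / t1 * constA t0 t1 t2 t3 + t1 * Real.negMulLog (x j / t1))
      = constA t0 t1 t2 t3 + (∑ j, Real.negMulLog (x j) + t1 * Real.log t1) := by
    rw [Finset.sum_add_distrib, ← Finset.sum_mul, hp1, one_mul]
    congr 1
    rw [← Finset.mul_sum]
    have e2 : ∀ j, Real.negMulLog (x j) = (x j / t1) * Real.negMulLog t1 + t1 * Real.negMulLog (x j / t1) := by
      intro j
      have := Real.negMulLog_mul t1 (x j / t1)
      have e3 : t1 * (x j / t1) = x j := by field_simp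
      rw [e3] at this
      exact this
    simp only [e2, Finset.sum_add_distrib, ← Finset.sum_mul, hp1, one_mul, ← Finset.mul_sum]
    simp only [Real.negMulLog]
    ring
  rw [e1] at hterm
  refine hterm.congr fun Λ => ?_
  rw [Finset.sum_sub_distrib]
  congr 1
  rw [← Finset.sum_mul, hp1, one_mul]

theorem rtr_omegaMat (X0 : Matrix F₁ F₁ ℂ) (X3 : Matrix F₂ F₂ ℂ) (c1 : Matrix F₁ G ℂ)
    (c2 : Matrix F₂ G ℂ) :
    rtr (omegaMat X0 X3 c1 c2) = rtr X0 + rtr (c1 * c1ᴴ) + rtr (c2 * c2ᴴ) + rtr X3 := by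
  simp only [omegaMat, rtr, trace, Fintype.sum_sum_type, diag_apply, fromBlocks_apply₁₁,
    fromBlocks_apply₂₂, Matrix.add_apply, Finset.sum_add_distrib, Complex.add_re]
  ring

include h0 h3 in
/-- **K-Path** for positive definite `X0, X3` and nonzero `c1, c2`. -/
theorem kPath_pd (ht0 : 0 < rtr X0) (ht3 : 0 < rtr X3) (ht1 : 0 < rtr (c1 * c1ᴴ))
    (ht2 : 0 < rtr (c2 * c2ᴴ)) :
    Hs (rtr X0) (rtr (c1 * c1ᴴ)) (rtr (c2 * c2ᴴ)) (rtr X3) + fEnt X0 + fEnt (c1 * c1ᴴ)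
        + fEnt (c2 * c2ᴴ) + fEnt X3 ≤ vnEntropy (omegaMat X0 X3 c1 c2) := by
  set t0 := rtr X0 with ht0def
  set t1 := rtr (c1 * c1ᴴ) with ht1def
  set t2 := rtr (c2 * c2ᴴ) with ht2def
  set t3 := rtr X3 with ht3def
  have hω := omegaMat_posDef h0 h3 c1 c2
  have hX1 := isHermitian_mul_conjTranspose_self c1
  have hX2 := isHermitian_mul_conjTranspose_self c2
  have hx1 : ∀ j, 0 ≤ (isHermitian_mul_conjTranspose_self c1).eigenvalues j :=
    fun j => (posSemidef_self_mul_conjTranspose c1).eigenvalues_nonneg j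
  have hx2 : ∀ j, 0 ≤ (isHermitian_mul_conjTranspose_self c2).eigenvalues j :=
    fun j => (posSemidef_self_mul_conjTranspose c2).eigenvalues_nonneg j
  have hs1 : ∑ j, (isHermitian_mul_conjTranspose_self c1).eigenvalues j = t1 :=
    (rtr_eq_sum_eig (isHermitian_mul_conjTranspose_self c1)).symm
  have hs2 : ∑ j, (isHermitian_mul_conjTranspose_self c2).eigenvalues j = t2 :=
    (rtr_eq_sum_eig (isHermitian_mul_conjTranspose_self c2)).symm
  have hs0 : ∑ j, h0.1.eigenvalues j = t0 := (rtr_eq_sum_eig h0.1).symm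
  have hs3 : ∑ j, h3.1.eigenvalues j = t3 := (rtr_eq_sum_eig h3.1).symm
  have hsw : ∑ j, (omegaMat_posDef h0 h3 c1 c2).1.eigenvalues j = t0 + t1 + t2 + t3 := by
    rw [← rtr_eq_sum_eig, rtr_omegaMat]
  have tA := half_limit ht0 ht1 ht2 ht3 _ hx1 hs1
  have tB := half_limit ht3 ht2 ht1 ht0 _ hx2 hs2
  have tW := sum_phiF_tendsto _ (fun j => (omegaMat_posDef h0 h3 c1 c2).eigenvalues_pos j |>.le)
  have tX := sum_phiF_tendsto _ (fun j => h0.eigenvalues_pos j |>.le)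
  have tZ := sum_phiF_tendsto _ (fun j => h3.eigenvalues_pos j |>.le)
  rw [hsw] at tW
  rw [hs0] at tX
  rw [hs3] at tZ
  have hL := ((tW.sub tX).sub tZ)
  have hR := tA.add tB
  have hle := le_of_tendsto_of_tendsto hR hL (by
    filter_upwards [eventually_ge_atTop t0, eventually_ge_atTop t3] with Λ h1 h2
    have hm := limit_mesh h0 h3 c1 c2 ht0 ht3 ht1 ht2 h1 h2
    simp only [Fintype.card_sum]
    push_cast
    nlinarith [hm])
  rw [vnEntropy_eq_sum hω.1]
  unfold fEnt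
  rw [vnEntropy_eq_sum h0.1, vnEntropy_eq_sum h3.1, vnEntropy_eq_sum hX1, vnEntropy_eq_sum hX2]
  have hc := constA_add_constA_swap ht0 ht1 ht2 ht3
  simp only [Real.negMulLog] at hc ⊢
  simp only [Real.negMulLog] at hle
  nlinarith [hle, hc]

end

end Crest.Agent.GADC
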