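import Crest.Agent.Lib.GADC.KPath
import Crest.Agent.Lib.GADC.GadEnt

/-!
# The K-Z inequality, derived from K-Path.

For `τ` PSD on `Bool × e`, with blocks `P = τ ff`, `Q = τ tt`, `tr P + tr Q = 1`:
`S(ofBlocks (gadOut γ ν τ)) ≥ gadEnt γ ν (tr Q) + f(P) + f(Q)`.

Proof (`α₁ = 1-γν, α₂ = γν, β₁ = γ(1-ν), β₂ = 1-γ+γν, η = 1-γ`): write `τ = L Lᴴ`, `A, B` the
rows of `L` (so `P = AAᴴ`, `Q = BBᴴ`, `τ ft = ABᴴ`).  If `α₁ > 0` apply K-Path to `X0 = β₁ Q`,
`c1 = √α₁ A`, `c2 = √(η/α₁) B`, `X3 = α₂ P + κ Q`, `κ = β₂ - η/α₁ ≥ 0` (`α₁β₂ - η = γ²ν(1-ν)`).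
Then the block matrix of K-Path is the reindexing of `ofBlocks (gadOut γ ν τ)`, the scalar traces
have `T = 1`, `D = gadV γ ν q`, so `Hs = gadEnt γ ν q`; `f` is homogeneous and superadditive so
`f(X0)+f(X1)+f(X2)+f(X3) ≥ f(P)+f(Q)`.  If `α₁ = 0` (`γ = ν = 1`) use `c1 = c2 = 0`, `X0 = 0`,
`X3 = P + Q`.
-/

set_option autoImplicit false

namespace Crest.Agent.GADC

open Matrix Crest.Quantum
open scoped ComplexOrder

/-- Entropy of a matrix in `ofBlocks` form, through `fromBlocks`. -/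
theorem vnEntropy_ofBlocks {e : Type*} [Fintype e] [DecidableEq e]
    (W : Bool → Bool → Matrix e e ℂ) :
    vnEntropy (ofBlocks W) =
      vnEntropy (fromBlocks (W false false) (W false true) (W true false) (W true true)) := by
  rw [← vnEntropy_reindex (ofBlocks W) (Equiv.boolProdEquivSum e)]
  congr 1
  ext i j
  rcases i with i | i <;> rcases j with j | j <;>
    simp [ofBlocks, Equiv.boolProdEquivSum, reindex]

/-- A PSD block matrix is a Gram matrix of two rows. -/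
theorem exists_rows {e : Type*} [Fintype e] [DecidableEq e]
    (τ : Bool → Bool → Matrix e e ℂ) (hτ : (ofBlocks τ).PosSemidef) :
    ∃ (m : ℕ) (A B : Matrix e (Fin m) ℂ),
      τ false false = A * Aᴴ ∧ τ false true = A * Bᴴ ∧ τ true false = B * Aᴴ ∧
        τ true true = B * Bᴴ := by
  obtain ⟨m, v, hv⟩ := Matrix.posSemidef_iff_eq_sum_vecMulVec.mp hτ
  have key : ∀ (a b : Bool) (i j : e), τ a b i j =
      ∑ g, v g (a, i) * star (v g (b, j)) := by
    intro a b i j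
    have : (ofBlocks τ) (a, i) (b, j) = τ a b i j := rfl
    rw [← this, hv, Matrix.sum_apply]
    refine Finset.sum_congr rfl fun g _ => ?_
    simp [Matrix.vecMulVec_apply]
  refine ⟨m, Matrix.of fun i g => v g (false, i), Matrix.of fun i g => v g (true, i), ?_, ?_, ?_, ?_⟩ <;>
  · ext i j
    rw [key, Matrix.mul_apply]
    refine Finset.sum_congr rfl fun g _ => ?_
    simp [Matrix.conjTranspose_apply]

/-- The entropy `Hs` at total trace `1`. -/
theorem Hs_eq_gadEnt {γ ν t0 t1 t2 t3 q : ℝ} (hT : t0 + t1 + t2 + t3 = 1)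
    (hD : (t0 + t1) * (t2 + t3) - t1 * t2 = gadV γ ν q) :
    Hs t0 t1 t2 t3 = gadEnt γ ν q := by
  unfold Hs gadEnt lamP lamM
  rw [hT, hD, Real.binEntropy_eq_negMulLog_add_negMulLog_one_sub]
  have e1 : (1:ℝ) ^ 2 = 1 := one_pow 2
  rw [e1]
  have e2 : (1 - Real.sqrt (1 - 4 * gadV γ ν q)) / 2 = 1 - (1 + Real.sqrt (1 - 4 * gadV γ ν q)) / 2 := by
    ring
  rw [e2]

/-- **K-Z inequality.** -/
theorem kZ {γ ν : ℝ} (hγ : γ ∈ Set.Icc (0 : ℝ) 1) (hν : ν ∈ Set.Icc (0 : ℝ) 1)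
    {e : Type*} [Fintype e] [DecidableEq e] [Nonempty e]
    (τ : Bool → Bool → Matrix e e ℂ) (hτ : (ofBlocks τ).PosSemidef)
    (htr : rtr (τ false false) + rtr (τ true true) = 1) :
    gadEnt γ ν (rtr (τ true true)) + fEnt (τ false false) + fEnt (τ true true)
      ≤ vnEntropy (ofBlocks (gadOut γ ν τ)) := by
  obtain ⟨m, A, B, hP, hR, hR', hQ⟩ := exists_rows τ hτ
  have hPpsd : (τ false false).PosSemidef := by rw [hP]; exact posSemidef_self_mul_conjTranspose A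
  have hQpsd : (τ true true).PosSemidef := by rw [hQ]; exact posSemidef_self_mul_conjTranspose B
  obtain ⟨hγ0, hγ1⟩ := hγ
  obtain ⟨hν0, hν1⟩ := hν
  set P := τ false false with hPdef
  set Q := τ true true with hQdef
  set p := rtr P with hpdef
  set q := rtr Q with hqdef
  have hp0 : 0 ≤ p := rtr_nonneg hPpsd
  have hq0 : 0 ≤ q := rtr_nonneg hQpsd
  have hα₁0 : 0 ≤ 1 - γ * ν := by nlinarith
  rcases hα₁0.eq_or_lt with hα | hα
  · -- the case `γ = ν = 1`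
    have hγ1' : γ = 1 := by nlinarith
    have hν1' : ν = 1 := by nlinarith
    subst hγ1' hν1'
    have hk := kPath (F₁ := e) (F₂ := e) (G := Fin m) (0 : Matrix e e ℂ) (P + Q) 0 0
      PosSemidef.zero (hPpsd.add hQpsd)
    have hH : Hs (rtr (0 : Matrix e e ℂ)) (rtr ((0 : Matrix e (Fin m) ℂ) * (0 : Matrix e (Fin m) ℂ)ᴴ))
        (rtr ((0 : Matrix e (Fin m) ℂ) * (0 : Matrix e (Fin m) ℂ)ᴴ)) (rtr (P + Q))
        = gadEnt 1 1 q := by
      apply Hs_eq_gadEnt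
      · simp only [Matrix.zero_mul, rtr_zero, rtr_add]; linarith
      · simp [gadV, rtr_zero]
    rw [hH] at hk
    have hadd := fEnt_add_ge hPpsd hQpsd
    have hblocks : vnEntropy (ofBlocks (gadOut 1 1 τ)) =
        vnEntropy (fromBlocks ((0 : Matrix e e ℂ) + (0 : Matrix e (Fin m) ℂ) * (0 : Matrix e (Fin m) ℂ)ᴴ)
          ((0 : Matrix e (Fin m) ℂ) * (0 : Matrix e (Fin m) ℂ)ᴴ)
          ((0 : Matrix e (Fin m) ℂ) * (0 : Matrix e (Fin m) ℂ)ᴴ)
          (P + Q + (0 : Matrix e (Fin m) ℂ) * (0 : Matrix e (Fin m) ℂ)ᴴ)) := by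
      rw [vnEntropy_ofBlocks]
      congr 1
      simp [gadOut, hPdef, hQdef]
    rw [hblocks]
    simp only [Matrix.zero_mul, fEnt_zero, add_zero] at hk ⊢
    linarith
  · -- the main case
    set α₁ := 1 - γ * ν with hα₁
    set α₂ := γ * ν with hα₂
    set β₁ := γ * (1 - ν) with hβ₁
    set β₂ := 1 - γ + γ * ν with hβ₂
    set η := 1 - γ with hη
    have hα₂0 : 0 ≤ α₂ := mul_nonneg hγ0 hν0
    have hβ₁0 : 0 ≤ β₁ := mul_nonneg hγ0 (by linarith)
    have hη0 : 0 ≤ η := by rw [hη]; linarith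
    set κ := β₂ - η / α₁ with hκ
    have hκ0 : 0 ≤ κ := by
      rw [hκ, sub_nonneg, div_le_iff₀ hα]
      have : β₂ * α₁ - η = γ ^ 2 * ν * (1 - ν) := by
        rw [hβ₂, hα₁, hη]; ring
      have h2 : 0 ≤ γ ^ 2 * ν * (1 - ν) := by
        have : 0 ≤ 1 - ν := by linarith
        positivity
      linarith
    set c1 : Matrix e (Fin m) ℂ := ((Real.sqrt α₁ : ℝ) : ℂ) • A with hc1
    set c2 : Matrix e (Fin m) ℂ := ((Real.sqrt (η / α₁) : ℝ) : ℂ) • B with hc2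
    set X0 : Matrix e e ℂ := (β₁ : ℂ) • Q with hX0
    set X3 : Matrix e e ℂ := (α₂ : ℂ) • P + (κ : ℂ) • Q with hX3
    have hcsq : ∀ (r : ℝ), 0 ≤ r → ((Real.sqrt r : ℝ) : ℂ) * (starRingEnd ℂ) ((Real.sqrt r : ℝ) : ℂ) = (r : ℂ) := by
      intro r hr
      rw [Complex.conj_ofReal, ← Complex.ofReal_mul, Real.mul_self_sqrt hr]
    have hc11 : c1 * c1ᴴ = (α₁ : ℂ) • P := by
      rw [hc1, Matrix.conjTranspose_smul, Matrix.smul_mul, Matrix.mul_smul, smul_smul, hP]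
      congr 1
      exact hcsq α₁ hα.le
    have hc22 : c2 * c2ᴴ = ((η / α₁ : ℝ) : ℂ) • Q := by
      rw [hc2, Matrix.conjTranspose_smul, Matrix.smul_mul, Matrix.mul_smul, smul_smul, hQ]
      congr 1
      exact hcsq _ (div_nonneg hη0 hα.le)
    have hsq : Real.sqrt α₁ * Real.sqrt (η / α₁) = Real.sqrt η := by
      rw [← Real.sqrt_mul hα.le]
      congr 1
      field_simp
    have hc12 : c1 * c2ᴴ = ((Real.sqrt η : ℝ) : ℂ) • τ false true := by
      rw [hc1, hc2, Matrix.conjTranspose_smul, Matrix.smul_mul, Matrix.mul_smul, smul_smul, hR]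
      congr 1
      rw [Complex.star_def, Complex.conj_ofReal, ← Complex.ofReal_mul, hsq]
    have hc21 : c2 * c1ᴴ = ((Real.sqrt η : ℝ) : ℂ) • τ true false := by
      rw [hc1, hc2, Matrix.conjTranspose_smul, Matrix.smul_mul, Matrix.mul_smul, smul_smul, hR']
      congr 1
      rw [Complex.star_def, Complex.conj_ofReal, ← Complex.ofReal_mul, mul_comm, hsq]
    have hX0psd : X0.PosSemidef := hQpsd.smul (by exact_mod_cast hβ₁0)
    have hX3psd : X3.PosSemidef :=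
      (hPpsd.smul (by exact_mod_cast hα₂0)).add (hQpsd.smul (by exact_mod_cast hκ0))
    have hk := kPath X0 X3 c1 c2 hX0psd hX3psd
    rw [hc11, hc22, hc12, hc21] at hk
    have hblocks : vnEntropy (ofBlocks (gadOut γ ν τ)) =
        vnEntropy (fromBlocks (X0 + (α₁ : ℂ) • P) (((Real.sqrt η : ℝ) : ℂ) • τ false true)
          (((Real.sqrt η : ℝ) : ℂ) • τ true false) (X3 + ((η / α₁ : ℝ) : ℂ) • Q)) := by
      rw [vnEntropy_ofBlocks]
      congr 2
      · simp only [gadOut]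
        rw [hX0, ← hPdef, ← hQdef, add_comm]
      · simp only [gadOut]
        rw [hX3, add_assoc, ← add_smul, ← Complex.ofReal_add, hκ, sub_add_cancel]
    rw [hblocks]
    have hrX0 : rtr X0 = β₁ * q := rtr_smul _ _
    have hrP : rtr ((α₁ : ℂ) • P) = α₁ * p := rtr_smul _ _
    have hrQ : rtr (((η / α₁ : ℝ) : ℂ) • Q) = η / α₁ * q := rtr_smul _ _
    have hrX3 : rtr X3 = α₂ * p + κ * q := by
      rw [hX3, rtr_add, rtr_smul, rtr_smul]
    have hβ : β₁ + β₂ = 1 := by rw [hβ₁, hβ₂]; ring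
    have hαα : α₁ + α₂ = 1 := by rw [hα₁, hα₂]; ring
    have hpq : p = 1 - q := by linarith
    have hH : Hs (rtr X0) (rtr ((α₁ : ℂ) • P)) (rtr (((η / α₁ : ℝ) : ℂ) • Q)) (rtr X3)
        = gadEnt γ ν q := by
      rw [hrX0, hrP, hrQ, hrX3]
      have hκ' : η / α₁ + κ = β₂ := by rw [hκ]; ring
      apply Hs_eq_gadEnt
      · have : β₁ * q + α₁ * p + η / α₁ * q + (α₂ * p + κ * q)
            = (β₁ + (η / α₁ + κ)) * q + (α₁ + α₂) * p := by ring
        rw [this, hκ', hβ, hαα]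
        linarith
      · have e1 : α₁ * p * (η / α₁ * q) = η * (p * q) := by
          field_simp
        have e2 : η / α₁ * q + (α₂ * p + κ * q) = (η / α₁ + κ) * q + α₂ * p := by ring
        have e3 : (β₁ * q + α₁ * p) * (η / α₁ * q + (α₂ * p + κ * q)) - α₁ * p * (η / α₁ * q)
            = (β₁ * q + α₁ * p) * (β₂ * q + α₂ * p) - η * (p * q) := by
          rw [e1, e2, hκ']
        rw [e3, hpq, hβ₁, hβ₂, hα₁, hα₂, hη]
        unfold gadV
        ring
    rw [hH] at hk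
    have hf0 : fEnt X0 = β₁ * fEnt Q := fEnt_smul hQpsd hβ₁0
    have hf1 : fEnt ((α₁ : ℂ) • P) = α₁ * fEnt P := fEnt_smul hPpsd hα.le
    have hf2 : fEnt (((η / α₁ : ℝ) : ℂ) • Q) = (η / α₁) * fEnt Q :=
      fEnt_smul hQpsd (div_nonneg hη0 hα.le)
    have hf3 : α₂ * fEnt P + κ * fEnt Q ≤ fEnt X3 := by
      have := fEnt_add_ge (hPpsd.smul (by exact_mod_cast hα₂0 : (0:ℂ) ≤ (α₂ : ℂ)))
        (hQpsd.smul (by exact_mod_cast hκ0 : (0:ℂ) ≤ (κ : ℂ)))
      rwa [fEnt_smul hPpsd hα₂0, fEnt_smul hQpsd hκ0] at this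
    rw [hf0, hf1, hf2] at hk
    have hκ' : η / α₁ + κ = β₂ := by rw [hκ]; ring
    have hsum : (β₁ + (η / α₁ + κ)) * fEnt Q + (α₁ + α₂) * fEnt P = fEnt P + fEnt Q := by
      rw [hκ', hβ, hαα]; ring
    nlinarith [hsum]

end Crest.Agent.GADC
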