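import Crest.Agent.Lib.GADC.Channel
import Crest.Agent.Lib.GADC.GadEnt

/-!
# Product states and two-level entropy formulas (Mod D2 of row 341).
-/

set_option autoImplicit false

namespace Crest.Agent.GADC

open Matrix Polynomial Crest.Quantum Crest.MathPhysics.AmpDamp
open scoped ComplexOrder Kronecker

section kron
variable {n m : Type*} [Fintype n] [DecidableEq n] [Fintype m] [DecidableEq m]

/-- Entropy of a Kronecker product. -/
theorem vnEntropy_kronecker {A : Matrix n n ℂ} {B : Matrix m m ℂ} (hA : A.IsHermitian)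
    (hB : B.IsHermitian) :
    vnEntropy (A ⊗ₖ B) = rtr B * vnEntropy A + rtr A * vnEntropy B := by
  have hAB : (A ⊗ₖ B).IsHermitian := by
    rw [IsHermitian, conjTranspose_kronecker, hA.eq, hB.eq]
  rw [vnEntropy_eq_sum hAB, vnEntropy_eq_sum hA, vnEntropy_eq_sum hB, sum_eig_kronecker hA hB hAB,
    rtr_eq_sum_eig hA, rtr_eq_sum_eig hB]
  simp only [Real.negMulLog_mul, Finset.sum_add_distrib, ← Finset.sum_mul, ← Finset.mul_sum]

theorem rtr_eq_one {A : Matrix n n ℂ} (hA : IsDensity A) : rtr A = 1 := by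
  simp [rtr, hA.2]

theorem fEnt_density' {A : Matrix n n ℂ} (hA : IsDensity A) : fEnt A = vnEntropy A := by
  simp [fEnt, rtr_eq_one hA]

theorem IsDensity.kronecker {A : Matrix n n ℂ} {B : Matrix m m ℂ} (hA : IsDensity A)
    (hB : IsDensity B) : IsDensity (A ⊗ₖ B) := by
  refine ⟨hA.1.kronecker hB.1, ?_⟩
  rw [trace_kronecker, hA.2, hB.2, one_mul]

theorem vnEntropy_kronecker_density {A : Matrix n n ℂ} {B : Matrix m m ℂ} (hA : IsDensity A)
    (hB : IsDensity B) : vnEntropy (A ⊗ₖ B) = vnEntropy A + vnEntropy B := by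
  rw [vnEntropy_kronecker hA.1.1 hB.1.1, rtr_eq_one hA, rtr_eq_one hB]
  ring

end kron

section channelFacts
variable {d e : Type*} [Fintype d] [Fintype e] [DecidableEq d] [DecidableEq e]

theorem IsChannel.isDensity_apply {Ψ : Matrix d d ℂ → Matrix e e ℂ} (hΨ : IsChannel Ψ)
    {M : Matrix d d ℂ} (hM : IsDensity M) : IsDensity (Ψ M) :=
  ⟨IsChannel.posSemidef_apply hΨ hM.1, by rw [hΨ.2.2 M, hM.2]⟩

/-- The average of densities is a density. -/
theorem isEnsemble_avg_isDensity {m : ℕ} {q : Fin m → ℝ} {ρ : Fin m → Matrix d d ℂ}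
    (h : IsEnsemble q ρ) : IsDensity (∑ a, (q a : ℂ) • ρ a) := by
  refine ⟨?_, ?_⟩
  · refine Matrix.posSemidef_sum _ fun a _ => ?_
    exact (h.2.2 a).1.smul (by exact_mod_cast h.1 a)
  · rw [trace_sum]
    simp only [trace_smul, (h.2.2 _).2, smul_eq_mul, mul_one]
    exact_mod_cast h.2.1

/-- Ensemble pushed through a channel. -/
theorem isEnsemble_push {m : ℕ} {q : Fin m → ℝ} {ρ : Fin m → Matrix d d ℂ}
    (h : IsEnsemble q ρ) {Ψ : Matrix d d ℂ → Matrix e e ℂ} (hΨ : IsChannel Ψ) :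
    IsEnsemble q (fun a => Ψ (ρ a)) :=
  ⟨h.1, h.2.1, fun a => IsChannel.isDensity_apply hΨ (h.2.2 a)⟩

/-- The `Σ_{s',t'}` contraction of the transfer coefficients of `gadMap`. -/
theorem sum_qubitCoeff_gad (γ ν : ℝ) (A : Matrix Bool Bool ℂ) (s t : Bool) :
    ∑ s' : Bool, ∑ t' : Bool, qubitCoeff (gadMap γ ν) s t s' t' * A s' t' = gadMap γ ν A s t := by
  cases s <;> cases t <;> simp [qubitCoeff, gadMap, Fintype.sum_bool, Matrix.single] <;> ring

/-- `Φ ⊗ Ψ` on a product. -/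
theorem qubitTensor_kronecker (γ ν : ℝ) {Ψ : Matrix d d ℂ → Matrix e e ℂ} (hΨ : IsLinearMap ℂ Ψ)
    (A : Matrix Bool Bool ℂ) (B : Matrix d d ℂ) :
    qubitTensor (gadMap γ ν) Ψ (A ⊗ₖ B) = gadMap γ ν A ⊗ₖ Ψ B := by
  ext ⟨s, i⟩ ⟨t, j⟩
  have hb : ∀ s' t' : Bool, block (A ⊗ₖ B) s' t' = A s' t' • B := by
    intro s' t'
    ext i' j'
    simp [block]
  simp only [qubitTensor, Matrix.of_apply, kroneckerMap_apply, hb, hΨ.map_smul, Matrix.smul_apply,
    smul_eq_mul]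
  rw [← sum_qubitCoeff_gad, Finset.sum_mul]
  refine Finset.sum_congr rfl fun s' _ => ?_
  rw [Finset.sum_mul]
  refine Finset.sum_congr rfl fun t' _ => ?_
  ring

end channelFacts

section two

theorem det_bool (A : Matrix Bool Bool ℂ) :
    A.det = A false false * A true true - A false true * A true false := by
  have h := Matrix.det_submatrix_equiv_self finTwoEquiv A
  rw [← h, Matrix.det_fin_two]
  simp [finTwoEquiv]

theorem trace_bool (A : Matrix Bool Bool ℂ) : A.trace = A false false + A true true := by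
  simp [Matrix.trace, Fintype.sum_bool]; ring

/-- Spectral sums of a `2 × 2` Hermitian matrix. -/
theorem sum_eig_bool {A : Matrix Bool Bool ℂ} (hA : A.IsHermitian) {x y : ℝ}
    (h1 : A.trace = ((x + y : ℝ) : ℂ)) (h2 : A.det = ((x * y : ℝ) : ℂ)) (φ : ℝ → ℝ) :
    ∑ i, φ (hA.eigenvalues i) = φ x + φ y := by
  have hc : A.charpoly = ∏ i : Bool, (X - C (((fun b : Bool => if b then x else y) i : ℝ) : ℂ)) := by
    rw [A.charpoly_of_card_eq_two (by simp : Fintype.card Bool = 2), h1, h2]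
    simp only [Fintype.prod_bool, if_true, if_false]
    push_cast
    simp only [C_add, C_mul]
    ring
  rw [sum_eig_eq_of_charpoly hA _ hc φ]
  simp [Fintype.sum_bool, add_comm]

theorem vnEntropy_bool {A : Matrix Bool Bool ℂ} (hA : A.IsHermitian) {x y : ℝ}
    (h1 : A.trace = ((x + y : ℝ) : ℂ)) (h2 : A.det = ((x * y : ℝ) : ℂ)) :
    vnEntropy A = Real.negMulLog x + Real.negMulLog y := by
  rw [vnEntropy_eq_sum hA, sum_eig_bool hA h1 h2]

/-- Entropy of a `2 × 2` density matrix with eigenvalues `x, 1 - x`. -/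
theorem vnEntropy_bool_binEntropy {A : Matrix Bool Bool ℂ} (hA : IsDensity A) {x : ℝ}
    (h2 : A.det = ((x * (1 - x) : ℝ) : ℂ)) :
    vnEntropy A = Real.binEntropy x := by
  rw [vnEntropy_bool hA.1.1 (x := x) (y := 1 - x) (by rw [hA.2]; simp) h2,
    Real.binEntropy_eq_negMulLog_add_negMulLog_one_sub]

/-- The pure qubit state of excited population `p` and sign `σ` of the coherence. -/
noncomputable def pureVec (p σ : ℝ) : Bool → ℂ :=
  fun b => if b then ((σ * Real.sqrt p : ℝ) : ℂ) else ((Real.sqrt (1 - p) : ℝ) : ℂ)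

noncomputable def pureSt (p σ : ℝ) : Matrix Bool Bool ℂ := vecMulVec (pureVec p σ) (star (pureVec p σ))

theorem pureSt_ff {p : ℝ} (σ : ℝ) (hp : p ≤ 1) : pureSt p σ false false = ((1 - p : ℝ) : ℂ) := by
  simp [pureSt, pureVec, vecMulVec_apply]
  rw [← Complex.ofReal_mul, Real.mul_self_sqrt (by linarith)]
  simp

theorem pureSt_tt {p σ : ℝ} (hp : 0 ≤ p) (hσ : σ ^ 2 = 1) : pureSt p σ true true = ((p : ℝ) : ℂ) := by
  simp only [pureSt, pureVec, vecMulVec_apply, Pi.star_apply, if_true, RCLike.star_def,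
    Complex.conj_ofReal]
  rw [← Complex.ofReal_mul]
  congr 1
  have := Real.mul_self_sqrt hp
  nlinarith

theorem pureSt_ft (p σ : ℝ) :
    pureSt p σ false true = ((σ * Real.sqrt (p * (1 - p)) : ℝ) : ℂ) := by
  by_cases hp : 0 ≤ p
  · simp only [pureSt, pureVec, vecMulVec_apply, Pi.star_apply, if_true, if_false, Bool.false_eq_true,
      RCLike.star_def, Complex.conj_ofReal]
    rw [← Complex.ofReal_mul, Real.sqrt_mul hp]
    congr 1
    ring
  · have hp' : p < 0 := not_le.mp hp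
    have h1 : Real.sqrt p = 0 := Real.sqrt_eq_zero_of_nonpos hp'.le
    have h2 : Real.sqrt (p * (1 - p)) = 0 :=
      Real.sqrt_eq_zero_of_nonpos (by nlinarith)
    simp [pureSt, pureVec, vecMulVec_apply, h1, h2]

theorem pureSt_tf (p σ : ℝ) :
    pureSt p σ true false = ((σ * Real.sqrt (p * (1 - p)) : ℝ) : ℂ) := by
  by_cases hp : 0 ≤ p
  · simp only [pureSt, pureVec, vecMulVec_apply, Pi.star_apply, if_true, if_false, Bool.false_eq_true,
      RCLike.star_def, Complex.conj_ofReal]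
    rw [← Complex.ofReal_mul, Real.sqrt_mul hp]
    congr 1
    ring
  · have hp' : p < 0 := not_le.mp hp
    have h1 : Real.sqrt p = 0 := Real.sqrt_eq_zero_of_nonpos hp'.le
    have h2 : Real.sqrt (p * (1 - p)) = 0 :=
      Real.sqrt_eq_zero_of_nonpos (by nlinarith)
    simp [pureSt, pureVec, vecMulVec_apply, h1, h2]

theorem pureSt_isDensity {p σ : ℝ} (hp : p ∈ Set.Icc (0 : ℝ) 1) (hσ : σ ^ 2 = 1) :
    IsDensity (pureSt p σ) := by
  refine ⟨Matrix.posSemidef_vecMulVec_self_star _, ?_⟩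
  rw [trace_bool, pureSt_ff σ hp.2, pureSt_tt hp.1 hσ]
  simp

variable {γ ν p : ℝ}

/-- Entries of the channel output on the pure state. -/
theorem gad_pure_ff (σ : ℝ) (hp : p ∈ Set.Icc (0 : ℝ) 1) (hσ : σ ^ 2 = 1) :
    gadMap γ ν (pureSt p σ) false false = ((1 - ((1 - γ) * p + γ * ν) : ℝ) : ℂ) := by
  simp only [gadMap, Matrix.of_apply, and_self, if_true, pureSt_ff σ hp.2, pureSt_tt hp.1 hσ]
  push_cast
  ring

theorem gad_pure_tt (σ : ℝ) (hp : p ∈ Set.Icc (0 : ℝ) 1) (hσ : σ ^ 2 = 1) :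
    gadMap γ ν (pureSt p σ) true true = (((1 - γ) * p + γ * ν : ℝ) : ℂ) := by
  simp only [gadMap, Matrix.of_apply, and_self, if_true, pureSt_ff σ hp.2, pureSt_tt hp.1 hσ]
  simp only [Bool.true_eq_false, false_and, if_false]
  push_cast
  ring

theorem gad_pure_ft (σ : ℝ) :
    gadMap γ ν (pureSt p σ) false true
      = ((Real.sqrt (1 - γ) * (σ * Real.sqrt (p * (1 - p))) : ℝ) : ℂ) := by
  simp only [gadMap, Matrix.of_apply, pureSt_ft]
  simp

theorem gad_pure_tf (σ : ℝ) :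
    gadMap γ ν (pureSt p σ) true false
      = ((Real.sqrt (1 - γ) * (σ * Real.sqrt (p * (1 - p))) : ℝ) : ℂ) := by
  simp only [gadMap, Matrix.of_apply, pureSt_tf]
  simp

/-- The entropy of the output of a pure state. -/
theorem vnEntropy_gad_pure (hγ : γ ∈ Set.Icc (0 : ℝ) 1) (hν : ν ∈ Set.Icc (0 : ℝ) 1) (σ : ℝ)
    (hp : p ∈ Set.Icc (0 : ℝ) 1) (hσ : σ ^ 2 = 1) :
    vnEntropy (gadMap γ ν (pureSt p σ)) = gadEnt γ ν p := by
  have hΦ := gadMap_isChannel hγ hν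
  have hden := IsChannel.isDensity_apply hΦ (pureSt_isDensity hp hσ)
  unfold gadEnt
  apply vnEntropy_bool_binEntropy hden
  have hv := gadV_le hγ hν hp
  have hs : Real.sqrt (1 - 4 * gadV γ ν p) ^ 2 = 1 - 4 * gadV γ ν p :=
    Real.sq_sqrt (by linarith)
  have hg := gadV_eq hγ hν p
  rw [det_bool, gad_pure_ff σ hp hσ, gad_pure_tt σ hp hσ, gad_pure_ft, gad_pure_tf]
  have h1 : Real.sqrt (1 - γ) ^ 2 = 1 - γ := Real.sq_sqrt (by linarith [hγ.2])
  have h2 : Real.sqrt (p * (1 - p)) ^ 2 = p * (1 - p) :=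
    Real.sq_sqrt (mul_nonneg hp.1 (by linarith [hp.2]))
  rw [← Complex.ofReal_mul, ← Complex.ofReal_mul, ← Complex.ofReal_sub]
  congr 1
  have e : Real.sqrt (1 - γ) * (σ * Real.sqrt (p * (1 - p))) *
      (Real.sqrt (1 - γ) * (σ * Real.sqrt (p * (1 - p))))
      = Real.sqrt (1 - γ) ^ 2 * σ ^ 2 * Real.sqrt (p * (1 - p)) ^ 2 := by ring
  rw [e, h1, h2, hσ]
  have e2 : (1 + Real.sqrt (1 - 4 * gadV γ ν p)) / 2 * (1 - (1 + Real.sqrt (1 - 4 * gadV γ ν p)) / 2)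
      = (1 - Real.sqrt (1 - 4 * gadV γ ν p) ^ 2) / 4 := by ring
  rw [e2, hs]
  linarith

/-- The rate at `p` is achieved by a two-state ensemble for `Φ`. -/
theorem gadRate_achieved' (hγ : γ ∈ Set.Icc (0 : ℝ) 1) (hν : ν ∈ Set.Icc (0 : ℝ) 1)
    (hp : p ∈ Set.Icc (0 : ℝ) 1) :
    ∃ (q : Fin 2 → ℝ) (ρ : Fin 2 → Matrix Bool Bool ℂ), IsEnsemble q ρ ∧
      gadRate γ ν p ≤ holevoInfo (gadMap γ ν) q ρ := by
  have hΦ := gadMap_isChannel hγ hν
  have hs1 : ((1 : ℝ)) ^ 2 = 1 := by norm_num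
  have hs2 : ((-1 : ℝ)) ^ 2 = 1 := by norm_num
  refine ⟨fun _ => 1 / 2, ![pureSt p 1, pureSt p (-1)], ⟨fun _ => by norm_num, by simp, ?_⟩, ?_⟩
  · intro a
    fin_cases a
    · exact pureSt_isDensity hp hs1
    · exact pureSt_isDensity hp hs2
  · have hEns : IsEnsemble (fun _ : Fin 2 => (1 / 2 : ℝ)) ![pureSt p 1, pureSt p (-1)] := by
      refine ⟨fun _ => by norm_num, by simp, ?_⟩
      intro a
      fin_cases a
      · exact pureSt_isDensity hp hs1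
      · exact pureSt_isDensity hp hs2
    have hAvg := isEnsemble_avg_isDensity (isEnsemble_push hEns hΦ)
    set y : ℝ := (1 - γ) * p + γ * ν with hy
    have hdet : (∑ a : Fin 2, (((1 / 2 : ℝ)) : ℂ) • gadMap γ ν (![pureSt p 1, pureSt p (-1)] a)).det
        = ((y * (1 - y) : ℝ) : ℂ) := by
      rw [det_bool]
      simp only [Fin.sum_univ_two, Matrix.cons_val_zero, Matrix.cons_val_one, Matrix.add_apply,
        Matrix.smul_apply, smul_eq_mul]
      rw [gad_pure_ff _ hp hs1, gad_pure_ff _ hp hs2, gad_pure_tt _ hp hs1, gad_pure_tt _ hp hs2,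
        gad_pure_ft, gad_pure_ft, gad_pure_tf, gad_pure_tf, hy]
      push_cast
      ring
    unfold holevoInfo
    rw [vnEntropy_bool_binEntropy hAvg hdet]
    simp only [Fin.sum_univ_two, Matrix.cons_val_zero, Matrix.cons_val_one]
    rw [vnEntropy_gad_pure hγ hν 1 hp hs1, vnEntropy_gad_pure hγ hν (-1) hp hs2]
    unfold gadRate gadEnt gadV
    apply le_of_eq
    ring

end two

section mainD2

variable {γ ν : ℝ} (hγ : γ ∈ Set.Icc (0 : ℝ) 1) (hν : ν ∈ Set.Icc (0 : ℝ) 1)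
variable {d e : Type*} [Fintype d] [Fintype e] [DecidableEq d] [DecidableEq e]
variable {Ψ : Matrix d d ℂ → Matrix e e ℂ} (hΨ : IsChannel Ψ)
include hγ hν hΨ

/-- Part (4) of S0535. -/
theorem minEnt_tensor_le' {ρ₁ : Matrix Bool Bool ℂ} {ρ₂ : Matrix d d ℂ} (h₁ : IsDensity ρ₁)
    (h₂ : IsDensity ρ₂) :
    ∃ ρ : Matrix (Bool × d) (Bool × d) ℂ, IsDensity ρ ∧
      vnEntropy (qubitTensor (gadMap γ ν) Ψ ρ) ≤ vnEntropy (gadMap γ ν ρ₁) + vnEntropy (Ψ ρ₂) := by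
  refine ⟨ρ₁ ⊗ₖ ρ₂, IsDensity.kronecker h₁ h₂, le_of_eq ?_⟩
  rw [qubitTensor_kronecker γ ν hΨ.1,
    vnEntropy_kronecker_density (IsChannel.isDensity_apply (gadMap_isChannel hγ hν) h₁)
      (IsChannel.isDensity_apply hΨ h₂)]

/-- Product ensembles: Holevo informations add. -/
theorem holevo_tensor_ge' {m₁ m₂ : ℕ} (q₁ : Fin m₁ → ℝ) (ρ₁ : Fin m₁ → Matrix Bool Bool ℂ)
    (q₂ : Fin m₂ → ℝ) (ρ₂ : Fin m₂ → Matrix d d ℂ) (h₁ : IsEnsemble q₁ ρ₁) (h₂ : IsEnsemble q₂ ρ₂) :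
    ∃ (m : ℕ) (q : Fin m → ℝ) (ρ : Fin m → Matrix (Bool × d) (Bool × d) ℂ), IsEnsemble q ρ ∧
      holevoInfo (gadMap γ ν) q₁ ρ₁ + holevoInfo Ψ q₂ ρ₂ ≤
        holevoInfo (qubitTensor (gadMap γ ν) Ψ) q ρ := by
  have hΦ := gadMap_isChannel hγ hν
  let E : Fin m₁ × Fin m₂ ≃ Fin (m₁ * m₂) := finProdFinEquiv
  have hsum : ∀ f : Fin (m₁ * m₂) → ℝ, ∑ a, f a = ∑ i, ∑ j, f (E (i, j)) := by
    intro f
    rw [← E.sum_comp, Fintype.sum_prod_type]
  have hsumM : ∀ f : Fin (m₁ * m₂) → Matrix (Bool × e) (Bool × e) ℂ,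
      ∑ a, f a = ∑ i, ∑ j, f (E (i, j)) := by
    intro f
    rw [← E.sum_comp, Fintype.sum_prod_type]
  refine ⟨m₁ * m₂, fun a => q₁ (E.symm a).1 * q₂ (E.symm a).2,
    fun a => ρ₁ (E.symm a).1 ⊗ₖ ρ₂ (E.symm a).2, ⟨?_, ?_, ?_⟩, le_of_eq ?_⟩
  · exact fun a => mul_nonneg (h₁.1 _) (h₂.1 _)
  · rw [hsum]
    simp only [Equiv.symm_apply_apply, ← Finset.mul_sum, h₂.2.1, mul_one, h₁.2.1]
  · exact fun a => IsDensity.kronecker (h₁.2.2 _) (h₂.2.2 _)
  · unfold holevoInfo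
    have havg : ∑ a, ((q₁ (E.symm a).1 * q₂ (E.symm a).2 : ℝ) : ℂ) •
          qubitTensor (gadMap γ ν) Ψ (ρ₁ (E.symm a).1 ⊗ₖ ρ₂ (E.symm a).2)
        = (∑ i, ((q₁ i : ℝ) : ℂ) • gadMap γ ν (ρ₁ i)) ⊗ₖ (∑ j, ((q₂ j : ℝ) : ℂ) • Ψ (ρ₂ j)) := by
      rw [hsumM]
      simp only [Equiv.symm_apply_apply, qubitTensor_kronecker γ ν hΨ.1]
      ext ⟨s, i⟩ ⟨t, j⟩
      simp only [Matrix.sum_apply, Matrix.smul_apply, kroneckerMap_apply, smul_eq_mul,
        Finset.sum_mul_sum]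
      refine Finset.sum_congr rfl fun a _ => Finset.sum_congr rfl fun b _ => ?_
      push_cast
      ring
    have hAvg1 := isEnsemble_avg_isDensity (isEnsemble_push h₁ hΦ)
    have hAvg2 := isEnsemble_avg_isDensity (isEnsemble_push h₂ hΨ)
    have hent : ∀ a : Fin (m₁ * m₂), vnEntropy (qubitTensor (gadMap γ ν) Ψ
        (ρ₁ (E.symm a).1 ⊗ₖ ρ₂ (E.symm a).2))
        = vnEntropy (gadMap γ ν (ρ₁ (E.symm a).1)) + vnEntropy (Ψ (ρ₂ (E.symm a).2)) := by
      intro a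
      rw [qubitTensor_kronecker γ ν hΨ.1,
        vnEntropy_kronecker_density (IsChannel.isDensity_apply hΦ (h₁.2.2 _))
          (IsChannel.isDensity_apply hΨ (h₂.2.2 _))]
    rw [havg, vnEntropy_kronecker_density hAvg1 hAvg2]
    simp only [hent]
    rw [hsum]
    simp only [Equiv.symm_apply_apply]
    have hsplit : ∑ i, ∑ j, q₁ i * q₂ j * (vnEntropy (gadMap γ ν (ρ₁ i)) + vnEntropy (Ψ (ρ₂ j)))
        = ∑ i, q₁ i * vnEntropy (gadMap γ ν (ρ₁ i)) + ∑ j, q₂ j * vnEntropy (Ψ (ρ₂ j)) := by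
      have : ∀ i j, q₁ i * q₂ j * (vnEntropy (gadMap γ ν (ρ₁ i)) + vnEntropy (Ψ (ρ₂ j)))
          = q₂ j * (q₁ i * vnEntropy (gadMap γ ν (ρ₁ i))) + q₁ i * (q₂ j * vnEntropy (Ψ (ρ₂ j))) := by
        intro i j; ring
      simp only [this, Finset.sum_add_distrib, ← Finset.mul_sum, ← Finset.sum_mul, h₂.2.1, h₁.2.1,
        one_mul]
    rw [hsplit]
    ring

/-- For `σ` PSD with `tr σ = t > 0`, `τ = σ/t` is a density with `f(Ψσ) = t S(Ψτ)`. -/
theorem fEnt_channel_normalized {σ : Matrix d d ℂ} (hσ : σ.PosSemidef) (ht : 0 < rtr σ) :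
    ∃ τ : Matrix d d ℂ, IsDensity τ ∧ fEnt (Ψ σ) = rtr σ * vnEntropy (Ψ τ) := by
  set t := rtr σ with htdef
  have htc : ((t : ℝ) : ℂ) ≠ 0 := by exact_mod_cast ht.ne'
  have hτ : IsDensity (((t⁻¹ : ℝ) : ℂ) • σ) := by
    refine ⟨hσ.smul (by exact_mod_cast (inv_pos.mpr ht).le), ?_⟩
    rw [trace_smul, trace_eq_rtr hσ, ← htdef]
    simp only [smul_eq_mul]
    push_cast
    field_simp
  refine ⟨_, hτ, ?_⟩
  have hσeq : σ = ((t : ℝ) : ℂ) • (((t⁻¹ : ℝ) : ℂ) • σ) := by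
    rw [smul_smul]
    push_cast
    rw [mul_inv_cancel₀ htc, one_smul]
  have hΨσ : Ψ σ = ((t : ℝ) : ℂ) • Ψ (((t⁻¹ : ℝ) : ℂ) • σ) := by
    conv_lhs => rw [hσeq]
    rw [hΨ.1.map_smul]
  rw [hΨσ, fEnt_smul (IsChannel.posSemidef_apply hΨ hτ.1) ht.le,
    fEnt_density' (IsChannel.isDensity_apply hΨ hτ)]

/-- Part (3) of S0535, given the entropy lower bound. -/
theorem minEnt_tensor_ge' {ρ : Matrix (Bool × d) (Bool × d) ℂ} (hρ : IsDensity ρ)
    (hlow : gadEnt γ ν (rtr (block ρ true true)) + fEnt (Ψ (block ρ false false))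
        + fEnt (Ψ (block ρ true true))
      ≤ vnEntropy (qubitTensor (gadMap γ ν) Ψ ρ)) :
    ∃ (ρ₁ : Matrix Bool Bool ℂ) (ρ₂ : Matrix d d ℂ), IsDensity ρ₁ ∧ IsDensity ρ₂ ∧
      vnEntropy (gadMap γ ν ρ₁) + vnEntropy (Ψ ρ₂) ≤ vnEntropy (qubitTensor (gadMap γ ν) Ψ ρ) := by
  have h0 := posSemidef_block_self hρ.1 false
  have h1 := posSemidef_block_self hρ.1 true
  have hsum := rtr_block_add ρ
  rw [rtr_eq_one hρ] at hsum
  have ht0 := rtr_nonneg h0
  have ht1 := rtr_nonneg h1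
  have hp : rtr (block ρ true true) ∈ Set.Icc (0 : ℝ) 1 := ⟨ht1, by linarith⟩
  have hs1 : ((1 : ℝ)) ^ 2 = 1 := by norm_num
  have hpure := vnEntropy_gad_pure hγ hν 1 hp hs1
  have hden := pureSt_isDensity hp hs1
  have hzero : ∀ {σ : Matrix d d ℂ}, σ.PosSemidef → rtr σ = 0 → fEnt (Ψ σ) = 0 := by
    intro σ hσ h
    rw [eq_zero_of_rtr_eq_zero hσ h]
    have : Ψ 0 = 0 := hΨ.1.map_zero
    rw [this, fEnt_zero]
  have hone : ∀ {σ : Matrix d d ℂ}, σ.PosSemidef → rtr σ = 1 → IsDensity σ := by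
    intro σ hσ h
    refine ⟨hσ, ?_⟩
    rw [trace_eq_rtr hσ, h]
    simp
  rcases ht1.eq_or_lt with h10 | h1pos
  · -- `ρ_tt = 0`
    have hd0 := hone h0 (by linarith)
    refine ⟨_, _, hden, hd0, ?_⟩
    rw [hzero h1 h10.symm, fEnt_density' (IsChannel.isDensity_apply hΨ hd0)] at hlow
    rw [hpure]
    linarith
  rcases ht0.eq_or_lt with h00 | h0pos
  · -- `ρ_ff = 0`
    have hd1 := hone h1 (by linarith)
    refine ⟨_, _, hden, hd1, ?_⟩
    rw [hzero h0 h00.symm, fEnt_density' (IsChannel.isDensity_apply hΨ hd1)] at hlow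
    rw [hpure]
    linarith
  obtain ⟨τ₀, hτ₀, e0⟩ := fEnt_channel_normalized hγ hν hΨ h0 h0pos
  obtain ⟨τ₁, hτ₁, e1⟩ := fEnt_channel_normalized hγ hν hΨ h1 h1pos
  rw [e0, e1] at hlow
  rcases le_total (vnEntropy (Ψ τ₀)) (vnEntropy (Ψ τ₁)) with hle | hle
  · refine ⟨_, _, hden, hτ₀, ?_⟩
    rw [hpure]
    have h2 := mul_le_mul_of_nonneg_left hle ht1
    have h3 : vnEntropy (Ψ τ₀) = rtr (block ρ false false) * vnEntropy (Ψ τ₀)
        + rtr (block ρ true true) * vnEntropy (Ψ τ₀) := by rw [← add_mul, hsum, one_mul]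
    linarith
  · refine ⟨_, _, hden, hτ₁, ?_⟩
    rw [hpure]
    have h2 := mul_le_mul_of_nonneg_left hle ht0
    have h3 : vnEntropy (Ψ τ₁) = rtr (block ρ false false) * vnEntropy (Ψ τ₁)
        + rtr (block ρ true true) * vnEntropy (Ψ τ₁) := by rw [← add_mul, hsum, one_mul]
    linarith

end mainD2

end Crest.Agent.GADC
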