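import Crest.Agent.Lib.GADC.MainD1
import Crest.Agent.Lib.GADC.MainD2

/-!
# Additivity: from K-Z to Holevo/minimum entropy statements.

Notation: `Φ = gadMap γ ν`, `ω = (Φ⊗Ψ)ρ`, `p = tr ρ_tt`, `y(p) = (1-γ)p + γν`.
-/

set_option autoImplicit false

namespace Crest.Agent.GADC

open Matrix Crest.Quantum Crest.MathPhysics.AmpDamp
open scoped ComplexOrder

section
variable {γ ν : ℝ} (hγ : γ ∈ Set.Icc (0 : ℝ) 1) (hν : ν ∈ Set.Icc (0 : ℝ) 1)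
variable {d e : Type*} [Fintype d] [Fintype e] [DecidableEq d] [DecidableEq e] [Nonempty d] [Nonempty e]
variable {Ψ : Matrix d d ℂ → Matrix e e ℂ} (hΨ : IsChannel Ψ)
include hγ hν hΨ

/-- Lower bound on output entropies: `S(ω) ≥ ℰ(p) + f(Ψρ_ff) + f(Ψρ_tt)`. -/
theorem entropy_lower_bound {ρ : Matrix (Bool × d) (Bool × d) ℂ} (hρ : IsDensity ρ) :
    gadEnt γ ν (rtr (block ρ true true)) + fEnt (Ψ (block ρ false false))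
        + fEnt (Ψ (block ρ true true))
      ≤ vnEntropy (qubitTensor (gadMap γ ν) Ψ ρ) :=
  entropy_lower_bound_aux hγ hν hΨ hρ

/-- Upper bound on output entropies: `S(ω) ≤ h(y(p)) + S(Ψ(ρ_ff + ρ_tt))`. -/
theorem entropy_upper_bound {ρ : Matrix (Bool × d) (Bool × d) ℂ} (hρ : IsDensity ρ) :
    vnEntropy (qubitTensor (gadMap γ ν) Ψ ρ) ≤
      Real.binEntropy ((1 - γ) * rtr (block ρ true true) + γ * ν)
        + vnEntropy (Ψ (block ρ false false + block ρ true true)) :=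
  entropy_upper_bound_aux hγ hν hΨ hρ

/-- Main reduction: Holevo information of `Φ⊗Ψ` is at most the rate at some `p` plus a Holevo
information of `Ψ`. -/
theorem holevo_tensor_le {m : ℕ} (q : Fin m → ℝ) (ρ : Fin m → Matrix (Bool × d) (Bool × d) ℂ)
    (hens : IsEnsemble q ρ) :
    ∃ p ∈ Set.Icc (0 : ℝ) 1, ∃ (m₂ : ℕ) (q₂ : Fin m₂ → ℝ) (ρ₂ : Fin m₂ → Matrix d d ℂ),
      IsEnsemble q₂ ρ₂ ∧
      holevoInfo (qubitTensor (gadMap γ ν) Ψ) q ρ ≤ gadRate γ ν p + holevoInfo Ψ q₂ ρ₂ :=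
  holevo_tensor_le_aux hγ hν hΨ q ρ hens

/-- Product ensembles: Holevo informations add. -/
theorem holevo_tensor_ge {m₁ m₂ : ℕ} (q₁ : Fin m₁ → ℝ) (ρ₁ : Fin m₁ → Matrix Bool Bool ℂ)
    (q₂ : Fin m₂ → ℝ) (ρ₂ : Fin m₂ → Matrix d d ℂ) (h₁ : IsEnsemble q₁ ρ₁) (h₂ : IsEnsemble q₂ ρ₂) :
    ∃ (m : ℕ) (q : Fin m → ℝ) (ρ : Fin m → Matrix (Bool × d) (Bool × d) ℂ), IsEnsemble q ρ ∧
      holevoInfo (gadMap γ ν) q₁ ρ₁ + holevoInfo Ψ q₂ ρ₂ ≤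
        holevoInfo (qubitTensor (gadMap γ ν) Ψ) q ρ := by
  exact holevo_tensor_ge' hγ hν hΨ q₁ ρ₁ q₂ ρ₂ h₁ h₂

/-- Part (3) of S0535. -/
theorem minEnt_tensor_ge {ρ : Matrix (Bool × d) (Bool × d) ℂ} (hρ : IsDensity ρ) :
    ∃ (ρ₁ : Matrix Bool Bool ℂ) (ρ₂ : Matrix d d ℂ), IsDensity ρ₁ ∧ IsDensity ρ₂ ∧
      vnEntropy (gadMap γ ν ρ₁) + vnEntropy (Ψ ρ₂) ≤ vnEntropy (qubitTensor (gadMap γ ν) Ψ ρ) := by
  exact minEnt_tensor_ge' hγ hν hΨ hρ (entropy_lower_bound hγ hν hΨ hρ)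

/-- Part (4) of S0535. -/
theorem minEnt_tensor_le {ρ₁ : Matrix Bool Bool ℂ} {ρ₂ : Matrix d d ℂ} (h₁ : IsDensity ρ₁)
    (h₂ : IsDensity ρ₂) :
    ∃ ρ : Matrix (Bool × d) (Bool × d) ℂ, IsDensity ρ ∧
      vnEntropy (qubitTensor (gadMap γ ν) Ψ ρ) ≤ vnEntropy (gadMap γ ν ρ₁) + vnEntropy (Ψ ρ₂) := by
  exact minEnt_tensor_le' hγ hν hΨ h₁ h₂

end

/-- The rate at `p` is achieved by a two-state ensemble for `Φ`. -/
theorem gadRate_achieved {γ ν : ℝ} (hγ : γ ∈ Set.Icc (0 : ℝ) 1) (hν : ν ∈ Set.Icc (0 : ℝ) 1)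
    {p : ℝ} (hp : p ∈ Set.Icc (0 : ℝ) 1) :
    ∃ (q : Fin 2 → ℝ) (ρ : Fin 2 → Matrix Bool Bool ℂ), IsEnsemble q ρ ∧
      gadRate γ ν p ≤ holevoInfo (gadMap γ ν) q ρ := by
  exact gadRate_achieved' hγ hν hp

end Crest.Agent.GADC
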