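import Crest.Agent.Lib.GADC.KZ
import Crest.Agent.Lib.GADC.Channel

/-!
# Part D1 of the additivity reduction: entropy bounds and the Holevo reduction (helper48).
-/

set_option autoImplicit false

namespace Crest.Agent.GADC

open Matrix Crest.Quantum Crest.MathPhysics.AmpDamp
open scoped ComplexOrder

section basics
variable {e : Type*} [Fintype e] [DecidableEq e]

theorem fromBlocks_eq_submatrix_ofBlocks (W : Bool → Bool → Matrix e e ℂ) :
    fromBlocks (W false false) (W false true) (W true false) (W true true)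
      = (ofBlocks W).submatrix (Equiv.boolProdEquivSum e).symm (Equiv.boolProdEquivSum e).symm := by
  ext i j
  rcases i with i | i <;> rcases j with j | j <;> simp [ofBlocks, Equiv.boolProdEquivSum]

theorem posSemidef_fromBlocks_of_ofBlocks {W : Bool → Bool → Matrix e e ℂ}
    (h : (ofBlocks W).PosSemidef) :
    (fromBlocks (W false false) (W false true) (W true false) (W true true)).PosSemidef := by
  rw [fromBlocks_eq_submatrix_ofBlocks]
  exact h.submatrix _

theorem psd_smul {A : Matrix e e ℂ} (hA : A.PosSemidef) {c : ℝ} (hc : 0 ≤ c) :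
    ((c : ℂ) • A).PosSemidef := by
  apply hA.smul
  exact_mod_cast hc

end basics

section
variable {γ ν : ℝ} (hγ : γ ∈ Set.Icc (0 : ℝ) 1) (hν : ν ∈ Set.Icc (0 : ℝ) 1)
variable {d e : Type*} [Fintype d] [Fintype e] [DecidableEq d] [DecidableEq e] [Nonempty d] [Nonempty e]
variable {Ψ : Matrix d d ℂ → Matrix e e ℂ} (hΨ : IsChannel Ψ)
include hγ hν hΨ

theorem entropy_lower_bound_aux {ρ : Matrix (Bool × d) (Bool × d) ℂ} (hρ : IsDensity ρ) :
    gadEnt γ ν (rtr (block ρ true true)) + fEnt (Ψ (block ρ false false))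
        + fEnt (Ψ (block ρ true true))
      ≤ vnEntropy (qubitTensor (gadMap γ ν) Ψ ρ) := by
  have hτ := IsChannel.posSemidef_blocks hΨ hρ.1
  have htr : rtr (Ψ (block ρ false false)) + rtr (Ψ (block ρ true true)) = 1 := by
    rw [IsChannel.rtr_apply hΨ, IsChannel.rtr_apply hΨ, rtr_block_add]
    simp [rtr, hρ.2]
  have h := kZ hγ hν (fun s t => Ψ (block ρ s t)) hτ htr
  rw [qubitTensor_gad]
  simp only [IsChannel.rtr_apply hΨ] at h
  exact h

theorem entropy_upper_bound_aux {ρ : Matrix (Bool × d) (Bool × d) ℂ} (hρ : IsDensity ρ) :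
    vnEntropy (qubitTensor (gadMap γ ν) Ψ ρ) ≤
      Real.binEntropy ((1 - γ) * rtr (block ρ true true) + γ * ν)
        + vnEntropy (Ψ (block ρ false false + block ρ true true)) := by
  obtain ⟨hγ0, hγ1⟩ := hγ
  obtain ⟨hν0, hν1⟩ := hν
  have hω : (qubitTensor (gadMap γ ν) Ψ ρ).PosSemidef :=
    IsChannel.posSemidef_apply (isChannel_qubitTensor ⟨hγ0, hγ1⟩ ⟨hν0, hν1⟩ hΨ) hρ.1
  rw [qubitTensor_gad] at hω ⊢
  rw [vnEntropy_ofBlocks]
  have hfb := posSemidef_fromBlocks_of_ofBlocks hω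
  set P := Ψ (block ρ false false) with hP
  set Q := Ψ (block ρ true true) with hQ
  have hPp : P.PosSemidef := IsChannel.posSemidef_apply hΨ (posSemidef_block_self hρ.1 _)
  have hQp : Q.PosSemidef := IsChannel.posSemidef_apply hΨ (posSemidef_block_self hρ.1 _)
  have e00 : gadOut γ ν (fun s t => Ψ (block ρ s t)) false false =
      ((1 - γ * ν : ℝ) : ℂ) • P + ((γ * (1 - ν) : ℝ) : ℂ) • Q := rfl
  have e11 : gadOut γ ν (fun s t => Ψ (block ρ s t)) true true =
      ((γ * ν : ℝ) : ℂ) • P + ((1 - γ + γ * ν : ℝ) : ℂ) • Q := rfl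
  rw [e00, e11] at hfb ⊢
  have hgn : γ * ν ≤ 1 := by nlinarith
  have hA : (((1 - γ * ν : ℝ) : ℂ) • P + ((γ * (1 - ν) : ℝ) : ℂ) • Q).PosSemidef :=
    (psd_smul hPp (by linarith)).add (psd_smul hQp (mul_nonneg hγ0 (by linarith)))
  have hB : (((γ * ν : ℝ) : ℂ) • P + ((1 - γ + γ * ν : ℝ) : ℂ) • Q).PosSemidef :=
    (psd_smul hPp (mul_nonneg hγ0 hν0)).add
      (psd_smul hQp (by nlinarith [mul_nonneg hγ0 hν0]))
  have hpin := vnEntropy_fromBlocks_le hfb hA.1 hB.1
  refine hpin.trans ?_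
  -- traces
  have htP : rtr P = rtr (block ρ false false) := IsChannel.rtr_apply hΨ _
  have htQ : rtr Q = rtr (block ρ true true) := IsChannel.rtr_apply hΨ _
  have hsum : rtr (block ρ false false) + rtr (block ρ true true) = 1 := by
    rw [rtr_block_add]; simp [rtr, hρ.2]
  set p := rtr (block ρ true true) with hp
  have hPt : rtr P = 1 - p := by rw [htP]; linarith
  have hQt : rtr Q = p := htQ
  set y := (1 - γ) * p + γ * ν with hy
  have htA : rtr (((1 - γ * ν : ℝ) : ℂ) • P + ((γ * (1 - ν) : ℝ) : ℂ) • Q) = 1 - y := by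
    rw [rtr_add, rtr_smul, rtr_smul, hPt, hQt, hy]; ring
  have htB : rtr (((γ * ν : ℝ) : ℂ) • P + ((1 - γ + γ * ν : ℝ) : ℂ) • Q) = y := by
    rw [rtr_add, rtr_smul, rtr_smul, hPt, hQt, hy]; ring
  have hsup := fEnt_add_ge hA hB
  have hAB : ((((1 - γ * ν : ℝ) : ℂ) • P + ((γ * (1 - ν) : ℝ) : ℂ) • Q) +
      (((γ * ν : ℝ) : ℂ) • P + ((1 - γ + γ * ν : ℝ) : ℂ) • Q)) = Ψ (block ρ false false + block ρ true true) := by
    rw [hΨ.1.map_add, ← hP, ← hQ]
    have h1 : ((1 - γ * ν : ℝ) : ℂ) + ((γ * ν : ℝ) : ℂ) = 1 := by push_cast; ring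
    have h2 : ((γ * (1 - ν) : ℝ) : ℂ) + ((1 - γ + γ * ν : ℝ) : ℂ) = 1 := by push_cast; ring
    calc _ = (((1 - γ * ν : ℝ) : ℂ) + ((γ * ν : ℝ) : ℂ)) • P
          + (((γ * (1 - ν) : ℝ) : ℂ) + ((1 - γ + γ * ν : ℝ) : ℂ)) • Q := by
            simp only [add_smul]; abel
      _ = _ := by rw [h1, h2, one_smul, one_smul]
  have htAB : rtr (Ψ (block ρ false false + block ρ true true)) = 1 := by
    rw [← hAB, rtr_add, htA, htB]; ring
  have hf : fEnt (Ψ (block ρ false false + block ρ true true)) =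
      vnEntropy (Ψ (block ρ false false + block ρ true true)) := by
    unfold fEnt; rw [htAB]; simp
  rw [hAB, hf] at hsup
  unfold fEnt at hsup
  rw [htA, htB] at hsup
  have hbin : Real.binEntropy y = -((1 - y) * Real.log (1 - y)) - y * Real.log y := by
    rw [Real.binEntropy_eq_negMulLog_add_negMulLog_one_sub]
    simp only [Real.negMulLog]
    ring
  rw [hbin]
  linarith

end

section ensemble
variable {d e : Type*} [Fintype d] [Fintype e] [DecidableEq d] [DecidableEq e] [Nonempty d]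

omit [Fintype e] [DecidableEq e] in
theorem exists_density : ∃ σ : Matrix d d ℂ, IsDensity σ := by
  refine ⟨(((Fintype.card d : ℝ)⁻¹ : ℝ) : ℂ) • (1 : Matrix d d ℂ), ?_, ?_⟩
  · exact psd_smul PosSemidef.one (by positivity)
  · have hne : (Fintype.card d : ℂ) ≠ 0 := by
      exact_mod_cast Fintype.card_ne_zero
    simp only [trace_smul, trace_one, smul_eq_mul]
    push_cast
    field_simp

omit [Fintype d] [DecidableEq d] [Fintype e] [DecidableEq e] [Nonempty d] in
theorem map_smul_of_linear {Ψ : Matrix d d ℂ → Matrix e e ℂ} (hΨ : IsLinearMap ℂ Ψ) (c : ℂ)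
    (M : Matrix d d ℂ) : Ψ (c • M) = c • Ψ M := hΨ.map_smul c M

omit [DecidableEq d] [DecidableEq e] [Nonempty d] in
theorem map_sum_of_linear {Ψ : Matrix d d ℂ → Matrix e e ℂ} (hΨ : IsLinearMap ℂ Ψ) {ι : Type*}
    (s : Finset ι) (M : ι → Matrix d d ℂ) : Ψ (∑ i ∈ s, M i) = ∑ i ∈ s, Ψ (M i) :=
  map_sum (hΨ.mk' Ψ) M s

omit [DecidableEq d] [Nonempty d] [Fintype e] [DecidableEq e] in
theorem rtr_sum {ι : Type*} (s : Finset ι) (M : ι → Matrix d d ℂ) :
    rtr (∑ i ∈ s, M i) = ∑ i ∈ s, rtr (M i) := by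
  simp [rtr, Matrix.trace_sum]

omit [Fintype d] [DecidableEq d] [Nonempty d] [Fintype e] [DecidableEq e] in
theorem posSemidef_sum' {ι : Type*} [Fintype d] (s : Finset ι) {M : ι → Matrix d d ℂ}
    (h : ∀ i ∈ s, (M i).PosSemidef) : (∑ i ∈ s, M i).PosSemidef := by
  classical
  induction s using Finset.induction_on with
  | empty => simpa using PosSemidef.zero
  | insert a s ha ih =>
    rw [Finset.sum_insert ha]
    exact (h a (Finset.mem_insert_self _ _)).add
      (ih fun i hi => h i (Finset.mem_insert_of_mem hi))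

/-- A family of PSD matrices of total trace one gives a Holevo ensemble for `Ψ` whose output-entropy
average is the sum of the homogeneous functionals `f`. -/
theorem exists_ensemble_of_psd {Ψ : Matrix d d ℂ → Matrix e e ℂ} (hΨ : IsChannel Ψ)
    {ι : Type*} [Fintype ι] (X : ι → Matrix d d ℂ) (hX : ∀ i, (X i).PosSemidef)
    (hsum : ∑ i, rtr (X i) = 1) :
    ∃ (m₂ : ℕ) (q₂ : Fin m₂ → ℝ) (ρ₂ : Fin m₂ → Matrix d d ℂ), IsEnsemble q₂ ρ₂ ∧
      holevoInfo Ψ q₂ ρ₂ = vnEntropy (Ψ (∑ i, X i)) - ∑ i, fEnt (Ψ (X i)) := by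
  classical
  obtain ⟨σ₀, hσ₀⟩ := exists_density (d := d)
  let t : ι → ℝ := fun i => rtr (X i)
  have ht0 : ∀ i, 0 ≤ t i := fun i => rtr_nonneg (hX i)
  let σ : ι → Matrix d d ℂ := fun i => if t i = 0 then σ₀ else ((t i)⁻¹ : ℝ) • X i
  have hσ : ∀ i, IsDensity (σ i) := by
    intro i
    by_cases hi : t i = 0
    · simp only [σ, hi, if_true]; exact hσ₀
    · have hi' : ((t i : ℝ) : ℂ) ≠ 0 := by exact_mod_cast hi
      simp only [σ, hi, if_false]
      have e1 : ((t i)⁻¹ : ℝ) • X i = (((t i)⁻¹ : ℝ) : ℂ) • X i := by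
        ext a b; simp
      rw [e1]
      refine ⟨psd_smul (hX i) (inv_nonneg.mpr (ht0 i)), ?_⟩
      rw [trace_smul, trace_eq_rtr (hX i)]
      simp only [smul_eq_mul, t] at hi' ⊢
      push_cast
      field_simp
  have hXσ : ∀ i, (t i : ℂ) • σ i = X i := by
    intro i
    by_cases hi : t i = 0
    · have : X i = 0 := eq_zero_of_rtr_eq_zero (hX i) hi
      simp [hi, this]
    · have hi' : ((t i : ℝ) : ℂ) ≠ 0 := by exact_mod_cast hi
      simp only [σ, hi, if_false]
      ext a b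
      simp only [Matrix.smul_apply, Complex.real_smul, smul_eq_mul]
      push_cast
      field_simp
  have hΨσ : ∀ i, t i * vnEntropy (Ψ (σ i)) = fEnt (Ψ (X i)) := by
    intro i
    rw [← hXσ i, map_smul_of_linear hΨ.1, fEnt_smul (IsChannel.posSemidef_apply hΨ (hσ i).1) (ht0 i)]
    have h1 : rtr (Ψ (σ i)) = 1 := by
      rw [IsChannel.rtr_apply hΨ]; simp [rtr, (hσ i).2]
    simp [fEnt, h1]
  let eq := Fintype.equivFin ι
  refine ⟨Fintype.card ι, fun b => t (eq.symm b), fun b => σ (eq.symm b),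
    ⟨fun b => ht0 _, ?_, fun b => hσ _⟩, ?_⟩
  · rw [eq.symm.sum_comp t]; exact hsum
  · unfold holevoInfo
    rw [eq.symm.sum_comp (fun i => (t i : ℂ) • Ψ (σ i)),
      eq.symm.sum_comp (fun i => t i * vnEntropy (Ψ (σ i)))]
    have e1 : ∑ i, (t i : ℂ) • Ψ (σ i) = Ψ (∑ i, X i) := by
      rw [map_sum_of_linear hΨ.1]
      refine Finset.sum_congr rfl fun i _ => ?_
      rw [← map_smul_of_linear hΨ.1, hXσ]
    rw [e1]
    congr 1
    exact Finset.sum_congr rfl fun i _ => hΨσ i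

end ensemble

section
variable {γ ν : ℝ} (hγ : γ ∈ Set.Icc (0 : ℝ) 1) (hν : ν ∈ Set.Icc (0 : ℝ) 1)
variable {d e : Type*} [Fintype d] [Fintype e] [DecidableEq d] [DecidableEq e] [Nonempty d] [Nonempty e]
variable {Ψ : Matrix d d ℂ → Matrix e e ℂ} (hΨ : IsChannel Ψ)
include hγ hν hΨ

theorem holevo_tensor_le_aux {m : ℕ} (q : Fin m → ℝ) (ρ : Fin m → Matrix (Bool × d) (Bool × d) ℂ)
    (hens : IsEnsemble q ρ) :
    ∃ p ∈ Set.Icc (0 : ℝ) 1, ∃ (m₂ : ℕ) (q₂ : Fin m₂ → ℝ) (ρ₂ : Fin m₂ → Matrix d d ℂ),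
      IsEnsemble q₂ ρ₂ ∧
      holevoInfo (qubitTensor (gadMap γ ν) Ψ) q ρ ≤ gadRate γ ν p + holevoInfo Ψ q₂ ρ₂ := by
  classical
  obtain ⟨hq0, hq1, hden⟩ := hens
  have hΦ := isChannel_qubitTensor hγ hν hΨ
  set Φ := qubitTensor (gadMap γ ν) Ψ with hΦdef
  -- the average state
  set ρb : Matrix (Bool × d) (Bool × d) ℂ := ∑ a, (q a : ℂ) • ρ a with hρb
  have hΦsum : ∑ a, (q a : ℂ) • Φ (ρ a) = Φ ρb := by
    rw [hρb, map_sum_of_linear hΦ.1]
    exact Finset.sum_congr rfl fun a _ => (map_smul_of_linear hΦ.1 _ _).symm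
  have hρbd : IsDensity ρb := by
    refine ⟨posSemidef_sum' _ fun a _ => psd_smul (hden a).1 (hq0 a), ?_⟩
    rw [hρb, Matrix.trace_sum]
    simp only [trace_smul, (hden _).2, smul_eq_mul, mul_one]
    rw [← Complex.ofReal_sum, hq1]; simp
  have hblock : ∀ s t, block ρb s t = ∑ a, (q a : ℂ) • block (ρ a) s t := by
    intro s t
    ext i j
    simp [block, hρb, Matrix.sum_apply]
  -- populations
  let P : Fin m → ℝ := fun a => rtr (block (ρ a) true true)
  have hP0 : ∀ a, 0 ≤ P a := fun a => rtr_nonneg (posSemidef_block_self (hden a).1 _)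
  have hrtr1 : ∀ a, rtr (block (ρ a) false false) + rtr (block (ρ a) true true) = 1 := by
    intro a
    rw [rtr_block_add]; simp [rtr, (hden a).2]
  have hP1 : ∀ a, P a ≤ 1 := by
    intro a
    have := rtr_nonneg (posSemidef_block_self (hden a).1 false)
    have h2 := hrtr1 a
    simp only [P]; linarith
  have hPmem : ∀ a, P a ∈ Set.Icc (0 : ℝ) 1 := fun a => ⟨hP0 a, hP1 a⟩
  have hpb : rtr (block ρb true true) = ∑ a, q a • P a := by
    rw [hblock, rtr_sum]
    refine Finset.sum_congr rfl fun a _ => ?_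
    rw [rtr_smul]; simp [P]
  set pb := rtr (block ρb true true) with hpbdef
  have hpbmem : pb ∈ Set.Icc (0 : ℝ) 1 := by
    have hh0 := rtr_nonneg (posSemidef_block_self hρbd.1 false)
    have hh1 := rtr_nonneg (posSemidef_block_self hρbd.1 true)
    have hh2 : rtr (block ρb false false) + rtr (block ρb true true) = 1 := by
      rw [rtr_block_add]; simp [rtr, hρbd.2]
    exact ⟨hh1, by linarith⟩
  -- Jensen
  have hJ : gadEnt γ ν pb ≤ ∑ a, q a * gadEnt γ ν (P a) := by
    have := (gadEnt_convex hγ hν).map_sum_le (t := Finset.univ) (w := q) (p := P)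
      (fun a _ => hq0 a) hq1 (fun a _ => hPmem a)
    rw [hpb]
    simpa [smul_eq_mul] using this
  -- the ensemble for `Ψ`
  let X : Fin m × Bool → Matrix d d ℂ := fun x => (q x.1 : ℂ) • block (ρ x.1) x.2 x.2
  have hX : ∀ x, (X x).PosSemidef := fun x => psd_smul (posSemidef_block_self (hden x.1).1 _) (hq0 _)
  have hXsum : ∑ x, rtr (X x) = 1 := by
    rw [Fintype.sum_prod_type]
    simp only [Fintype.sum_bool, X, rtr_smul]
    rw [← hq1]
    refine Finset.sum_congr rfl fun a _ => ?_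
    have := hrtr1 a
    rw [← mul_add, add_comm, this, mul_one]
  obtain ⟨m₂, q₂, ρ₂, hens₂, hhol⟩ := exists_ensemble_of_psd hΨ X hX hXsum
  refine ⟨pb, hpbmem, m₂, q₂, ρ₂, hens₂, ?_⟩
  have hXtot : ∑ x, X x = block ρb false false + block ρb true true := by
    rw [Fintype.sum_prod_type, hblock, hblock, ← Finset.sum_add_distrib]
    simp only [Fintype.sum_bool, X]
    exact Finset.sum_congr rfl fun a _ => add_comm _ _
  have hXf : ∑ x, fEnt (Ψ (X x)) = ∑ a, q a * (fEnt (Ψ (block (ρ a) false false))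
      + fEnt (Ψ (block (ρ a) true true))) := by
    rw [Fintype.sum_prod_type]
    simp only [Fintype.sum_bool, X]
    refine Finset.sum_congr rfl fun a _ => ?_
    rw [map_smul_of_linear hΨ.1, map_smul_of_linear hΨ.1,
      fEnt_smul (IsChannel.posSemidef_apply hΨ (posSemidef_block_self (hden a).1 _)) (hq0 a),
      fEnt_smul (IsChannel.posSemidef_apply hΨ (posSemidef_block_self (hden a).1 _)) (hq0 a)]
    ring
  rw [hhol, hXtot, hXf]
  unfold holevoInfo
  rw [hΦsum]
  have hup := entropy_upper_bound_aux hγ hν hΨ hρbd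
  have hlow : ∑ a, q a * (gadEnt γ ν (P a) + fEnt (Ψ (block (ρ a) false false))
      + fEnt (Ψ (block (ρ a) true true))) ≤ ∑ a, q a * vnEntropy (Φ (ρ a)) := by
    refine Finset.sum_le_sum fun a _ => mul_le_mul_of_nonneg_left ?_ (hq0 a)
    exact entropy_lower_bound_aux hγ hν hΨ (hden a)
  have hsplit : ∑ a, q a * (gadEnt γ ν (P a) + fEnt (Ψ (block (ρ a) false false))
      + fEnt (Ψ (block (ρ a) true true))) = ∑ a, q a * gadEnt γ ν (P a)
        + ∑ a, q a * (fEnt (Ψ (block (ρ a) false false)) + fEnt (Ψ (block (ρ a) true true))) := by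
    rw [← Finset.sum_add_distrib]
    exact Finset.sum_congr rfl fun a _ => by ring
  rw [hsplit] at hlow
  have hrate : gadRate γ ν pb = Real.binEntropy ((1 - γ) * pb + γ * ν) - gadEnt γ ν pb := rfl
  rw [hrate]
  linarith

end

end Crest.Agent.GADC
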