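import Crest.Agent.Lib.GADC.Defs

/-!
# Spectra of Hermitian matrices: sums of functions of the eigenvalues.
-/

set_option autoImplicit false

namespace Crest.Agent.GADC

open Matrix Polynomial Crest.Quantum
open scoped ComplexOrder Kronecker

section
variable {n m ι : Type*} [Fintype n] [DecidableEq n] [Fintype m] [DecidableEq m] [Fintype ι]

theorem vnEntropy_eq_sum {A : Matrix n n ℂ} (hA : A.IsHermitian) :
    vnEntropy A = ∑ i, Real.negMulLog (hA.eigenvalues i) := by
  unfold vnEntropy
  rw [dif_pos hA, ← Finset.sum_neg_distrib]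
  simp [Real.negMulLog]

/-- The eigenvalue multiset is determined by the characteristic polynomial. -/
theorem sum_eig_eq_of_charpoly {A : Matrix n n ℂ} (hA : A.IsHermitian) (d : ι → ℝ)
    (hc : A.charpoly = ∏ i, (X - C ((d i : ℝ) : ℂ))) (φ : ℝ → ℝ) :
    ∑ i, φ (hA.eigenvalues i) = ∑ i, φ (d i) := by
  have h1 := hA.roots_charpoly_eq_eigenvalues
  have h2 : A.charpoly.roots = Multiset.map (fun i => ((d i : ℝ) : ℂ)) Finset.univ.val := by
    rw [hc, Polynomial.roots_prod]
    · simp
    · simp [Finset.prod_ne_zero_iff, Polynomial.X_sub_C_ne_zero]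
  rw [h2] at h1
  have h3 := congrArg (Multiset.map (fun z : ℂ => φ z.re)) h1
  simp only [Multiset.map_map, Function.comp_def] at h3
  have h4 : (Finset.univ.val.map fun i => φ (d i)).sum
      = (Finset.univ.val.map fun i => φ (hA.eigenvalues i)).sum := by
    have : (fun i => φ ((d i : ℝ) : ℂ).re) = fun i => φ (d i) := by
      funext i; simp
    rw [this] at h3
    have h5 : (fun i => φ ((RCLike.ofReal (hA.eigenvalues i) : ℂ)).re)
        = fun i => φ (hA.eigenvalues i) := by
      funext i; simp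
    rw [h5] at h3
    rw [h3]
  exact h4.symm

theorem charpoly_eq_prod_eigenvalues {A : Matrix n n ℂ} (hA : A.IsHermitian) :
    A.charpoly = ∏ i, (X - C ((hA.eigenvalues i : ℝ) : ℂ)) := by
  simpa using hA.charpoly_eq

/-- Two Hermitian matrices with the same characteristic polynomial have the same spectral sums. -/
theorem sum_eig_eq_of_charpoly_eq {A : Matrix n n ℂ} {B : Matrix m m ℂ} (hA : A.IsHermitian)
    (hB : B.IsHermitian) (h : A.charpoly = B.charpoly) (φ : ℝ → ℝ) :
    ∑ i, φ (hA.eigenvalues i) = ∑ i, φ (hB.eigenvalues i) :=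
  sum_eig_eq_of_charpoly hA _ (h.trans (charpoly_eq_prod_eigenvalues hB)) φ

/-- Spectral form of a Hermitian matrix. -/
theorem eq_unitary_diag {A : Matrix n n ℂ} (hA : A.IsHermitian) :
    A = (hA.eigenvectorUnitary : Matrix n n ℂ) * diagonal (fun i => ((hA.eigenvalues i : ℝ) : ℂ))
      * star (hA.eigenvectorUnitary : Matrix n n ℂ) := by
  conv_lhs => rw [hA.spectral_theorem]
  simp [Unitary.conjStarAlgAut_apply, Function.comp_def]

/-- Charpoly of a unitary conjugate of a diagonal matrix. -/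
theorem charpoly_unitary_diag {U : Matrix n n ℂ} (hU : star U * U = 1) (d : n → ℂ) :
    (U * diagonal d * star U).charpoly = ∏ i, (X - C (d i)) := by
  rw [charpoly_mul_comm, ← mul_assoc, hU, one_mul, charpoly_diagonal]

theorem sum_eig_smul {A : Matrix n n ℂ} (hA : A.IsHermitian) (c : ℝ)
    (hcA : ((c : ℂ) • A).IsHermitian) (φ : ℝ → ℝ) :
    ∑ i, φ (hcA.eigenvalues i) = ∑ i, φ (c * hA.eigenvalues i) := by
  refine sum_eig_eq_of_charpoly hcA _ ?_ φ
  have hU : star (hA.eigenvectorUnitary : Matrix n n ℂ) * (hA.eigenvectorUnitary : Matrix n n ℂ) = 1 :=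
    Unitary.coe_star_mul_self _
  have : (c : ℂ) • A = (hA.eigenvectorUnitary : Matrix n n ℂ) *
      diagonal (fun i => ((c * hA.eigenvalues i : ℝ) : ℂ)) * star (hA.eigenvectorUnitary : Matrix n n ℂ) := by
    conv_lhs => rw [eq_unitary_diag hA]
    have h2 : diagonal (fun i => ((c * hA.eigenvalues i : ℝ) : ℂ))
        = (c : ℂ) • diagonal (fun i => ((hA.eigenvalues i : ℝ) : ℂ)) := by
      ext i j
      by_cases hij : i = j
      · subst hij; simp
      · simp [hij]
    rw [h2]
    simp
  rw [this, charpoly_unitary_diag hU]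

theorem sum_eig_add_scalar {A : Matrix n n ℂ} (hA : A.IsHermitian) (c : ℝ)
    (hcA : (A + (c : ℂ) • (1 : Matrix n n ℂ)).IsHermitian) (φ : ℝ → ℝ) :
    ∑ i, φ (hcA.eigenvalues i) = ∑ i, φ (hA.eigenvalues i + c) := by
  refine sum_eig_eq_of_charpoly hcA _ ?_ φ
  have hU : star (hA.eigenvectorUnitary : Matrix n n ℂ) * (hA.eigenvectorUnitary : Matrix n n ℂ) = 1 :=
    Unitary.coe_star_mul_self _
  have hU' : (hA.eigenvectorUnitary : Matrix n n ℂ) * star (hA.eigenvectorUnitary : Matrix n n ℂ) = 1 :=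
    Unitary.coe_mul_star_self _
  have : A + (c : ℂ) • (1 : Matrix n n ℂ) = (hA.eigenvectorUnitary : Matrix n n ℂ) *
      diagonal (fun i => ((hA.eigenvalues i + c : ℝ) : ℂ)) * star (hA.eigenvectorUnitary : Matrix n n ℂ) := by
    have h2 : diagonal (fun i => ((hA.eigenvalues i + c : ℝ) : ℂ))
        = diagonal (fun i => ((hA.eigenvalues i : ℝ) : ℂ)) + (c : ℂ) • (1 : Matrix n n ℂ) := by
      ext i j
      by_cases hij : i = j
      · subst hij; simp
      · simp [hij]
    rw [h2, Matrix.mul_add, Matrix.add_mul, ← eq_unitary_diag hA]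
    simp [hU']
  rw [this, charpoly_unitary_diag hU]

theorem sum_eig_reindex {A : Matrix n n ℂ} (hA : A.IsHermitian) (e : n ≃ m)
    (hB : (reindex e e A).IsHermitian) (φ : ℝ → ℝ) :
    ∑ i, φ (hB.eigenvalues i) = ∑ i, φ (hA.eigenvalues i) :=
  sum_eig_eq_of_charpoly_eq hB hA (charpoly_reindex e A) φ

theorem vnEntropy_reindex (A : Matrix n n ℂ) (e : n ≃ m) :
    vnEntropy (reindex e e A) = vnEntropy A := by
  by_cases hA : A.IsHermitian
  · have hB : (reindex e e A).IsHermitian := by
      simpa [IsHermitian] using (hA.submatrix e.symm)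
    rw [vnEntropy_eq_sum hA, vnEntropy_eq_sum hB]
    exact sum_eig_reindex hA e hB _
  · have hB : ¬ (reindex e e A).IsHermitian := by
      intro h
      apply hA
      have := h.submatrix e
      simpa [reindex] using this
    simp [vnEntropy, hA]

theorem sum_eig_fromBlocks_diag {A : Matrix n n ℂ} {B : Matrix m m ℂ} (hA : A.IsHermitian)
    (hB : B.IsHermitian) (hAB : (fromBlocks A 0 0 B).IsHermitian) (φ : ℝ → ℝ) :
    ∑ i, φ (hAB.eigenvalues i) = ∑ i, φ (hA.eigenvalues i) + ∑ i, φ (hB.eigenvalues i) := by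
  have := sum_eig_eq_of_charpoly hAB (Sum.elim hA.eigenvalues hB.eigenvalues) ?_ φ
  · rw [this, Fintype.sum_sum_type]; simp
  · rw [charpoly_fromBlocks_zero₁₂, charpoly_eq_prod_eigenvalues hA, charpoly_eq_prod_eigenvalues hB,
      Fintype.prod_sum_type]
    simp

theorem vnEntropy_fromBlocks_diag {A : Matrix n n ℂ} {B : Matrix m m ℂ} (hA : A.IsHermitian)
    (hB : B.IsHermitian) : vnEntropy (fromBlocks A 0 0 B) = vnEntropy A + vnEntropy B := by
  have hAB : (fromBlocks A 0 0 B).IsHermitian :=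
    IsHermitian.fromBlocks hA (by simp) hB
  rw [vnEntropy_eq_sum hAB, vnEntropy_eq_sum hA, vnEntropy_eq_sum hB]
  exact sum_eig_fromBlocks_diag hA hB hAB _

theorem sum_eig_kronecker {A : Matrix n n ℂ} {B : Matrix m m ℂ} (hA : A.IsHermitian)
    (hB : B.IsHermitian) (hAB : (A ⊗ₖ B).IsHermitian) (φ : ℝ → ℝ) :
    ∑ i, φ (hAB.eigenvalues i) = ∑ i, ∑ j, φ (hA.eigenvalues i * hB.eigenvalues j) := by
  have := sum_eig_eq_of_charpoly hAB (fun p : n × m => hA.eigenvalues p.1 * hB.eigenvalues p.2) ?_ φ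
  · rw [this, Fintype.sum_prod_type]
  · set U := (hA.eigenvectorUnitary : Matrix n n ℂ) with hUdef
    set V := (hB.eigenvectorUnitary : Matrix m m ℂ) with hVdef
    have hU : star U * U = 1 := Unitary.coe_star_mul_self _
    have hV : star V * V = 1 := Unitary.coe_star_mul_self _
    have hUV : star (U ⊗ₖ V) * (U ⊗ₖ V) = 1 := by
      rw [star_eq_conjTranspose, conjTranspose_kronecker, ← star_eq_conjTranspose, ← star_eq_conjTranspose,
        ← mul_kronecker_mul, hU, hV, one_kronecker_one]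
    have hAB' : A ⊗ₖ B = (U ⊗ₖ V) *
        diagonal (fun p : n × m => ((hA.eigenvalues p.1 * hB.eigenvalues p.2 : ℝ) : ℂ)) *
        star (U ⊗ₖ V) := by
      have h2 : diagonal (fun p : n × m => ((hA.eigenvalues p.1 * hB.eigenvalues p.2 : ℝ) : ℂ))
          = diagonal (fun i => ((hA.eigenvalues i : ℝ) : ℂ)) ⊗ₖ
            diagonal (fun i => ((hB.eigenvalues i : ℝ) : ℂ)) := by
        rw [diagonal_kronecker_diagonal]
        congr 1
        funext p
        simp
      rw [h2, star_eq_conjTranspose, conjTranspose_kronecker, ← star_eq_conjTranspose, ← star_eq_conjTranspose,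
        ← mul_kronecker_mul, ← mul_kronecker_mul, ← eq_unitary_diag hA, ← eq_unitary_diag hB]
    rw [hAB', charpoly_unitary_diag hUV]

end

end Crest.Agent.GADC
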